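import Vale.Agent.P143.Law

/-!
# P143 : approximation of the law of the forest by the field after `K` stages
-/

open MeasureTheory ProbabilityTheory Filter Topology Real

namespace P143

namespace ApproxAux

open LawAux

variable {V : Type*}

/-! ### psi -/

theorem psi_pos (x : ℝ) : 0 < psi x := by
  unfold psi
  positivity

theorem psi_le_one (x : ℝ) : psi x ≤ 1 := by
  unfold psi
  rw [div_le_one (by positivity)]
  have := exp_pos (-x)
  linarith

theorem measurable_psi : Measurable psi := by
  unfold psi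
  fun_prop

/-- `(1 - ψ(x)) e^x = ψ(x)` -/
theorem one_sub_psi_mul_exp (x : ℝ) : (1 - psi x) * exp x = psi x := by
  unfold psi
  have h1 : exp x * exp (-x) = 1 := by rw [← exp_add]; simp
  have h2 : (1 : ℝ) + exp (-x) ≠ 0 := by positivity
  field_simp
  linarith

theorem psi_le_exp_half (x : ℝ) : psi x ≤ exp (x / 2) := by
  unfold psi
  rw [div_le_iff₀ (by positivity)]
  have h1 : exp (x / 2) * exp (-x) = exp (-(x / 2)) := by
    rw [← exp_add]
    congr 1
    ring
  rw [mul_add, mul_one, h1]
  have h2 : exp (x / 2) * exp (-(x / 2)) = 1 := by rw [← exp_add]; simp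
  nlinarith [exp_pos (x / 2), exp_pos (-(x / 2)), sq_nonneg (exp (x / 2) - exp (-(x / 2)))]

/-! ### independence of the rows -/

/-- the law of one row -/
noncomputable abbrev nu : Measure (ℕ → unitInterval) :=
  Measure.infinitePi fun _ : ℕ => (volume : Measure unitInterval)

/-- the log-likelihood ratio of one row -/
noncomputable def row (K : ℕ) (w : ℕ → unitInterval) : ℝ :=
  ∑ k ∈ Finset.range K, log (1 / 2 + (w k : ℝ))

theorem measurable_row (K : ℕ) : Measurable (row K) := by
  unfold row
  refine Finset.measurable_sum _ fun k _ => ?_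
  exact measurable_log_half.comp (measurable_pi_apply k)

theorem NN_eq_row {S : Finset (Sym2 V)} {e : Sym2 V} (he : e ∈ S)
    (ζ : Sym2 V → ℕ → unitInterval) (K : ℕ) : NN S ζ K e = row K (ζ e) := by
  simp only [NN, he, if_true, row]

theorem integral_rows (B : Finset (Sym2 V)) (g : Sym2 V → (ℕ → unitInterval) → ℝ)
    (hg : ∀ e, Measurable (g e)) :
    ∫ ζ, ∏ e ∈ B, g e (ζ e) ∂(mu2 (Sym2 V)) = ∏ e ∈ B, ∫ w, g e w ∂nu := by
  have hind : iIndepFun (fun (e : B) (ζ : Sym2 V → ℕ → unitInterval) => g e (ζ e))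
      (mu2 (Sym2 V)) := by
    have h1 : iIndepFun (fun (e : Sym2 V) (ζ : Sym2 V → ℕ → unitInterval) => g e (ζ e))
        (mu2 (Sym2 V)) := iIndepFun_infinitePi (X := g) hg
    exact h1.precomp Subtype.val_injective
  have h2 := hind.integral_fun_prod_eq_prod_integral (fun e =>
    ((hg e).comp (measurable_pi_apply (e : Sym2 V))).aestronglyMeasurable)
  have h3 : ∀ ζ : Sym2 V → ℕ → unitInterval, ∏ e ∈ B, g e (ζ e) = ∏ e : B, g e (ζ e) := fun ζ =>
    (Finset.prod_coe_sort B (fun e => g e (ζ e))).symm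
  simp only [h3]
  rw [h2, ← Finset.prod_coe_sort B (fun e => ∫ w, g e w ∂nu)]
  refine Finset.prod_congr rfl fun e _ => ?_
  have hmp := measurePreserving_eval_infinitePi (fun _ : Sym2 V => nu) (e : Sym2 V)
  have h4 : ∫ w, g e w ∂nu = ∫ ζ, g e (ζ e) ∂(mu2 (Sym2 V)) := by
    conv_lhs => rw [← hmp.map_eq]
    rw [integral_map (measurable_pi_apply _).aemeasurable (hg e).aestronglyMeasurable]
  exact h4.symm

/-- product over the coordinates of one row -/
theorem integral_row (K : ℕ) (g : unitInterval → ℝ) (hg : Measurable g) :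
    ∫ w, ∏ k ∈ Finset.range K, g (w k) ∂nu = (∫ s, g s) ^ K := by
  have hind : iIndepFun (fun (k : Finset.range K) (w : ℕ → unitInterval) => g (w k)) nu := by
    have h1 : iIndepFun (fun (k : ℕ) (w : ℕ → unitInterval) => g (w k)) nu :=
      iIndepFun_infinitePi (X := fun _ => g) (fun _ => hg)
    exact h1.precomp Subtype.val_injective
  have h2 := hind.integral_fun_prod_eq_prod_integral (fun k =>
    (hg.comp (measurable_pi_apply (k : ℕ))).aestronglyMeasurable)
  have h3 : ∀ w : ℕ → unitInterval, ∏ k ∈ Finset.range K, g (w k) =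
      ∏ k : Finset.range K, g (w k) := fun w =>
    (Finset.prod_coe_sort (Finset.range K) (fun k => g (w k))).symm
  simp only [h3]
  rw [h2]
  have h4 : ∀ k : ℕ, ∫ w : ℕ → unitInterval, g (w k) ∂nu = ∫ s, g s := by
    intro k
    have hmp := measurePreserving_eval_infinitePi
      (fun _ : ℕ => (volume : Measure unitInterval)) k
    conv_rhs => rw [← hmp.map_eq]
    rw [integral_map (measurable_pi_apply k).aemeasurable hg.aestronglyMeasurable]
  simp only [h4, Finset.prod_const, Finset.card_univ, Fintype.card_coe, Finset.card_range]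

theorem half_pos (s : unitInterval) : (0 : ℝ) < 1 / 2 + (s : ℝ) := by
  have h0 : (0 : ℝ) ≤ s := s.2.1
  linarith

theorem exp_row (K : ℕ) (w : ℕ → unitInterval) :
    exp (row K w) = ∏ k ∈ Finset.range K, (1 / 2 + (w k : ℝ)) := by
  rw [row, exp_sum]
  exact Finset.prod_congr rfl fun k _ => exp_log (half_pos _)

theorem exp_half_row (K : ℕ) (w : ℕ → unitInterval) :
    exp (row K w / 2) = ∏ k ∈ Finset.range K, √(1 / 2 + (w k : ℝ)) := by
  rw [row, Finset.sum_div, exp_sum]
  refine Finset.prod_congr rfl fun k _ => ?_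
  rw [exp_half, exp_log (half_pos _)]

theorem integral_exp_row (K : ℕ) : ∫ w, exp (row K w) ∂nu = 1 := by
  simp only [exp_row]
  rw [integral_row K (fun s => 1 / 2 + (s : ℝ)) (by fun_prop), integral_id_half, one_pow]

theorem integral_exp_half_row (K : ℕ) : ∫ w, exp (row K w / 2) ∂nu = rho ^ K := by
  simp only [exp_half_row]
  rw [integral_row K (fun s => √(1 / 2 + (s : ℝ))) (by fun_prop)]
  rfl

theorem integrable_exp_half_row (K : ℕ) : Integrable (fun w => exp (row K w / 2)) nu := by
  refine integrable_of_bdd (C := exp (K / 2)) (by have := measurable_row K; fun_prop) fun w => ?_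
  rw [abs_of_pos (exp_pos _), exp_le_exp]
  have h1 : row K w ≤ K := by
    calc row K w ≤ ∑ _k ∈ Finset.range K, (1 : ℝ) :=
        Finset.sum_le_sum fun k _ => log_le_one _
      _ = K := by simp
  linarith

open Classical in
/-- one observed edge against the weight of a base -/
theorem integral_edge {S B : Finset (Sym2 V)} (hB : B ⊆ S) {e : Sym2 V} (he : e ∈ S) (K : ℕ)
    {h : ℝ → ℝ} (hh : Measurable h) {h' : ℝ → ℝ} (hh' : Measurable h')
    (h1 : ∀ x, h x * exp x = h' x) :
    ∫ ζ, h (NN S ζ K e) * wt (NN S ζ K) B ∂(mu2 (Sym2 V)) =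
      if e ∈ B then ∫ w, h' (row K w) ∂nu else ∫ w, h (row K w) ∂nu := by
  classical
  by_cases heB : e ∈ B
  · rw [if_pos heB]
    let g : Sym2 V → (ℕ → unitInterval) → ℝ := fun f w =>
      if f = e then h' (row K w) else exp (row K w)
    have hg : ∀ f, Measurable (g f) := by
      intro f
      by_cases hf : f = e
      · simp only [g, hf, if_true]
        exact hh'.comp (measurable_row K)
      · simp only [g, hf, if_false]
        exact measurable_exp.comp (measurable_row K)
    have h2 : ∀ ζ : Sym2 V → ℕ → unitInterval, h (NN S ζ K e) * wt (NN S ζ K) B =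
        ∏ f ∈ B, g f (ζ f) := by
      intro ζ
      rw [← Finset.mul_prod_erase B _ heB]
      have h3 : wt (NN S ζ K) B = exp (NN S ζ K e) * ∏ f ∈ B.erase e, exp (NN S ζ K f) := by
        rw [wt, exp_sum, ← Finset.mul_prod_erase B _ heB]
      rw [h3, ← mul_assoc, h1]
      simp only [g, if_true, NN_eq_row he]
      congr 1
      refine Finset.prod_congr rfl fun f hf => ?_
      rw [if_neg (Finset.ne_of_mem_erase hf), NN_eq_row (hB (Finset.mem_of_mem_erase hf))]
    simp only [h2]
    rw [integral_rows B g hg, ← Finset.mul_prod_erase B _ heB]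
    have h4 : ∏ f ∈ B.erase e, ∫ w, g f w ∂nu = 1 := by
      refine Finset.prod_eq_one fun f hf => ?_
      simp only [g, Finset.ne_of_mem_erase hf, if_false]
      exact integral_exp_row K
    rw [h4, mul_one]
    simp only [g, if_true]
  · rw [if_neg heB]
    let g : Sym2 V → (ℕ → unitInterval) → ℝ := fun f w =>
      if f = e then h (row K w) else exp (row K w)
    have hg : ∀ f, Measurable (g f) := by
      intro f
      by_cases hf : f = e
      · simp only [g, hf, if_true]
        exact hh.comp (measurable_row K)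
      · simp only [g, hf, if_false]
        exact measurable_exp.comp (measurable_row K)
    have h2 : ∀ ζ : Sym2 V → ℕ → unitInterval, h (NN S ζ K e) * wt (NN S ζ K) B =
        ∏ f ∈ insert e B, g f (ζ f) := by
      intro ζ
      rw [Finset.prod_insert heB]
      simp only [g, if_true, NN_eq_row he]
      congr 1
      rw [wt, exp_sum]
      refine Finset.prod_congr rfl fun f hf => ?_
      have hfe : f ≠ e := fun h => heB (by rw [← h]; exact hf)
      rw [if_neg hfe, NN_eq_row (hB hf)]
    simp only [h2]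
    rw [integral_rows (insert e B) g hg, Finset.prod_insert heB]
    have h4 : ∏ f ∈ B, ∫ w, g f w ∂nu = 1 := by
      refine Finset.prod_eq_one fun f hf => ?_
      have hfe : f ≠ e := fun h => heB (by rw [← h]; exact hf)
      simp only [g, hfe, if_false]
      exact integral_exp_row K
    rw [h4, mul_one]
    simp only [g, if_true]

theorem integral_wt {S B : Finset (Sym2 V)} (hB : B ⊆ S) (K : ℕ) :
    ∫ ζ, wt (NN S ζ K) B ∂(mu2 (Sym2 V)) = 1 := by
  have h2 : ∀ ζ : Sym2 V → ℕ → unitInterval, wt (NN S ζ K) B =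
      ∏ f ∈ B, exp (row K (ζ f)) := by
    intro ζ
    rw [wt, exp_sum]
    exact Finset.prod_congr rfl fun f hf => by rw [NN_eq_row (hB hf)]
  simp only [h2]
  rw [integral_rows B (fun _ w => exp (row K w)) (fun _ => measurable_exp.comp (measurable_row K))]
  exact Finset.prod_eq_one fun f _ => integral_exp_row K

theorem integral_psi_row_le (K : ℕ) : ∫ w, psi (row K w) ∂nu ≤ rho ^ K := by
  rw [← integral_exp_half_row]
  refine integral_mono ?_ (integrable_exp_half_row K) fun w => psi_le_exp_half _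
  exact integrable_of_bdd (C := 1) (measurable_psi.comp (measurable_row K)) fun w => by
    rw [abs_of_pos (psi_pos _)]
    exact psi_le_one _

theorem integrable_wt_NN {S B : Finset (Sym2 V)} (K : ℕ) {F : (Sym2 V → ℝ) → ℝ}
    (hF : Measurable F) {C : ℝ} (hC : ∀ x, |F x| ≤ C) :
    Integrable (fun ζ => F (NN S ζ K) * wt (NN S ζ K) B) (mu2 (Sym2 V)) := by
  refine integrable_of_bdd (C := C * exp (∑ _f ∈ B, (K : ℝ)))
    ((hF.comp (measurable_NN S K)).mul ((LawAux.measurable_wt B).comp (measurable_NN S K)))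
    fun ζ => ?_
  rw [abs_mul, abs_of_pos (P143.wt_pos _ _)]
  refine mul_le_mul (hC _) ?_ (P143.wt_pos _ _).le ((abs_nonneg _).trans (hC 0))
  exact exp_le_exp.2 (Finset.sum_le_sum fun f _ => NN_le S ζ K f)

theorem ZZ_zero (S : Finset (Sym2 V)) : ZZ S 0 = ((bases S).card : ℝ) := by
  simp [ZZ, wt]

/-- the law of the field as a mixture over the bases -/
theorem law_mix [Countable V] {S : Finset (Sym2 V)} (hS : Loopless (S : Set (Sym2 V)))
    {t : Sym2 V → ℝ} (ht : Set.InjOn t S) (K : ℕ) {φ : (Sym2 V → ℝ) → ℝ} (hφ : Measurable φ)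
    {M : ℝ} (hM : ∀ x, |φ x| ≤ M) :
    ∫ u, φ (XX S t u K) ∂UU V =
      (((bases S).card : ℝ))⁻¹ *
        ∑ B ∈ bases S, ∫ ζ, φ (NN S ζ K) * wt (NN S ζ K) B ∂(mu2 (Sym2 V)) := by
  rw [law_XX hS ht K hφ hM, ← integral_finsetSum _ fun B _ => integrable_wt_NN K hφ hM,
    ← integral_const_mul]
  refine integral_congr_ae (Eventually.of_forall fun ζ => ?_)
  simp only
  rw [ZZ_zero, ZZ, ← Finset.mul_sum]
  ring

/-! ### products -/

theorem abs_prod_sub_prod_le {ι : Type*} (F : Finset ι) (a b : ι → ℝ)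
    (ha : ∀ i, 0 ≤ a i ∧ a i ≤ 1) (hb : ∀ i, 0 ≤ b i ∧ b i ≤ 1) :
    |∏ i ∈ F, a i - ∏ i ∈ F, b i| ≤ ∑ i ∈ F, |a i - b i| := by
  classical
  induction F using Finset.induction_on with
  | empty => simp
  | insert i F hi ih =>
    rw [Finset.prod_insert hi, Finset.prod_insert hi, Finset.sum_insert hi]
    have h1 : a i * ∏ j ∈ F, a j - b i * ∏ j ∈ F, b j =
        (a i - b i) * ∏ j ∈ F, a j + b i * (∏ j ∈ F, a j - ∏ j ∈ F, b j) := by ring
    have h2 : 0 ≤ ∏ j ∈ F, a j := Finset.prod_nonneg fun j _ => (ha j).1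
    have h3 : ∏ j ∈ F, a j ≤ 1 := Finset.prod_le_one (fun j _ => (ha j).1) fun j _ => (ha j).2
    rw [h1]
    calc |(a i - b i) * ∏ j ∈ F, a j + b i * (∏ j ∈ F, a j - ∏ j ∈ F, b j)|
        ≤ |(a i - b i) * ∏ j ∈ F, a j| + |b i * (∏ j ∈ F, a j - ∏ j ∈ F, b j)| := abs_add_le _ _
      _ = |a i - b i| * ∏ j ∈ F, a j + b i * |∏ j ∈ F, a j - ∏ j ∈ F, b j| := by
          rw [abs_mul, abs_mul, abs_of_nonneg h2, abs_of_nonneg (hb i).1]
      _ ≤ |a i - b i| * 1 + 1 * ∑ j ∈ F, |a j - b j| := by
          refine add_le_add (mul_le_mul_of_nonneg_left h3 (abs_nonneg _)) ?_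
          exact mul_le_mul (hb i).2 ih (abs_nonneg _) zero_le_one
      _ = _ := by ring

open Classical in
/-- indicator of `B ∩ F = A` as a product -/
theorem ind_eq_prod {F A B : Finset (Sym2 V)} (hA : A ⊆ F) :
    (if B ∩ F = A then (1 : ℝ) else 0) =
      ∏ e ∈ F, if e ∈ A then (if e ∈ B then (1 : ℝ) else 0) else 1 - (if e ∈ B then 1 else 0) := by
  by_cases h : B ∩ F = A
  · rw [if_pos h]
    symm
    refine Finset.prod_eq_one fun e he => ?_
    by_cases heA : e ∈ A
    · have heB : e ∈ B := by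
        rw [← h] at heA
        exact (Finset.mem_inter.1 heA).1
      simp [heA, heB]
    · have heB : e ∉ B := fun hB => heA (by rw [← h]; exact Finset.mem_inter.2 ⟨hB, he⟩)
      simp [heA, heB]
  · rw [if_neg h]
    symm
    have h2 : ∃ e ∈ F, (e ∈ A ∧ e ∉ B) ∨ (e ∉ A ∧ e ∈ B) := by
      by_contra hcon
      push Not at hcon
      apply h
      ext e
      rw [Finset.mem_inter]
      constructor
      · rintro ⟨heB, heF⟩
        by_contra heA
        exact (hcon e heF).2 heA heB
      · intro heA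
        exact ⟨(hcon e (hA heA)).1 heA, hA heA⟩
    obtain ⟨e, heF, he⟩ := h2
    refine Finset.prod_eq_zero heF ?_
    rcases he with ⟨h3, h4⟩ | ⟨h3, h4⟩
    · simp [h3, h4]
    · simp [h3, h4]

open Classical in
theorem gg_sub_le {F A : Finset (Sym2 V)} (hA : A ⊆ F) (B : Finset (Sym2 V)) (x : Sym2 V → ℝ) :
    |gg F A x - (if B ∩ F = A then (1 : ℝ) else 0)| ≤
      ∑ e ∈ F, |psi (x e) - (if e ∈ B then (1 : ℝ) else 0)| := by
  rw [ind_eq_prod hA, gg]
  refine (abs_prod_sub_prod_le F _ _ (fun e => ?_) (fun e => ?_)).trans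
    (Finset.sum_le_sum fun e _ => ?_)
  · have h1 := psi_pos (x e)
    have h2 := psi_le_one (x e)
    split_ifs
    · exact ⟨h1.le, h2⟩
    · exact ⟨by linarith, by linarith⟩
  · split_ifs <;> norm_num
  · split_ifs
    · exact le_rfl
    · exact le_rfl
    · rw [show (1 - psi (x e) - (1 - 1)) = -(psi (x e) - 1) by ring, abs_neg]
    · rw [show (1 - psi (x e) - (1 - 0)) = -(psi (x e) - 0) by ring, abs_neg]

theorem measurable_gg (F A : Finset (Sym2 V)) : Measurable (gg F A) := by
  unfold gg
  refine Finset.measurable_prod _ fun e _ => ?_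
  by_cases h : e ∈ A
  · simp only [h, if_true]
    exact measurable_psi.comp (measurable_pi_apply e)
  · simp only [h, if_false]
    exact measurable_const.sub (measurable_psi.comp (measurable_pi_apply e))

open Classical in
theorem abs_gg_le (F A : Finset (Sym2 V)) (x : Sym2 V → ℝ) : |gg F A x| ≤ 1 := by
  unfold gg
  have h : ∀ e, 0 ≤ (if e ∈ A then psi (x e) else 1 - psi (x e)) ∧
      (if e ∈ A then psi (x e) else 1 - psi (x e)) ≤ 1 := by
    intro e
    have h1 := psi_pos (x e)
    have h2 := psi_le_one (x e)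
    split_ifs
    · exact ⟨h1.le, h2⟩
    · exact ⟨by linarith, by linarith⟩
  rw [abs_of_nonneg (Finset.prod_nonneg fun e _ => (h e).1)]
  exact Finset.prod_le_one (fun e _ => (h e).1) fun e _ => (h e).2

open Classical in
/-- error of one edge, given the base -/
theorem integral_err {S B : Finset (Sym2 V)} (hB : B ⊆ S) {e : Sym2 V} (he : e ∈ S) (K : ℕ) :
    ∫ ζ, |psi (NN S ζ K e) - (if e ∈ B then (1 : ℝ) else 0)| * wt (NN S ζ K) B
      ∂(mu2 (Sym2 V)) ≤ rho ^ K := by
  by_cases heB : e ∈ B
  · have h1 := integral_edge hB he K (h := fun x => |psi x - 1|) (h' := psi)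
      (by have := measurable_psi; fun_prop) measurable_psi (fun x => by
        rw [abs_sub_comm, abs_of_nonneg (by have := psi_le_one x; linarith)]
        exact one_sub_psi_mul_exp x)
    simp only [heB, if_true] at h1 ⊢
    rw [h1]
    exact integral_psi_row_le K
  · have h1 := integral_edge hB he K (h := fun x => |psi x - 0|)
      (h' := fun x => |psi x - 0| * exp x)
      (by have := measurable_psi; fun_prop) (by have := measurable_psi; fun_prop)
      (fun x => rfl)
    simp only [heB, if_false] at h1 ⊢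
    rw [h1]
    have h2 : ∀ w, |psi (row K w) - 0| = psi (row K w) := fun w => by
      rw [sub_zero, abs_of_pos (psi_pos _)]
    simp only [h2]
    exact integral_psi_row_le K

end ApproxAux

open ApproxAux LawAux

variable {V : Type*}

theorem approx_gg [Countable V] {S : Finset (Sym2 V)} (hS : Loopless (S : Set (Sym2 V)))
    {t : Sym2 V → ℝ} (ht : Set.InjOn t S) (K : ℕ) {F A : Finset (Sym2 V)} (hF : F ⊆ S)
    (hA : A ⊆ F) :
    |∫ u, gg F A (XX S t u K) ∂UU V - ustP S F A| ≤ F.card * rho ^ K := by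
  classical
  rw [law_mix hS ht K (measurable_gg F A) (abs_gg_le F A)]
  have hcard : (0 : ℝ) < (bases S).card := by
    exact_mod_cast Finset.card_pos.2 (bases_nonempty hS)
  have hB : ∀ B ∈ bases S, B ⊆ S := fun B hB => (mem_bases.1 hB).1
  have hust : ustP S F A = (((bases S).card : ℝ))⁻¹ *
      ∑ B ∈ bases S, (if B ∩ F = A then (1 : ℝ) else 0) := by
    rw [ustP, div_eq_inv_mul]
    congr 1
    rw [Finset.sum_ite, Finset.sum_const_zero, add_zero, Finset.sum_const, nsmul_eq_mul, mul_one]
  have hdiff : ∀ B ∈ bases S,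
      |∫ ζ, gg F A (NN S ζ K) * wt (NN S ζ K) B ∂(mu2 (Sym2 V)) -
        (if B ∩ F = A then (1 : ℝ) else 0)| ≤ F.card * rho ^ K := by
    intro B hBm
    have hBS := hB B hBm
    set c : ℝ := if B ∩ F = A then (1 : ℝ) else 0 with hc
    have i1 := integrable_wt_NN (S := S) (B := B) K (measurable_gg F A) (abs_gg_le F A)
    have i2 : Integrable (fun ζ => c * wt (NN S ζ K) B) (mu2 (Sym2 V)) :=
      integrable_wt_NN (S := S) (B := B) K (F := fun _ => c) measurable_const
        (C := |c|) (fun _ => le_rfl)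
    have i3 : ∀ e ∈ F, Integrable (fun ζ => |psi (NN S ζ K e) - (if e ∈ B then (1 : ℝ) else 0)| *
        wt (NN S ζ K) B) (mu2 (Sym2 V)) := by
      intro e _
      refine integrable_wt_NN (S := S) (B := B) K
        (F := fun x => |psi (x e) - (if e ∈ B then (1 : ℝ) else 0)|)
        (by have := measurable_psi; fun_prop) (C := 1) (fun x => ?_)
      rw [abs_abs]
      have h1 := psi_pos (x e)
      have h2 := psi_le_one (x e)
      split_ifs
      · rw [abs_le]; constructor <;> linarith
      · rw [abs_le]; constructor <;> linarith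
    have h1 : c = ∫ ζ, c * wt (NN S ζ K) B ∂(mu2 (Sym2 V)) := by
      rw [integral_const_mul, integral_wt hBS, mul_one]
    calc |∫ ζ, gg F A (NN S ζ K) * wt (NN S ζ K) B ∂(mu2 (Sym2 V)) - c|
        = |∫ ζ, (gg F A (NN S ζ K) * wt (NN S ζ K) B - c * wt (NN S ζ K) B)
            ∂(mu2 (Sym2 V))| := by
          rw [integral_sub i1 i2, ← h1]
      _ ≤ ∫ ζ, |gg F A (NN S ζ K) * wt (NN S ζ K) B - c * wt (NN S ζ K) B|
            ∂(mu2 (Sym2 V)) := abs_integral_le_integral_abs
      _ ≤ ∫ ζ, ∑ e ∈ F, |psi (NN S ζ K e) - (if e ∈ B then (1 : ℝ) else 0)| *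
            wt (NN S ζ K) B ∂(mu2 (Sym2 V)) := by
          refine integral_mono (i1.sub i2).abs (integrable_finsetSum _ i3) fun ζ => ?_
          simp only
          rw [← sub_mul, abs_mul, abs_of_pos (P143.wt_pos _ _), ← Finset.sum_mul]
          exact mul_le_mul_of_nonneg_right (gg_sub_le hA B _) (P143.wt_pos _ _).le
      _ = ∑ e ∈ F, ∫ ζ, |psi (NN S ζ K e) - (if e ∈ B then (1 : ℝ) else 0)| *
            wt (NN S ζ K) B ∂(mu2 (Sym2 V)) := integral_finsetSum _ i3
      _ ≤ ∑ _e ∈ F, rho ^ K := Finset.sum_le_sum fun e he => integral_err hBS (hF he) K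
      _ = F.card * rho ^ K := by rw [Finset.sum_const, nsmul_eq_mul]
  rw [hust, ← mul_sub, ← Finset.sum_sub_distrib, abs_mul, abs_of_pos (inv_pos.2 hcard)]
  calc ((bases S).card : ℝ)⁻¹ * |∑ B ∈ bases S,
        (∫ ζ, gg F A (NN S ζ K) * wt (NN S ζ K) B ∂(mu2 (Sym2 V)) -
          (if B ∩ F = A then (1 : ℝ) else 0))|
      ≤ ((bases S).card : ℝ)⁻¹ * ∑ B ∈ bases S, (F.card * rho ^ K : ℝ) := by
        refine mul_le_mul_of_nonneg_left ?_ (inv_pos.2 hcard).le
        exact (Finset.abs_sum_le_sum_abs _ _).trans (Finset.sum_le_sum hdiff)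
    _ = F.card * rho ^ K := by
        rw [Finset.sum_const, nsmul_eq_mul, ← mul_assoc, inv_mul_cancel₀ hcard.ne', one_mul]

theorem var_small [Countable V] {S : Finset (Sym2 V)} (hS : Loopless (S : Set (Sym2 V)))
    {t : Sym2 V → ℝ} (ht : Set.InjOn t S) (K : ℕ) {e : Sym2 V} (he : e ∈ S) :
    ∫ u, psi (XX S t u K e) * (1 - psi (XX S t u K e)) ∂UU V ≤ rho ^ K := by
  classical
  have hcard : (0 : ℝ) < (bases S).card := by
    exact_mod_cast Finset.card_pos.2 (bases_nonempty hS)
  have hbd : ∀ x : ℝ, 0 ≤ psi x * (1 - psi x) ∧ psi x * (1 - psi x) ≤ psi x := by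
    intro x
    have h1 := psi_pos x
    have h2 := psi_le_one x
    constructor <;> nlinarith
  have hm : Measurable fun x : ℝ => psi x * (1 - psi x) :=
    measurable_psi.mul (measurable_const.sub measurable_psi)
  have hmix := law_mix hS ht K (φ := fun x => psi (x e) * (1 - psi (x e)))
    (hm.comp (measurable_pi_apply e)) (M := 1) (fun x => by
      rw [abs_of_nonneg (hbd _).1]
      exact (hbd _).2.trans (psi_le_one _))
  rw [hmix]
  have hone : ∀ B ∈ bases S, ∫ ζ, psi (NN S ζ K e) * (1 - psi (NN S ζ K e)) *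
      wt (NN S ζ K) B ∂(mu2 (Sym2 V)) ≤ rho ^ K := by
    intro B hBm
    have hBS : B ⊆ S := (mem_bases.1 hBm).1
    have h1 := integral_edge hBS he K (h := fun x => psi x * (1 - psi x))
      (h' := fun x => psi x * psi x) hm (measurable_psi.mul measurable_psi) (fun x => by
        rw [mul_assoc, one_sub_psi_mul_exp])
    rw [h1]
    have ip : Integrable (fun w => psi (row K w)) nu :=
      integrable_of_bdd (C := 1) (measurable_psi.comp (measurable_row K)) fun w => by
        rw [abs_of_pos (psi_pos _)]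
        exact psi_le_one _
    split_ifs
    · refine le_trans (integral_mono ?_ ip fun w => ?_) (integral_psi_row_le K)
      · refine integrable_of_bdd (C := 1)
          ((measurable_psi.mul measurable_psi).comp (measurable_row K)) fun w => ?_
        have h1 := psi_pos (row K w)
        have h2 := psi_le_one (row K w)
        rw [abs_of_nonneg (by positivity)]
        nlinarith
      · have h1 := psi_pos (row K w)
        have h2 := psi_le_one (row K w)
        simp only
        nlinarith
    · refine le_trans (integral_mono ?_ ip fun w => (hbd _).2) (integral_psi_row_le K)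
      refine integrable_of_bdd (C := 1) (hm.comp (measurable_row K)) fun w => ?_
      rw [abs_of_nonneg (hbd _).1]
      exact (hbd _).2.trans (psi_le_one _)
  calc ((bases S).card : ℝ)⁻¹ * ∑ B ∈ bases S, ∫ ζ, psi (NN S ζ K e) * (1 - psi (NN S ζ K e)) *
        wt (NN S ζ K) B ∂(mu2 (Sym2 V))
      ≤ ((bases S).card : ℝ)⁻¹ * ∑ _B ∈ bases S, rho ^ K :=
        mul_le_mul_of_nonneg_left (Finset.sum_le_sum hone) (inv_pos.2 hcard).le
    _ = rho ^ K := by
        rw [Finset.sum_const, nsmul_eq_mul, ← mul_assoc, inv_mul_cancel₀ hcard.ne', one_mul]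

end P143
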