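import Vale.Agent.P143.Defs

/-!
# P143: bases of a finite edge set and incidence vectors
-/

open MeasureTheory Filter Topology Real

namespace P143

variable {V : Type*}

theorem mk_src_tgt (e : Sym2 V) : s(src e, tgt e) = e := Quot.out_eq e

/-- the unit vector of a vertex -/
noncomputable def vec (v : V) : V → ℝ := by
  classical exact Pi.single v 1

theorem inc_eq (e : Sym2 V) : inc e = vec (tgt e) - vec (src e) := rfl

theorem inc_mk (a b : V) : inc s(a, b) = vec b - vec a ∨ inc s(a, b) = vec a - vec b := by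
  have h := mk_src_tgt s(a, b)
  rw [Sym2.eq_iff] at h
  rw [inc_eq]
  rcases h with ⟨h1, h2⟩ | ⟨h1, h2⟩
  · left; rw [h1, h2]
  · right; rw [h1, h2]

theorem src_ne_tgt {e : Sym2 V} (he : ¬ e.IsDiag) : src e ≠ tgt e := by
  intro h
  apply he
  rw [← mk_src_tgt e, Sym2.mk_isDiag_iff]
  exact h

/-- the linear functional given by a potential and a finite set of vertices -/
noncomputable def pot (T : Finset V) (φ : V → ℝ) : (V → ℝ) →ₗ[ℝ] ℝ where
  toFun f := ∑ w ∈ T, φ w * f w
  map_add' f g := by
    simp only [Pi.add_apply, mul_add, Finset.sum_add_distrib]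
  map_smul' c f := by
    simp only [Pi.smul_apply, smul_eq_mul, RingHom.id_apply, Finset.mul_sum]
    exact Finset.sum_congr rfl fun w _ => by ring

theorem pot_vec {T : Finset V} (φ : V → ℝ) {v : V} (hv : v ∈ T) : pot T φ (vec v) = φ v := by
  classical
  change ∑ w ∈ T, φ w * vec v w = φ v
  have h : ∀ w ∈ T, φ w * vec v w = if w = v then φ v else 0 := by
    intro w _
    unfold vec
    by_cases h : w = v
    · subst h; simp
    · simp [h]
  rw [Finset.sum_congr rfl h]
  simp [hv]

open Classical in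
/-- all endpoints of the edges of `F` -/
noncomputable def ends (F : Finset (Sym2 V)) : Finset V := F.image src ∪ F.image tgt

theorem src_mem_ends {F : Finset (Sym2 V)} {f : Sym2 V} (hf : f ∈ F) : src f ∈ ends F := by
  classical
  exact Finset.mem_union_left _ (Finset.mem_image_of_mem _ hf)

theorem tgt_mem_ends {F : Finset (Sym2 V)} {f : Sym2 V} (hf : f ∈ F) : tgt f ∈ ends F := by
  classical
  exact Finset.mem_union_right _ (Finset.mem_image_of_mem _ hf)

theorem adj_iff {F : Set (Sym2 V)} (hF : Loopless F) (a b : V) :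
    (SimpleGraph.fromEdgeSet F).Adj a b ↔ s(a, b) ∈ F := by
  rw [SimpleGraph.fromEdgeSet_adj]
  constructor
  · exact fun h => h.1
  · intro h
    refine ⟨h, fun hab => hF _ h ?_⟩
    rw [Sym2.mk_isDiag_iff]; exact hab

theorem vec_sub_mem_span {F : Set (Sym2 V)} (hF : Loopless F) {a b : V}
    (h : (SimpleGraph.fromEdgeSet F).Reachable a b) :
    vec b - vec a ∈ Submodule.span ℝ (inc '' F) := by
  obtain ⟨p⟩ := h
  induction p with
  | nil => rw [sub_self]; exact Submodule.zero_mem _
  | cons hadj p ih =>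
    rename_i u v w
    have h1 : vec v - vec u ∈ Submodule.span ℝ (inc '' F) := by
      have hm : s(u, v) ∈ F := (adj_iff hF u v).1 hadj
      have h2 : inc s(u, v) ∈ Submodule.span ℝ (inc '' F) :=
        Submodule.subset_span ⟨_, hm, rfl⟩
      rcases inc_mk u v with h | h
      · rw [← h]; exact h2
      · have := Submodule.neg_mem _ h2
        rw [h, neg_sub] at this
        exact this
    have h3 := Submodule.add_mem _ ih h1
    have h4 : vec w - vec v + (vec v - vec u) = (vec w - vec u : V → ℝ) := by abel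
    rw [h4] at h3
    exact h3

theorem reachable_tgt_iff {F : Set (Sym2 V)} (hF : Loopless F) {f : Sym2 V} (hf : f ∈ F) (a : V) :
    (SimpleGraph.fromEdgeSet F).Reachable a (tgt f) ↔
      (SimpleGraph.fromEdgeSet F).Reachable a (src f) := by
  have hadj : (SimpleGraph.fromEdgeSet F).Adj (src f) (tgt f) := by
    rw [adj_iff hF, mk_src_tgt]; exact hf
  exact ⟨fun h => h.trans hadj.symm.reachable, fun h => h.trans hadj.reachable⟩

theorem reachable_of_mem_span {F : Finset (Sym2 V)} (hF : Loopless (F : Set (Sym2 V))) {a b : V}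
    (h : vec b - vec a ∈ Submodule.span ℝ (inc '' (F : Set (Sym2 V)))) :
    (SimpleGraph.fromEdgeSet (F : Set (Sym2 V))).Reachable a b := by
  classical
  by_contra hab
  set φ : V → ℝ := fun w =>
    if (SimpleGraph.fromEdgeSet (F : Set (Sym2 V))).Reachable a w then 1 else 0 with hφ
  set T : Finset V := insert a (insert b (ends F)) with hT
  have haT : a ∈ T := Finset.mem_insert_self _ _
  have hbT : b ∈ T := Finset.mem_insert_of_mem (Finset.mem_insert_self _ _)
  have h0 : ∀ x ∈ Submodule.span ℝ (inc '' (F : Set (Sym2 V))), pot T φ x = 0 := by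
    intro x hx
    induction hx using Submodule.span_induction with
    | mem x hx =>
      obtain ⟨f, hf, rfl⟩ := hx
      have hf' : f ∈ F := hf
      rw [inc_eq, map_sub, pot_vec, pot_vec]
      · have := reachable_tgt_iff hF hf a
        simp only [hφ, this, sub_self]
      · exact Finset.mem_insert_of_mem (Finset.mem_insert_of_mem (src_mem_ends hf'))
      · exact Finset.mem_insert_of_mem (Finset.mem_insert_of_mem (tgt_mem_ends hf'))
    | zero => exact map_zero _
    | add x y _ _ hx hy => rw [map_add, hx, hy, add_zero]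
    | smul c x _ hx => rw [map_smul, hx, smul_zero]
  have h1 := h0 _ h
  rw [map_sub, pot_vec φ hbT, pot_vec φ haT] at h1
  have h2 : φ a = 1 := by
    simp only [hφ]; rw [if_pos (SimpleGraph.Reachable.refl a)]
  have h3 : φ b = 0 := by
    simp only [hφ]; rw [if_neg hab]
  rw [h2, h3] at h1
  norm_num at h1

theorem inc_mem_span_iff {F : Finset (Sym2 V)} (hF : Loopless (F : Set (Sym2 V))) (a b : V) :
    inc s(a, b) ∈ Submodule.span ℝ (inc '' (F : Set (Sym2 V))) ↔
      (SimpleGraph.fromEdgeSet (F : Set (Sym2 V))).Reachable a b := by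
  rcases inc_mk a b with h | h
  · rw [h]
    exact ⟨reachable_of_mem_span hF, vec_sub_mem_span hF⟩
  · rw [h]
    exact ⟨fun h => (reachable_of_mem_span hF h).symm, fun h => vec_sub_mem_span hF h.symm⟩

theorem acyclic_iff {B : Finset (Sym2 V)} (hB : Loopless (B : Set (Sym2 V))) :
    (SimpleGraph.fromEdgeSet (B : Set (Sym2 V))).IsAcyclic ↔
      LinearIndepOn ℝ inc (B : Set (Sym2 V)) := by
  classical
  rw [SimpleGraph.isAcyclic_iff_forall_isBridge, linearIndepOn_iff_notMem_span]
  have key : ∀ a b : V, s(a, b) ∈ B →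
      ((SimpleGraph.fromEdgeSet (B : Set (Sym2 V))).IsBridge s(a, b) ↔
        inc s(a, b) ∉ Submodule.span ℝ (inc '' ((B : Set (Sym2 V)) \ {s(a, b)}))) := by
    intro a b hab
    have hL : Loopless ((B.erase s(a, b) : Finset (Sym2 V)) : Set (Sym2 V)) := fun f hf =>
      hB f (Finset.mem_of_mem_erase hf)
    have h1 := inc_mem_span_iff hL a b
    rw [Finset.coe_erase] at h1
    rw [h1, SimpleGraph.isBridge_iff, SimpleGraph.deleteEdges_fromEdgeSet]
  constructor
  · intro h f hf
    induction f using Sym2.ind with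
    | _ a b =>
      refine (key a b hf).1 (h ?_)
      rw [SimpleGraph.mem_edgeSet, adj_iff hB]; exact hf
  · intro h f hf
    induction f using Sym2.ind with
    | _ a b =>
      rw [SimpleGraph.mem_edgeSet, adj_iff hB] at hf
      exact (key a b hf).2 (h _ hf)

theorem isBase_iff {S : Finset (Sym2 V)} (hS : Loopless (S : Set (Sym2 V)))
    (B : Finset (Sym2 V)) :
    IsBase S B ↔ B ⊆ S ∧ LinearIndependent ℝ (fun f : B => inc (f : Sym2 V)) ∧
      ∀ f ∈ S, inc f ∈ Submodule.span ℝ (inc '' (B : Set (Sym2 V))) := by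
  constructor
  · rintro ⟨h1, h2, h3⟩
    have hB : Loopless (B : Set (Sym2 V)) := fun f hf => hS f (h1 hf)
    refine ⟨h1, (acyclic_iff hB).1 h2, ?_⟩
    intro f hf
    induction f using Sym2.ind with
    | _ a b => exact (inc_mem_span_iff hB a b).2 (h3 a b hf)
  · rintro ⟨h1, h2, h3⟩
    have hB : Loopless (B : Set (Sym2 V)) := fun f hf => hS f (h1 hf)
    exact ⟨h1, (acyclic_iff hB).2 h2, fun a b hab => (inc_mem_span_iff hB a b).1 (h3 _ hab)⟩

theorem bases_nonempty {S : Finset (Sym2 V)} (hS : Loopless (S : Set (Sym2 V))) :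
    (bases S).Nonempty := by
  classical
  obtain ⟨b, hb, _, hspan, hind⟩ := exists_linearIndepOn_extension (K := ℝ) (v := inc)
    (s := (∅ : Set (Sym2 V))) (t := (S : Set (Sym2 V))) (linearIndepOn_empty ℝ inc)
    (Set.empty_subset _)
  have hfin : b.Finite := S.finite_toSet.subset hb
  refine ⟨hfin.toFinset, ?_⟩
  rw [bases, Finset.mem_filter, Finset.mem_powerset]
  have hsub : hfin.toFinset ⊆ S := by
    intro f hf
    exact hb (hfin.mem_toFinset.1 hf)
  refine ⟨hsub, (isBase_iff hS _).2 ⟨hsub, ?_, ?_⟩⟩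
  · have : LinearIndepOn ℝ inc ((hfin.toFinset : Finset (Sym2 V)) : Set (Sym2 V)) := by
      rw [hfin.coe_toFinset]; exact hind
    exact this
  · intro f hf
    rw [hfin.coe_toFinset]
    exact hspan ⟨f, hf, rfl⟩

theorem exists_potential {F : Finset (Sym2 V)} (hF : Loopless (F : Set (Sym2 V))) {e : Sym2 V}
    (he : ¬ e.IsDiag) (hne : inc e ∉ Submodule.span ℝ (inc '' (F : Set (Sym2 V)))) :
    ∃ φ : V → ℝ, (∀ v, φ v = 0 ∨ φ v = 1) ∧ (∀ f ∈ F, φ (tgt f) = φ (src f)) ∧
      φ (tgt e) = 1 ∧ φ (src e) = 0 := by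
  classical
  refine ⟨fun w => if (SimpleGraph.fromEdgeSet (F : Set (Sym2 V))).Reachable (tgt e) w
    then 1 else 0, ?_, ?_, ?_, ?_⟩
  · intro v
    by_cases h : (SimpleGraph.fromEdgeSet (F : Set (Sym2 V))).Reachable (tgt e) v
    · right; exact if_pos h
    · left; exact if_neg h
  · intro f hf
    have := reachable_tgt_iff hF (f := f) hf (tgt e)
    simp only [this]
  · exact if_pos (SimpleGraph.Reachable.refl _)
  · apply if_neg
    intro h
    apply hne
    rw [← mk_src_tgt e]
    exact (inc_mem_span_iff hF _ _).2 h.symm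

end P143
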