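import Vale.Agent.P143.Base

/-!
# P143: the unit current as an average over bases (Kirchhoff)
-/

open MeasureTheory Filter Topology Real

namespace P143

variable {V : Type*}

/-- increment of a potential along an edge -/
noncomputable def dphi (φ : V → ℝ) (f : Sym2 V) : ℝ := φ (tgt f) - φ (src f)

theorem sum_dphi {F : Finset (Sym2 V)} {c : Sym2 V → ℝ} (φ : V → ℝ)
    (h : ∀ v, ∑ f ∈ F, c f * inc f v = 0) : ∑ f ∈ F, c f * dphi φ f = 0 := by
  have h1 : pot (ends F) φ (∑ f ∈ F, c f • inc f) = 0 := by
    have : (∑ f ∈ F, c f • inc f) = (0 : V → ℝ) := by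
      ext v
      rw [Finset.sum_apply]
      exact h v
    rw [this, map_zero]
  rw [map_sum] at h1
  rw [← h1]
  refine Finset.sum_congr rfl fun f hf => ?_
  rw [map_smul, inc_eq, map_sub, pot_vec φ (tgt_mem_ends hf), pot_vec φ (src_mem_ends hf)]
  rfl

theorem exists_fun {F : Finset (Sym2 V)} {w : V → ℝ}
    (h : w ∈ Submodule.span ℝ (inc '' (F : Set (Sym2 V)))) :
    ∃ c : Sym2 V → ℝ, ∑ f ∈ F, c f • inc f = w := by
  classical
  rw [Submodule.mem_span_image_finset_iff_exists_fun] at h
  obtain ⟨c, hc⟩ := h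
  refine ⟨fun f => if h : f ∈ F then c ⟨f, h⟩ else 0, ?_⟩
  rw [← hc, ← Finset.sum_coe_sort F]
  refine Finset.sum_congr rfl fun f _ => ?_
  simp only [f.2, dif_pos]

theorem exists_coef {S : Finset (Sym2 V)} (hS : Loopless (S : Set (Sym2 V)))
    {e : Sym2 V} (he : e ∈ S) (B : Finset (Sym2 V)) (hB : IsBase S B) :
    ∃ p : Sym2 V → ℝ, (∀ f ∉ B, p f = 0) ∧ (∀ v, ∑ f ∈ B, p f * inc f v = inc e v) ∧
      ((e ∈ B ∧ p e = 1) ∨ (e ∉ B ∧ p e = 0)) := by
  classical
  by_cases heB : e ∈ B
  · refine ⟨Pi.single e 1, fun f hf => ?_, fun v => ?_, Or.inl ⟨heB, Pi.single_eq_same e 1⟩⟩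
    · refine Pi.single_eq_of_ne ?_ _
      rintro rfl
      exact hf heB
    · rw [Finset.sum_eq_single_of_mem e heB]
      · rw [Pi.single_eq_same, one_mul]
      · intro f _ hf
        rw [Pi.single_eq_of_ne hf, zero_mul]
  · have hspan := ((isBase_iff hS B).1 hB).2.2 e he
    obtain ⟨c, hc⟩ := exists_fun hspan
    refine ⟨fun f => if f ∈ B then c f else 0, fun f hf => if_neg hf, fun v => ?_,
      Or.inr ⟨heB, if_neg heB⟩⟩
    rw [← hc, Finset.sum_apply]
    refine Finset.sum_congr rfl fun f hf => ?_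
    simp only [if_pos hf, Pi.smul_apply, smul_eq_mul]

theorem wt_erase [DecidableEq (Sym2 V)] (x : Sym2 V → ℝ) {B : Finset (Sym2 V)} {f : Sym2 V}
    (hf : f ∈ B) : exp (-x f) * wt x B = wt x (B.erase f) := by
  unfold wt
  rw [← exp_add, ← Finset.add_sum_erase B x hf]
  congr 1
  ring

theorem mem_bases_iff (S B : Finset (Sym2 V)) : B ∈ bases S ↔ IsBase S B := by
  classical
  rw [bases, Finset.mem_filter, Finset.mem_powerset]
  exact ⟨fun h => h.2, fun h => ⟨h.1, h⟩⟩

theorem sum_F [DecidableEq (Sym2 V)] {S : Finset (Sym2 V)} (hS : Loopless (S : Set (Sym2 V)))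
    {e : Sym2 V} (he : e ∈ S) (P : Finset (Sym2 V) → Sym2 V → ℝ)
    (hP1 : ∀ B, IsBase S B → ∀ f ∉ B, P B f = 0)
    (hP2 : ∀ B, IsBase S B → ∀ v, ∑ f ∈ B, P B f * inc f v = inc e v)
    {z : Sym2 V → ℝ} (hz : IsCyc S z) (F : Finset (Sym2 V))
    (A : Finset (Sym2 V)) (hA : ∀ f, f ∈ A ↔ f ∈ S ∧ f ∉ F ∧ IsBase S (insert f F)) :
    ∑ f ∈ A, P (insert f F) f * z f = 0 := by
  by_cases hne : A.Nonempty
  swap
  · rw [Finset.not_nonempty_iff_eq_empty] at hne
    rw [hne, Finset.sum_empty]
  obtain ⟨f₀, hf₀⟩ := hne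
  obtain ⟨hf₀S, hf₀F, hf₀B⟩ := (hA f₀).1 hf₀
  have hFS : F ⊆ S := fun g hg => hf₀B.1 (Finset.mem_insert_of_mem hg)
  by_cases hspan : inc e ∈ Submodule.span ℝ (inc '' (F : Set (Sym2 V)))
  · refine Finset.sum_eq_zero fun f hf => ?_
    obtain ⟨hfS, hfF, hfB⟩ := (hA f).1 hf
    obtain ⟨c, hc⟩ := exists_fun hspan
    have hli := ((isBase_iff hS _).1 hfB).2.1
    have h1 : ∑ g ∈ insert f F, (P (insert f F) g - if g ∈ F then c g else 0) • inc g =
        (0 : V → ℝ) := by
      simp only [sub_smul, Finset.sum_sub_distrib]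
      have e1 : ∑ g ∈ insert f F, P (insert f F) g • inc g = (inc e : V → ℝ) := by
        ext v
        rw [Finset.sum_apply]
        exact hP2 _ hfB v
      have e2 : ∑ g ∈ insert f F, (if g ∈ F then c g else 0) • inc g = (inc e : V → ℝ) := by
        rw [Finset.sum_insert hfF, if_neg hfF, zero_smul, zero_add, ← hc]
        exact Finset.sum_congr rfl fun g hg => by rw [if_pos hg]
      rw [e1, e2, sub_self]
    have hli' : LinearIndepOn ℝ (inc : Sym2 V → V → ℝ) ((insert f F : Finset (Sym2 V)) :
      Set (Sym2 V)) := hli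
    rw [linearIndepOn_finset_iff] at hli'
    have h2 := hli' _ h1 f (Finset.mem_insert_self _ _)
    rw [if_neg hfF, sub_zero] at h2
    rw [h2, zero_mul]
  · have hFl : Loopless (F : Set (Sym2 V)) := fun g hg => hS g (hFS hg)
    obtain ⟨φ, h01, hconst, ht, hs⟩ := exists_potential hFl (hS e he) hspan
    have hpot : ∀ g, dphi φ g = 0 ∨ dphi φ g = 1 ∨ dphi φ g = -1 := by
      intro g
      unfold dphi
      rcases h01 (tgt g) with h | h <;> rcases h01 (src g) with h' | h' <;> rw [h, h'] <;> simp
    have key : ∀ f ∈ A, P (insert f F) f = dphi φ f := by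
      intro f hf
      obtain ⟨hfS, hfF, hfB⟩ := (hA f).1 hf
      have h1 : ∀ v, ∑ g ∈ S, (P (insert f F) g - (Pi.single e 1 : Sym2 V → ℝ) g) * inc g v = 0 := by
        intro v
        simp only [sub_mul, Finset.sum_sub_distrib]
        rw [← Finset.sum_subset hfB.1 (fun g _ hg => by rw [hP1 _ hfB g hg, zero_mul]),
          hP2 _ hfB v, Finset.sum_eq_single_of_mem e he, Pi.single_eq_same, one_mul, sub_self]
        intro g _ hg
        rw [Pi.single_eq_of_ne hg, zero_mul]
      have h2 := sum_dphi φ h1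
      simp only [sub_mul, Finset.sum_sub_distrib] at h2
      have hs2 : ∑ g ∈ S, (Pi.single e 1 : Sym2 V → ℝ) g * dphi φ g = dphi φ e := by
        rw [Finset.sum_eq_single_of_mem e he, Pi.single_eq_same, one_mul]
        intro g _ hg
        rw [Pi.single_eq_of_ne hg, zero_mul]
      rw [hs2, ← Finset.sum_subset hfB.1 (fun g _ hg => by rw [hP1 _ hfB g hg, zero_mul]),
        Finset.sum_insert hfF, Finset.sum_eq_zero (s := F)] at h2
      · have h3 : dphi φ e = 1 := by unfold dphi; rw [ht, hs, sub_zero]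
        rw [h3] at h2
        rcases hpot f with h | h | h
        · rw [h] at h2; simp at h2
        · rw [h] at h2 ⊢; linarith
        · rw [h] at h2 ⊢; linarith
      · intro g hg
        have : dphi φ g = 0 := by unfold dphi; rw [hconst g hg, sub_self]
        rw [this, mul_zero]
    rw [Finset.sum_congr rfl fun f hf => by rw [key f hf]]
    have hAS : A ⊆ S := fun f hf => ((hA f).1 hf).1
    rw [Finset.sum_subset hAS]
    · have := sum_dphi φ hz.2
      rw [← this]
      exact Finset.sum_congr rfl fun f _ => by ring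
    · intro f hfS hfA
      suffices h : dphi φ f = 0 by rw [h, zero_mul]
      by_cases hfF : f ∈ F
      · unfold dphi; rw [hconst f hfF, sub_self]
      · by_contra hd
        apply hfA
        rw [hA]
        refine ⟨hfS, hfF, ?_⟩
        have hli := (isBase_iff hS _).1 hf₀B
        have hli' : LinearIndepOn ℝ (inc : Sym2 V → V → ℝ) ((insert f₀ F : Finset (Sym2 V)) :
          Set (Sym2 V)) := hli.2.1
        have hFli : LinearIndepOn ℝ (inc : Sym2 V → V → ℝ) (F : Set (Sym2 V)) :=
          hli'.mono (by rw [Finset.coe_insert]; exact Set.subset_insert _ _)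
        have hfs : inc f ∉ Submodule.span ℝ (inc '' (F : Set (Sym2 V))) := by
          intro hmem
          obtain ⟨c, hc⟩ := exists_fun hmem
          have h1 : ∀ v, ∑ g ∈ insert f F, ((if g = f then (-1 : ℝ) else c g)) * inc g v = 0 := by
            intro v
            rw [Finset.sum_insert hfF, if_pos rfl, ← hc, Finset.sum_apply]
            have : ∑ g ∈ F, ((if g = f then (-1 : ℝ) else c g)) * inc g v =
                ∑ g ∈ F, (c g • inc g) v := by
              refine Finset.sum_congr rfl fun g hg => ?_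
              have hgf : g ≠ f := by
                rintro rfl
                exact hfF hg
              rw [if_neg hgf]
              rfl
            rw [this]
            ring
          have h2 := sum_dphi φ h1
          rw [Finset.sum_insert hfF, if_pos rfl, Finset.sum_eq_zero (s := F), add_zero] at h2
          · apply hd; linarith
          · intro g hg
            have : dphi φ g = 0 := by unfold dphi; rw [hconst g hg, sub_self]
            rw [this, mul_zero]
        have hex : inc f₀ ∈ Submodule.span ℝ (insert (inc f) (inc '' (F : Set (Sym2 V)))) := by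
          apply mem_span_insert_exchange _ hfs
          have := hli.2.2 f hfS
          rwa [Finset.coe_insert, Set.image_insert_eq] at this
        refine (isBase_iff hS _).2 ⟨?_, ?_, ?_⟩
        · exact Finset.insert_subset hfS hFS
        · have : LinearIndepOn ℝ (inc : Sym2 V → V → ℝ) ((insert f F : Finset (Sym2 V)) :
            Set (Sym2 V)) := by
            rw [Finset.coe_insert]
            exact hFli.insert hfs
          exact this
        · intro g hg
          have h3 := hli.2.2 g hg
          rw [Finset.coe_insert, Set.image_insert_eq] at h3 ⊢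
          have h4 : Submodule.span ℝ (insert (inc f₀) (inc '' (F : Set (Sym2 V)))) ≤
              Submodule.span ℝ (insert (inc f) (inc '' (F : Set (Sym2 V)))) := by
            rw [Submodule.span_le]
            rintro y (rfl | hy)
            · exact hex
            · exact Submodule.subset_span (Set.mem_insert_of_mem _ hy)
          exact h4 h3

theorem exists_current {S : Finset (Sym2 V)} (hS : Loopless (S : Set (Sym2 V)))
    (x : Sym2 V → ℝ) {e : Sym2 V} (he : e ∈ S) : ∃ i, IsCurrent S x e i := by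
  classical
  have hex : ∀ B : Finset (Sym2 V), ∃ p : Sym2 V → ℝ, IsBase S B →
      (∀ f ∉ B, p f = 0) ∧ (∀ v, ∑ f ∈ B, p f * inc f v = inc e v) ∧
      ((e ∈ B ∧ p e = 1) ∨ (e ∉ B ∧ p e = 0)) := by
    intro B
    by_cases hB : IsBase S B
    · obtain ⟨p, hp⟩ := exists_coef hS he B hB
      exact ⟨p, fun _ => hp⟩
    · exact ⟨0, fun h => absurd h hB⟩
  choose P hP using hex
  have hZ : 0 < ZZ S x := Finset.sum_pos (fun B _ => exp_pos _) (bases_nonempty hS)
  refine ⟨fun f => (∑ B ∈ bases S, wt x B * P B f) / ZZ S x, ?_, ?_, ?_, ?_⟩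
  · intro f hf
    rw [Finset.sum_eq_zero, zero_div]
    intro B hB
    rw [mem_bases_iff] at hB
    rw [(hP B hB).1 f (fun h => hf (hB.1 h)), mul_zero]
  · refine ⟨fun f hf => ?_, fun v => ?_⟩
    · show (∑ B ∈ bases S, wt x B * P B f) / ZZ S x - (Pi.single e 1 : Sym2 V → ℝ) f = 0
      have hfe : f ≠ e := by
        rintro rfl
        exact hf he
      rw [Pi.single_eq_of_ne hfe, sub_zero, Finset.sum_eq_zero, zero_div]
      intro B hB
      rw [mem_bases_iff] at hB
      rw [(hP B hB).1 f (fun h => hf (hB.1 h)), mul_zero]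
    · have h1 : ∑ f ∈ S, ((fun f => (∑ B ∈ bases S, wt x B * P B f) / ZZ S x) -
          (Pi.single e 1 : Sym2 V → ℝ)) f * inc f v =
          (∑ f ∈ S, (∑ B ∈ bases S, wt x B * P B f) / ZZ S x * inc f v) -
            ∑ f ∈ S, (Pi.single e 1 : Sym2 V → ℝ) f * inc f v := by
        rw [← Finset.sum_sub_distrib]
        refine Finset.sum_congr rfl fun f _ => ?_
        rw [Pi.sub_apply, sub_mul]
      have h1' : ∑ f ∈ S, (Pi.single e 1 : Sym2 V → ℝ) f * inc f v = inc e v := by
        rw [Finset.sum_eq_single_of_mem e he, Pi.single_eq_same, one_mul]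
        intro g _ hg
        rw [Pi.single_eq_of_ne hg, zero_mul]
      rw [h1, h1']
      · have h2 : ∑ f ∈ S, (∑ B ∈ bases S, wt x B * P B f) / ZZ S x * inc f v =
            (∑ B ∈ bases S, wt x B * ∑ f ∈ S, P B f * inc f v) / ZZ S x := by
          rw [Finset.sum_div]
          simp_rw [Finset.mul_sum, Finset.sum_div, Finset.sum_mul]
          rw [Finset.sum_comm]
          refine Finset.sum_congr rfl fun B _ => Finset.sum_congr rfl fun f _ => ?_
          ring
        have h3 : ∀ B ∈ bases S, wt x B * ∑ f ∈ S, P B f * inc f v = wt x B * inc e v := by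
          intro B hB
          rw [mem_bases_iff] at hB
          rw [← Finset.sum_subset hB.1 (fun g _ hg => by rw [(hP B hB).1 g hg, zero_mul]),
            (hP B hB).2.1 v]
        rw [h2, Finset.sum_congr rfl h3, ← Finset.sum_mul]
        change ZZ S x * inc e v / ZZ S x - inc e v = 0
        rw [mul_div_cancel_left₀ _ hZ.ne', sub_self]
  · intro z hz
    have h1 : ∑ f ∈ S, exp (-x f) * ((∑ B ∈ bases S, wt x B * P B f) / ZZ S x) * z f =
        (∑ B ∈ bases S, ∑ f ∈ B, wt x (B.erase f) * (P B f * z f)) / ZZ S x := by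
      rw [Finset.sum_div]
      simp_rw [Finset.sum_div, Finset.mul_sum, Finset.sum_mul]
      rw [Finset.sum_comm]
      refine Finset.sum_congr rfl fun B hB => ?_
      rw [mem_bases_iff] at hB
      rw [← Finset.sum_subset hB.1 (fun g _ hg => by rw [(hP B hB).1 g hg]; ring)]
      refine Finset.sum_congr rfl fun f hf => ?_
      rw [← wt_erase x hf]
      ring
    rw [h1]
    have h2 : ∑ B ∈ bases S, ∑ f ∈ B, wt x (B.erase f) * (P B f * z f) =
        ∑ F ∈ S.powerset, ∑ f ∈ S.filter (fun f => f ∉ F ∧ IsBase S (insert f F)),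
          wt x F * (P (insert f F) f * z f) := by
      rw [Finset.sum_sigma', Finset.sum_sigma']
      refine Finset.sum_bij' (fun p _ => ⟨p.1.erase p.2, p.2⟩) (fun p _ => ⟨insert p.2 p.1, p.2⟩)
        ?_ ?_ ?_ ?_ ?_
      · rintro ⟨B, f⟩ h
        rw [Finset.mem_sigma] at h ⊢
        obtain ⟨hB, hf⟩ := h
        rw [mem_bases_iff] at hB
        refine ⟨Finset.mem_powerset.2 ((Finset.erase_subset _ _).trans hB.1), ?_⟩
        rw [Finset.mem_filter]
        refine ⟨hB.1 hf, Finset.notMem_erase _ _, ?_⟩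
        show IsBase S (insert f (B.erase f))
        rw [Finset.insert_erase hf]
        exact hB
      · rintro ⟨F, f⟩ h
        rw [Finset.mem_sigma] at h ⊢
        obtain ⟨hF, hf⟩ := h
        rw [Finset.mem_filter] at hf
        exact ⟨(mem_bases_iff _ _).2 hf.2.2, Finset.mem_insert_self _ _⟩
      · rintro ⟨B, f⟩ h
        rw [Finset.mem_sigma] at h
        simp only [Finset.insert_erase h.2]
      · rintro ⟨F, f⟩ h
        rw [Finset.mem_sigma] at h
        have hf := (Finset.mem_filter.1 h.2).2.1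
        simp only [Finset.erase_insert hf]
      · rintro ⟨B, f⟩ h
        rw [Finset.mem_sigma] at h
        simp only [Finset.insert_erase h.2]
    rw [h2]
    have h3 : ∀ F ∈ S.powerset, ∑ f ∈ S.filter (fun f => f ∉ F ∧ IsBase S (insert f F)),
          wt x F * (P (insert f F) f * z f) = 0 := by
      intro F _
      rw [← Finset.mul_sum, sum_F hS he P (fun B hB => (hP B hB).1) (fun B hB => (hP B hB).2.1)
        hz F _ (fun f => Finset.mem_filter), mul_zero]
    rw [Finset.sum_eq_zero h3, zero_div]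
  · show (∑ B ∈ bases S, wt x B * P B e) / ZZ S x = mm S x e
    unfold mm
    rw [Finset.sum_filter]
    congr 1
    refine Finset.sum_congr rfl fun B hB => ?_
    rw [mem_bases_iff] at hB
    rcases (hP B hB).2.2 with ⟨h1, h2⟩ | ⟨h1, h2⟩
    · rw [if_pos h1, h2, mul_one]
    · rw [if_neg h1, h2, mul_zero]

end P143
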