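import Mathlib

/-!
# P143: free uniform spanning forests as factors of IID — shared definitions

Edges are elements of `Sym2 V`.  All spanning objects live in finite edge sets
`S : Finset (Sym2 V)` without loops.
-/

open MeasureTheory Filter Topology Real

namespace P143

variable {V : Type*}

/-- The finite edge set `S` contains no loop. -/
def Loopless (S : Set (Sym2 V)) : Prop := ∀ e ∈ S, ¬ e.IsDiag

/-- `B` is a maximal spanning forest (a base) of the finite edge set `S`: it is contained in `S`,
acyclic, and joins the endpoints of every edge of `S`.  If `S` is the edge set of a finite connected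
graph this says that `B` is a spanning tree. -/
def IsBase (S B : Finset (Sym2 V)) : Prop :=
  B ⊆ S ∧ (SimpleGraph.fromEdgeSet (B : Set (Sym2 V))).IsAcyclic ∧
    ∀ u v, s(u, v) ∈ S → (SimpleGraph.fromEdgeSet (B : Set (Sym2 V))).Reachable u v

open Classical in
/-- The finite set of bases of `S`. -/
noncomputable def bases (S : Finset (Sym2 V)) : Finset (Finset (Sym2 V)) :=
  S.powerset.filter (fun B => IsBase S B)

/-- The weight of `B` when the edge `f` has weight `exp (x f)`. -/
noncomputable def wt (x : Sym2 V → ℝ) (B : Finset (Sym2 V)) : ℝ := exp (∑ f ∈ B, x f)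

/-- Partition function. -/
noncomputable def ZZ (S : Finset (Sym2 V)) (x : Sym2 V → ℝ) : ℝ := ∑ B ∈ bases S, wt x B

open Classical in
/-- Probability that `e` belongs to the `exp x`-weighted random base of `S`. -/
noncomputable def mm (S : Finset (Sym2 V)) (x : Sym2 V → ℝ) (e : Sym2 V) : ℝ :=
  (∑ B ∈ (bases S).filter (fun B => e ∈ B), wt x B) / ZZ S x

open Classical in
/-- Probability that the uniform base `B` of `S` satisfies `B ∩ F = A`. -/
noncomputable def ustP (S F A : Finset (Sym2 V)) : ℝ :=
  (((bases S).filter (fun B => B ∩ F = A)).card : ℝ) / ((bases S).card : ℝ)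

/-- First endpoint of `e` (arbitrary choice of orientation). -/
noncomputable def src (e : Sym2 V) : V := (Quot.out e).1

/-- Second endpoint of `e` (arbitrary choice of orientation). -/
noncomputable def tgt (e : Sym2 V) : V := (Quot.out e).2

open Classical in
/-- Incidence vector of the oriented edge `e`. -/
noncomputable def inc (e : Sym2 V) : V → ℝ := Pi.single (tgt e) 1 - Pi.single (src e) 1

/-- Cycle space of the finite edge set `S`. -/
def IsCyc (S : Finset (Sym2 V)) (z : Sym2 V → ℝ) : Prop :=
  (∀ f ∉ S, z f = 0) ∧ ∀ v, ∑ f ∈ S, z f * inc f v = 0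

open Classical in
/-- `i` is the unit current from `src e` to `tgt e` in `S` with conductances `exp x`. -/
structure IsCurrent (S : Finset (Sym2 V)) (x : Sym2 V → ℝ) (e : Sym2 V) (i : Sym2 V → ℝ) :
    Prop where
  supp : ∀ f ∉ S, i f = 0
  cyc : IsCyc S (i - Pi.single e 1)
  orth : ∀ z, IsCyc S z → ∑ f ∈ S, exp (-x f) * i f * z f = 0
  val : i e = mm S x e

/-! ## The one-edge update -/

/-- The quantile coupling: for `m ∈ [0,1]`, `zf m u` is the solution `z ∈ [0,1]` of
`z - (m/2) z (1-z) = u`.  If `u` is uniform on `[0,1]`, `zf m u` has density `1 + m (z - 1/2)`. -/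
noncomputable def zf (m u : ℝ) : ℝ := 2 * u / ((1 - m / 2) + √((1 - m / 2) ^ 2 + 2 * m * u))

/-- Log-likelihood increment. -/
noncomputable def yf (m u : ℝ) : ℝ := log (1 / 2 + zf m u)

/-! ## The sampler -/

open Classical in
/-- `n`-th iterate for the stage: updates of the edges of `S` in the order of the times `t`. -/
noncomputable def stageIter (S : Finset (Sym2 V)) (x : Sym2 V → ℝ) (t : Sym2 V → ℝ)
    (u : Sym2 V → unitInterval) : ℕ → Sym2 V → ℝ
  | 0 => 0
  | n + 1 => fun e => if e ∈ S then
      yf (mm S (fun f => x f + if t f < t e then stageIter S x t u n f else 0) e) (u e) else 0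

/-- One stage of the sampler: the increment of the field of log-weights. -/
noncomputable def stage (S : Finset (Sym2 V)) (x : Sym2 V → ℝ) (t : Sym2 V → ℝ)
    (u : Sym2 V → unitInterval) : Sym2 V → ℝ := stageIter S x t u S.card

/-- The field of log-weights after `K` stages; `u e k` is the randomness used by the edge `e` at
stage `k`. -/
noncomputable def XX (S : Finset (Sym2 V)) (t : Sym2 V → ℝ) (u : Sym2 V → ℕ → unitInterval) :
    ℕ → Sym2 V → ℝ
  | 0 => 0
  | k + 1 => XX S t u k + stage S (XX S t u k) t (fun e => u e k)

open Classical in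
/-- The null field: independent log-likelihood ratios under the null hypothesis. -/
noncomputable def NN (S : Finset (Sym2 V)) (ζ : Sym2 V → ℕ → unitInterval) (K : ℕ) :
    Sym2 V → ℝ := fun e => if e ∈ S then ∑ k ∈ Finset.range K, log (1 / 2 + (ζ e k : ℝ)) else 0

/-- IID uniform labels on `Sym2 V × ℕ`. -/
noncomputable def UU (V : Type*) : Measure (Sym2 V → ℕ → unitInterval) :=
  Measure.infinitePi (fun _ : Sym2 V => Measure.infinitePi
    (fun _ : ℕ => (volume : Measure unitInterval)))

open Classical in
/-- finite part of the edge set `E'`. -/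
noncomputable def cut (E' : Set (Sym2 V)) (Q : Finset (Sym2 V)) : Finset (Sym2 V) :=
  Q.filter (fun e => e ∈ E')

/-- Infinite-volume field of log-weights. -/
noncomputable def XI (E' : Set (Sym2 V)) (t : Sym2 V → ℝ) (u : Sym2 V → ℕ → unitInterval)
    (K : ℕ) (e : Sym2 V) : ℝ :=
  limUnder (atTop : Filter (Finset (Sym2 V))) (fun Q => XX (cut E' Q) t u K e)

/-- The random forest produced by the sampler. -/
def TT (E' : Set (Sym2 V)) (t : Sym2 V → ℝ) (u : Sym2 V → ℕ → unitInterval) : Set (Sym2 V) :=
  {e | e ∈ E' ∧ ∀ᶠ K in atTop, 0 < XI E' t u K e}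

/-- sigmoid -/
noncomputable def psi (x : ℝ) : ℝ := 1 / (1 + exp (-x))

open Classical in
/-- smooth approximation of the indicator of `{T ∩ F = A}` -/
noncomputable def gg (F A : Finset (Sym2 V)) (x : Sym2 V → ℝ) : ℝ :=
  ∏ e ∈ F, if e ∈ A then psi (x e) else 1 - psi (x e)

/-- Hellinger-type constant `∫ √(1/2+ζ) dζ < 1`. -/
noncomputable def rho : ℝ := ∫ ζ : unitInterval, √(1 / 2 + (ζ : ℝ))

/-! ## Labels: from vertex labels to edge labels -/

/-- Rank of `w` among the neighbours of `v`, ordered by the labels `a`. -/
noncomputable def rk (G : SimpleGraph V) (a : V → unitInterval) (v w : V) : ℕ :=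
  {w' | G.Adj v w' ∧ a w' < a w}.ncard

/-- Addition modulo one. -/
noncomputable def comb (x y : unitInterval) : unitInterval :=
  ⟨Int.fract ((x : ℝ) + y), Int.fract_nonneg _, (Int.fract_lt_one _).le⟩

theorem comb_comm (x y : unitInterval) : comb x y = comb y x := by
  simp [comb, add_comm]

/-- Update times. -/
noncomputable def tm (a : V → unitInterval) : Sym2 V → ℝ :=
  Sym2.lift ⟨fun v w => (a v : ℝ) + a w, fun _ _ => add_comm _ _⟩

/-- Edge labels from vertex labels: `b v 0` is used for the times and for ranking neighbours;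
the edge `{v,w}` uses at stage `k` the sum modulo one of one private label of `v` and one private
label of `w`. -/
noncomputable def lab (G : SimpleGraph V) (b : V → ℕ → unitInterval) (e : Sym2 V) (k : ℕ) :
    unitInterval :=
  Sym2.lift ⟨fun v w =>
    comb (b v (Nat.pair (rk G (fun z => b z 0) v w) k + 1))
      (b w (Nat.pair (rk G (fun z => b z 0) w v) k + 1)), fun _ _ => comb_comm _ _⟩ e

/-- IID uniform labels on `V`. -/
noncomputable def U1 (V : Type*) : Measure (V → unitInterval) :=
  Measure.infinitePi (fun _ : V => (volume : Measure unitInterval))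

/-- IID uniform labels on `V × ℕ`. -/
noncomputable def U2 (V : Type*) : Measure (V → ℕ → unitInterval) :=
  Measure.infinitePi (fun _ : V => Measure.infinitePi
    (fun _ : ℕ => (volume : Measure unitInterval)))

end P143
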