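import Vale.Agent.P143.Current

/-!
# P143, module Energy
-/

open MeasureTheory Filter Topology Real

namespace P143

variable {V : Type*}

theorem ZZ_nonneg (S : Finset (Sym2 V)) (x : Sym2 V → ℝ) : 0 ≤ ZZ S x :=
  Finset.sum_nonneg fun _ _ => (exp_pos _).le

theorem mm_nonneg (S : Finset (Sym2 V)) (x : Sym2 V → ℝ) (e : Sym2 V) : 0 ≤ mm S x e :=
  div_nonneg (Finset.sum_nonneg fun _ _ => (exp_pos _).le) (ZZ_nonneg S x)

theorem mm_le_one (S : Finset (Sym2 V)) (x : Sym2 V → ℝ) (e : Sym2 V) : mm S x e ≤ 1 := by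
  classical
  refine div_le_one_of_le₀ ?_ (ZZ_nonneg S x)
  exact Finset.sum_le_sum_of_subset_of_nonneg (Finset.filter_subset _ _)
    fun _ _ _ => (exp_pos _).le

theorem IsCyc.mono {S S' : Finset (Sym2 V)} (hSS : S ⊆ S') {z : Sym2 V → ℝ} (hz : IsCyc S z) :
    IsCyc S' z := by
  refine ⟨fun f hf => hz.1 f fun h => hf (hSS h), fun v => ?_⟩
  rw [← hz.2 v]
  refine (Finset.sum_subset hSS fun f _ hf => ?_).symm
  rw [hz.1 f hf, zero_mul]

open Classical in
theorem cross {S : Finset (Sym2 V)} {x : Sym2 V → ℝ} {e : Sym2 V} {i i' : Sym2 V → ℝ}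
    (he : e ∈ S) (hi : IsCurrent S x e i) (hi' : IsCyc S (i' - Pi.single e 1)) :
    ∑ f ∈ S, exp (-x f) * i f * i' f = exp (-x e) * i e := by
  have h := hi.orth _ hi'
  have h2 : ∀ f, exp (-x f) * i f * (i' - Pi.single e 1 : Sym2 V → ℝ) f =
      exp (-x f) * i f * i' f - exp (-x f) * i f * (Pi.single e 1 : Sym2 V → ℝ) f := by
    intro f
    rw [Pi.sub_apply]
    ring
  simp_rw [h2] at h
  rw [Finset.sum_sub_distrib, sub_eq_zero] at h
  rw [h, Finset.sum_eq_single_of_mem e he]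
  · rw [Pi.single_eq_same, mul_one]
  · intro f _ hf
    rw [Pi.single_eq_of_ne hf, mul_zero]

/-- energy of the difference of two currents -/
theorem energy_diff {S S' : Finset (Sym2 V)} (hSS : S ⊆ S') {x : Sym2 V → ℝ} {e : Sym2 V}
    {i i' : Sym2 V → ℝ} (he : e ∈ S) (hi : IsCurrent S x e i) (hi' : IsCurrent S' x e i') :
    ∑ f ∈ S', exp (-x f) * (i f - i' f) ^ 2 = exp (-x e) * (mm S x e - mm S' x e) := by
  have h1 : ∑ f ∈ S', exp (-x f) * i f * i f = exp (-x e) * i e := by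
    rw [← cross he hi hi.cyc]
    refine (Finset.sum_subset hSS fun f _ hf => ?_).symm
    rw [hi.supp f hf, mul_zero]
  have h2 := cross (hSS he) hi' hi'.cyc
  have h3 := cross (hSS he) hi' (hi.cyc.mono hSS)
  have h4 : ∀ f, exp (-x f) * (i f - i' f) ^ 2 = exp (-x f) * i f * i f -
      2 * (exp (-x f) * i' f * i f) + exp (-x f) * i' f * i' f := fun f => by ring
  simp_rw [h4]
  rw [Finset.sum_add_distrib, Finset.sum_sub_distrib, ← Finset.mul_sum, h1, h2, h3, hi.val, hi'.val]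
  ring

theorem mm_anti {S S' : Finset (Sym2 V)} (hSS : S ⊆ S') (hS' : Loopless (S' : Set (Sym2 V)))
    (x : Sym2 V → ℝ) {e : Sym2 V} (he : e ∈ S) : mm S' x e ≤ mm S x e := by
  have hS : Loopless (S : Set (Sym2 V)) := fun f hf => hS' f (hSS hf)
  obtain ⟨i, hi⟩ := exists_current hS x he
  obtain ⟨i', hi'⟩ := exists_current hS' x (hSS he)
  have h := energy_diff hSS he hi hi'
  have h0 : 0 ≤ ∑ f ∈ S', exp (-x f) * (i f - i' f) ^ 2 :=
    Finset.sum_nonneg fun f _ => mul_nonneg (exp_pos _).le (sq_nonneg _)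
  rw [h] at h0
  have h1 := exp_pos (-x e)
  have h2 : 0 ≤ mm S x e - mm S' x e := nonneg_of_mul_nonneg_right h0 h1
  linarith

theorem tail_le {S S' : Finset (Sym2 V)} [DecidableEq (Sym2 V)] (hSS : S ⊆ S') {x : Sym2 V → ℝ}
    {e : Sym2 V} {i i' : Sym2 V → ℝ} (he : e ∈ S) (hi : IsCurrent S x e i)
    (hi' : IsCurrent S' x e i') :
    ∑ f ∈ S' \ S, exp (-x f) * i' f ^ 2 ≤ exp (-x e) * (mm S x e - mm S' x e) := by
  rw [← energy_diff hSS he hi hi']
  calc ∑ f ∈ S' \ S, exp (-x f) * i' f ^ 2 = ∑ f ∈ S' \ S, exp (-x f) * (i f - i' f) ^ 2 := by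
        refine Finset.sum_congr rfl fun f hf => ?_
        rw [hi.supp f (Finset.mem_sdiff.mp hf).2]
        ring
    _ ≤ _ := Finset.sum_le_sum_of_subset_of_nonneg Finset.sdiff_subset
        fun f _ _ => mul_nonneg (exp_pos _).le (sq_nonneg _)

/-- total energy off `e` -/
theorem energy_off [DecidableEq (Sym2 V)] {S : Finset (Sym2 V)} {x : Sym2 V → ℝ} {e : Sym2 V}
    {i : Sym2 V → ℝ} (he : e ∈ S) (hi : IsCurrent S x e i) :
    ∑ f ∈ S.erase e, exp (x e - x f) * i f ^ 2 ≤ 1 / 4 := by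
  have h := cross he hi hi.cyc
  rw [← Finset.add_sum_erase _ _ he] at h
  have h2 : ∀ f, exp (x e - x f) * i f ^ 2 = exp (x e) * (exp (-x f) * i f * i f) := by
    intro f
    rw [sub_eq_add_neg, exp_add]
    ring
  simp_rw [h2]
  rw [← Finset.mul_sum]
  have h3 : ∑ f ∈ S.erase e, exp (-x f) * i f * i f =
      exp (-x e) * i e - exp (-x e) * i e * i e := by linarith
  rw [h3]
  have h4 : exp (x e) * (exp (-x e) * i e - exp (-x e) * i e * i e) = i e - i e ^ 2 := by
    have : exp (x e) * exp (-x e) = 1 := by rw [← exp_add]; simp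
    linear_combination (i e - i e ^ 2) * this
  rw [h4]
  nlinarith [sq_nonneg (i e - 1 / 2)]

/-- two-point formula -/
theorem two_point [DecidableEq (Sym2 V)] {S : Finset (Sym2 V)} {x x' : Sym2 V → ℝ} {e : Sym2 V}
    {i i' : Sym2 V → ℝ} (he : e ∈ S) (hi : IsCurrent S x e i) (hi' : IsCurrent S x' e i') :
    mm S x e - mm S x' e =
      ∑ f ∈ S.erase e, (exp (x e - x f) - exp (x' e - x' f)) * i f * i' f := by
  have h1 := cross he hi hi'.cyc
  have h2 := cross he hi' hi.cyc
  rw [← Finset.add_sum_erase _ _ he] at h1 h2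
  have h3 : ∀ f, (exp (x e - x f) - exp (x' e - x' f)) * i f * i' f =
      exp (x e) * (exp (-x f) * i f * i' f) - exp (x' e) * (exp (-x' f) * i' f * i f) := by
    intro f
    have h31 : exp (x e - x f) = exp (x e) * exp (-x f) := by rw [← exp_add, sub_eq_add_neg]
    have h32 : exp (x' e - x' f) = exp (x' e) * exp (-x' f) := by
      rw [← exp_add, sub_eq_add_neg]
    rw [h31, h32]
    ring
  simp_rw [h3]
  rw [Finset.sum_sub_distrib, ← Finset.mul_sum, ← Finset.mul_sum]
  have h4 : ∑ f ∈ S.erase e, exp (-x f) * i f * i' f =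
      exp (-x e) * i e - exp (-x e) * i e * i' e := by linarith
  have h5 : ∑ f ∈ S.erase e, exp (-x' f) * i' f * i f =
      exp (-x' e) * i' e - exp (-x' e) * i' e * i e := by linarith
  rw [h4, h5, ← hi.val, ← hi'.val]
  have h6 : exp (x e) * exp (-x e) = 1 := by rw [← exp_add]; simp
  have h7 : exp (x' e) * exp (-x' e) = 1 := by rw [← exp_add]; simp
  linear_combination (-(i e - i e * i' e)) * h6 + (i' e - i' e * i e) * h7

theorem abs_exp_sub_exp_le {a b : ℝ} (h : |a - b| ≤ 2) :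
    |exp a - exp b| ≤ 2 * |a - b| * exp ((a + b) / 2) := by
  have hs : |(a - b) / 2| ≤ 1 := by rw [abs_div, abs_two]; linarith
  have h1 : exp a - exp b = exp ((a + b) / 2) * (exp ((a - b) / 2) - exp (-((a - b) / 2))) := by
    rw [mul_sub, ← exp_add, ← exp_add]
    congr 2 <;> ring
  have h2 := Real.abs_exp_sub_one_sub_id_le hs
  have h3 := Real.abs_exp_sub_one_sub_id_le (x := -((a - b) / 2)) (by rwa [abs_neg])
  have h4 : |exp ((a - b) / 2) - exp (-((a - b) / 2))| ≤ 2 * |a - b| := by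
    have h5 : exp ((a - b) / 2) - exp (-((a - b) / 2)) =
        (exp ((a - b) / 2) - 1 - (a - b) / 2) - (exp (-((a - b) / 2)) - 1 - -((a - b) / 2)) +
        (a - b) := by ring
    have h6 : ((a - b) / 2) ^ 2 ≤ |a - b| / 2 := by
      rw [← sq_abs, abs_div, abs_two]
      nlinarith [abs_nonneg (a - b)]
    rw [h5]
    rw [neg_sq] at h3
    calc _ ≤ |exp ((a - b) / 2) - 1 - (a - b) / 2| +
          |exp (-((a - b) / 2)) - 1 - -((a - b) / 2)| + |a - b| := by
            refine (abs_add_le _ _).trans ?_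
            gcongr
            exact abs_sub _ _
      _ ≤ 2 * |a - b| := by linarith
  rw [h1, abs_mul, abs_of_pos (exp_pos _)]
  nlinarith [exp_pos ((a + b) / 2)]

theorem term_le {a b i j y : ℝ} (h : |a - b| ≤ y) (hy : y ≤ 2) :
    |(exp a - exp b) * i * j| ≤ y * (exp a * i ^ 2 + exp b * j ^ 2) := by
  have h1 := abs_exp_sub_exp_le (h.trans hy)
  have h2 : exp ((a + b) / 2) = exp (a / 2) * exp (b / 2) := by rw [← exp_add]; congr 1; ring
  have h3 : exp a = exp (a / 2) ^ 2 := by rw [← exp_nat_mul]; congr 1; push_cast; ring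
  have h4 : exp b = exp (b / 2) ^ 2 := by rw [← exp_nat_mul]; congr 1; push_cast; ring
  have h5 : |exp a - exp b| ≤ 2 * y * (exp (a / 2) * exp (b / 2)) := by
    rw [← h2]
    refine h1.trans ?_
    have := exp_pos ((a + b) / 2)
    gcongr
  have hy0 : 0 ≤ y := (abs_nonneg _).trans h
  rw [mul_assoc, abs_mul]
  calc |exp a - exp b| * |i * j| ≤ 2 * y * (exp (a / 2) * exp (b / 2)) * |i * j| := by gcongr
    _ = y * (2 * ((exp (a / 2) * |i|) * (exp (b / 2) * |j|))) := by rw [abs_mul]; ring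
    _ ≤ y * ((exp (a / 2) * |i|) ^ 2 + (exp (b / 2) * |j|) ^ 2) := by
        gcongr
        nlinarith [sq_nonneg (exp (a / 2) * |i| - exp (b / 2) * |j|)]
    _ = _ := by rw [h3, h4, mul_pow, mul_pow, sq_abs, sq_abs]

/-- sup-norm Lipschitz bound -/
theorem mm_lip {S : Finset (Sym2 V)} (hS : Loopless (S : Set (Sym2 V)))
    {x x' : Sym2 V → ℝ} {e : Sym2 V} (he : e ∈ S) {d d' : ℝ} (hd : d + d' ≤ 2)
    (hx : ∀ f ∈ S, |x f - x' f| ≤ d) (hxe : |x e - x' e| ≤ d') :
    |mm S x e - mm S x' e| ≤ (d + d') / 2 := by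
  classical
  obtain ⟨i, hi⟩ := exists_current hS x he
  obtain ⟨i', hi'⟩ := exists_current hS x' he
  rw [two_point he hi hi']
  have h1 := energy_off he hi
  have h2 := energy_off he hi'
  have h3 : 0 ≤ d + d' := add_nonneg ((abs_nonneg _).trans (hx e he)) ((abs_nonneg _).trans hxe)
  calc |∑ f ∈ S.erase e, (exp (x e - x f) - exp (x' e - x' f)) * i f * i' f|
      ≤ ∑ f ∈ S.erase e, |(exp (x e - x f) - exp (x' e - x' f)) * i f * i' f| :=
        Finset.abs_sum_le_sum_abs _ _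
    _ ≤ ∑ f ∈ S.erase e, (d + d') * (exp (x e - x f) * i f ^ 2 + exp (x' e - x' f) * i' f ^ 2) := by
        refine Finset.sum_le_sum fun f hf => term_le ?_ hd
        have h4 := hx f (Finset.mem_of_mem_erase hf)
        calc |x e - x f - (x' e - x' f)| = |(x e - x' e) - (x f - x' f)| := by congr 1; ring
          _ ≤ |x e - x' e| + |x f - x' f| := abs_sub _ _
          _ ≤ d + d' := by linarith
    _ = (d + d') * (∑ f ∈ S.erase e, exp (x e - x f) * i f ^ 2 +
          ∑ f ∈ S.erase e, exp (x' e - x' f) * i' f ^ 2) := by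
        rw [← Finset.mul_sum, Finset.sum_add_distrib]
    _ ≤ (d + d') * (1 / 4 + 1 / 4) := by gcongr
    _ = (d + d') / 2 := by ring

/-- continuity estimate, uniform in the volume -/
theorem mm_near {S S' : Finset (Sym2 V)} (hSS : S ⊆ S') (hS' : Loopless (S' : Set (Sym2 V)))
    {x y : Sym2 V → ℝ} {e : Sym2 V} (he : e ∈ S) {C δ κ : ℝ} (hx : ∀ f, |x f| ≤ C)
    (hy : ∀ f, |y f| ≤ C) (hδ : δ ≤ 1) (hxy : ∀ f ∈ S, |x f - y f| ≤ δ) (hκ : 0 < κ) :
    |mm S' x e - mm S' y e| ≤ δ + (exp (4 * C) / κ * (mm S x e - mm S' x e) +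
      κ * exp (4 * C) / 4) := by
  classical
  have hS : Loopless (S : Set (Sym2 V)) := fun f hf => hS' f (hSS hf)
  obtain ⟨i0, hi0⟩ := exists_current hS x he
  obtain ⟨i, hi⟩ := exists_current hS' x (hSS he)
  obtain ⟨i', hi'⟩ := exists_current hS' y (hSS he)
  rw [two_point (hSS he) hi hi']
  have h1 := energy_off (hSS he) hi
  have h2 := energy_off (hSS he) hi'
  have hδ0 : 0 ≤ δ := (abs_nonneg _).trans (hxy e he)
  have htail := tail_le hSS he hi0 hi
  have hsplit : S'.erase e = (S.erase e) ∪ (S' \ S) := by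
    ext f
    simp only [Finset.mem_erase, Finset.mem_union, Finset.mem_sdiff]
    constructor
    · rintro ⟨h3, h4⟩
      by_cases h5 : f ∈ S
      · exact Or.inl ⟨h3, h5⟩
      · exact Or.inr ⟨h4, h5⟩
    · rintro (⟨h3, h4⟩ | ⟨h3, h4⟩)
      · exact ⟨h3, hSS h4⟩
      · exact ⟨fun h5 => h4 (h5 ▸ he), h3⟩
  have hdisj : Disjoint (S.erase e) (S' \ S) := by
    rw [Finset.disjoint_left]
    intro f h3 h4
    exact (Finset.mem_sdiff.mp h4).2 (Finset.mem_of_mem_erase h3)
  have hsub1 : S.erase e ⊆ S'.erase e := Finset.erase_subset_erase e hSS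
  have hsub2 : S' \ S ⊆ S'.erase e := by rw [hsplit]; exact Finset.subset_union_right
  rw [hsplit, Finset.sum_union hdisj]
  refine (abs_add_le _ _).trans (add_le_add ?_ ?_)
  · calc |∑ f ∈ S.erase e, (exp (x e - x f) - exp (y e - y f)) * i f * i' f|
        ≤ ∑ f ∈ S.erase e, |(exp (x e - x f) - exp (y e - y f)) * i f * i' f| :=
          Finset.abs_sum_le_sum_abs _ _
      _ ≤ ∑ f ∈ S.erase e, (2 * δ) * (exp (x e - x f) * i f ^ 2 + exp (y e - y f) * i' f ^ 2) := by
          refine Finset.sum_le_sum fun f hf => term_le ?_ (by linarith)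
          have h4 := hxy f (Finset.mem_of_mem_erase hf)
          have h5 := hxy e he
          calc |x e - x f - (y e - y f)| = |(x e - y e) - (x f - y f)| := by congr 1; ring
            _ ≤ |x e - y e| + |x f - y f| := abs_sub _ _
            _ ≤ 2 * δ := by linarith
      _ = (2 * δ) * (∑ f ∈ S.erase e, exp (x e - x f) * i f ^ 2 +
            ∑ f ∈ S.erase e, exp (y e - y f) * i' f ^ 2) := by
          rw [← Finset.mul_sum, Finset.sum_add_distrib]
      _ ≤ (2 * δ) * (1 / 4 + 1 / 4) := by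
          have h6 : ∑ f ∈ S.erase e, exp (x e - x f) * i f ^ 2 ≤ 1 / 4 :=
            (Finset.sum_le_sum_of_subset_of_nonneg hsub1
              fun f _ _ => mul_nonneg (exp_pos _).le (sq_nonneg _)).trans h1
          have h7 : ∑ f ∈ S.erase e, exp (y e - y f) * i' f ^ 2 ≤ 1 / 4 :=
            (Finset.sum_le_sum_of_subset_of_nonneg hsub1
              fun f _ _ => mul_nonneg (exp_pos _).le (sq_nonneg _)).trans h2
          gcongr
      _ = δ := by ring
  · have hA : ∑ f ∈ S' \ S, i f ^ 2 ≤ exp (2 * C) * (mm S x e - mm S' x e) := by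
      have h3 : ∑ f ∈ S' \ S, i f ^ 2 ≤ exp C * ∑ f ∈ S' \ S, exp (-x f) * i f ^ 2 := by
        rw [Finset.mul_sum]
        refine Finset.sum_le_sum fun f _ => ?_
        have h4 : 1 ≤ exp C * exp (-x f) := by
          rw [← exp_add]
          exact one_le_exp (by linarith [(abs_le.mp (hx f)).2])
        nlinarith [sq_nonneg (i f)]
      refine h3.trans ((mul_le_mul_of_nonneg_left htail (exp_pos _).le).trans ?_)
      have hm0 : 0 ≤ mm S x e - mm S' x e := sub_nonneg.mpr (mm_anti hSS hS' x he)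
      rw [← mul_assoc, ← exp_add]
      have h5 : exp (C + -x e) ≤ exp (2 * C) := exp_le_exp.mpr (by linarith [(abs_le.mp (hx e)).1])
      gcongr
    have hB : ∑ f ∈ S' \ S, i' f ^ 2 ≤ exp (2 * C) / 4 := by
      have h3 : ∑ f ∈ S' \ S, i' f ^ 2 ≤ exp (2 * C) * ∑ f ∈ S' \ S, exp (y e - y f) * i' f ^ 2 := by
        rw [Finset.mul_sum]
        refine Finset.sum_le_sum fun f _ => ?_
        have h4 : 1 ≤ exp (2 * C) * exp (y e - y f) := by
          rw [← exp_add]
          exact one_le_exp (by linarith [(abs_le.mp (hy f)).2, (abs_le.mp (hy e)).1])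
        nlinarith [sq_nonneg (i' f)]
      have h7 : ∑ f ∈ S' \ S, exp (y e - y f) * i' f ^ 2 ≤ 1 / 4 :=
        (Finset.sum_le_sum_of_subset_of_nonneg hsub2
          fun f _ _ => mul_nonneg (exp_pos _).le (sq_nonneg _)).trans h2
      refine h3.trans ?_
      have := exp_pos (2 * C)
      nlinarith
    have hterm : ∀ f, |(exp (x e - x f) - exp (y e - y f)) * i f * i' f| ≤
        exp (2 * C) * (i f ^ 2 / κ + κ * i' f ^ 2) := by
      intro f
      have h3 : |exp (x e - x f) - exp (y e - y f)| ≤ 2 * exp (2 * C) := by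
        have ha : exp (x e - x f) ≤ exp (2 * C) := exp_le_exp.mpr (by
          linarith [(abs_le.mp (hx e)).2, (abs_le.mp (hx f)).1])
        have hb : exp (y e - y f) ≤ exp (2 * C) := exp_le_exp.mpr (by
          linarith [(abs_le.mp (hy e)).2, (abs_le.mp (hy f)).1])
        have hc := exp_pos (x e - x f)
        have hd := exp_pos (y e - y f)
        rw [abs_le]
        constructor <;> linarith
      have h4 : 2 * |i f * i' f| ≤ i f ^ 2 / κ + κ * i' f ^ 2 := by
        rw [abs_mul, div_add' _ _ _ hκ.ne', le_div_iff₀ hκ]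
        have h5 := sq_nonneg (|i f| - κ * |i' f|)
        have h6 := sq_abs (i f)
        have h7 := sq_abs (i' f)
        have h8 : i f ^ 2 + κ * i' f ^ 2 * κ - 2 * (|i f| * |i' f|) * κ =
            (|i f| - κ * |i' f|) ^ 2 := by
          rw [← h6, ← h7]
          ring
        linarith
      rw [mul_assoc, abs_mul]
      calc _ ≤ 2 * exp (2 * C) * |i f * i' f| := by gcongr
        _ = exp (2 * C) * (2 * |i f * i' f|) := by ring
        _ ≤ _ := by gcongr
    calc |∑ f ∈ S' \ S, (exp (x e - x f) - exp (y e - y f)) * i f * i' f|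
        ≤ ∑ f ∈ S' \ S, |(exp (x e - x f) - exp (y e - y f)) * i f * i' f| :=
          Finset.abs_sum_le_sum_abs _ _
      _ ≤ ∑ f ∈ S' \ S, exp (2 * C) * (i f ^ 2 / κ + κ * i' f ^ 2) :=
          Finset.sum_le_sum fun f _ => hterm f
      _ = exp (2 * C) * ((∑ f ∈ S' \ S, i f ^ 2) / κ + κ * ∑ f ∈ S' \ S, i' f ^ 2) := by
          rw [← Finset.mul_sum, Finset.sum_add_distrib, Finset.sum_div, Finset.mul_sum]
      _ ≤ exp (2 * C) * ((exp (2 * C) * (mm S x e - mm S' x e)) / κ +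
            κ * (exp (2 * C) / 4)) := by gcongr
      _ = _ := by
          have h8 : exp (4 * C) = exp (2 * C) * exp (2 * C) := by
            rw [← exp_add]; congr 1; ring
          rw [h8]
          ring

/-- uniform convergence of `mm S x e`, `S → E'`, on bounded fields -/
theorem mm_unif {E' : Set (Sym2 V)} (hE : Loopless E') {e : Sym2 V} (he : e ∈ E') (C : ℝ)
    {η : ℝ} (hη : 0 < η) :
    ∃ S₀ : Finset (Sym2 V), (S₀ : Set (Sym2 V)) ⊆ E' ∧ e ∈ S₀ ∧
      ∀ S : Finset (Sym2 V), S₀ ⊆ S → (S : Set (Sym2 V)) ⊆ E' →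
        ∀ x : Sym2 V → ℝ, (∀ f, |x f| ≤ C) → |mm S x e - mm S₀ x e| ≤ η := by
  classical
  set κ : ℝ := η / (4 * exp (4 * C)) with hκ
  have hκ0 : 0 < κ := by positivity
  set η' : ℝ := min (η / 8) (κ * η / (16 * exp (4 * C))) with hη'
  have hη'0 : 0 < η' := lt_min (by positivity) (by positivity)
  set δ : ℝ := min 1 (η / 16) with hδ
  have hδ0 : 0 < δ := lt_min one_pos (by positivity)
  have hsel : ∀ x : Sym2 V → ℝ, ∃ S : Finset (Sym2 V), (S : Set (Sym2 V)) ⊆ E' ∧ e ∈ S ∧
      ∀ S' : Finset (Sym2 V), S ⊆ S' → (S' : Set (Sym2 V)) ⊆ E' →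
        mm S x e - mm S' x e ≤ η' := by
    intro x
    set A : Set ℝ := {r | ∃ S : Finset (Sym2 V), (S : Set (Sym2 V)) ⊆ E' ∧ e ∈ S ∧ r = mm S x e}
      with hA
    have hne : A.Nonempty := ⟨mm {e} x e, {e}, by simpa using he, Finset.mem_singleton_self e, rfl⟩
    have hbd : BddBelow A := ⟨0, by rintro r ⟨S, _, _, rfl⟩; exact mm_nonneg S x e⟩
    obtain ⟨r, ⟨S, hS1, hS2, rfl⟩, hr⟩ := exists_lt_of_csInf_lt hne
      (lt_add_of_pos_right (sInf A) hη'0)
    refine ⟨S, hS1, hS2, fun S' hSS hS' => ?_⟩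
    have h1 : sInf A ≤ mm S' x e := csInf_le hbd ⟨S', hS', hSS hS2, rfl⟩
    linarith
  choose T hT1 hT2 hT3 using hsel
  have hK : IsCompact (Set.univ.pi fun _ : Sym2 V => Set.Icc (-C) C) :=
    isCompact_univ_pi fun _ => isCompact_Icc
  obtain ⟨t, ht1, ht2⟩ := hK.elim_nhds_subcover (fun x => {y | ∀ f ∈ T x, |x f - y f| < δ}) (by
    intro x _
    have h : {y : Sym2 V → ℝ | ∀ f ∈ T x, |x f - y f| < δ} =
        ⋂ f ∈ T x, {y | |x f - y f| < δ} := by ext y; simp
    rw [h, Filter.biInter_finset_mem]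
    intro f _
    refine IsOpen.mem_nhds ?_ (by simpa using hδ0)
    exact isOpen_lt (by fun_prop) continuous_const)
  refine ⟨insert e (t.biUnion T), ?_, Finset.mem_insert_self _ _, ?_⟩
  · rw [Finset.coe_insert, Set.insert_subset_iff]
    refine ⟨he, ?_⟩
    rw [Finset.coe_biUnion]
    exact Set.iUnion₂_subset fun x _ => hT1 x
  · intro S hS1 hS2 y hy
    have hyK : y ∈ Set.univ.pi fun _ : Sym2 V => Set.Icc (-C) C := fun f _ =>
      Set.mem_Icc.mpr (abs_le.mp (hy f))
    obtain ⟨x, hxt, hxy⟩ := Set.mem_iUnion₂.mp (ht2 hyK)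
    have hx : ∀ f, |x f| ≤ C := fun f => abs_le.mpr (Set.mem_Icc.mp (ht1 x hxt f (Set.mem_univ f)))
    have hTS0 : T x ⊆ insert e (t.biUnion T) :=
      (Finset.subset_biUnion_of_mem T hxt).trans (Finset.subset_insert _ _)
    have hS0 : ((insert e (t.biUnion T) : Finset (Sym2 V)) : Set (Sym2 V)) ⊆ E' := by
      rw [Finset.coe_insert, Set.insert_subset_iff]
      refine ⟨he, ?_⟩
      rw [Finset.coe_biUnion]
      exact Set.iUnion₂_subset fun x _ => hT1 x
    have key : ∀ S' : Finset (Sym2 V), T x ⊆ S' → (S' : Set (Sym2 V)) ⊆ E' →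
        |mm S' x e - mm S' y e| ≤ 3 * η / 16 := by
      intro S' h1 h2
      have h3 := mm_near h1 (fun f hf => hE f (h2 hf)) (hT2 x) hx hy (min_le_left _ _)
        (fun f hf => (hxy f hf).le) hκ0
      have h4 := hT3 x S' h1 h2
      have h5 : exp (4 * C) / κ * (mm (T x) x e - mm S' x e) ≤ η / 16 := by
        have h6 : exp (4 * C) / κ * (mm (T x) x e - mm S' x e) ≤
            exp (4 * C) / κ * (κ * η / (16 * exp (4 * C))) := by
          gcongr
          exact h4.trans (min_le_right _ _)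
        refine h6.trans (le_of_eq ?_)
        have := exp_pos (4 * C)
        field_simp
      have h7 : κ * exp (4 * C) / 4 = η / 16 := by
        rw [hκ]
        have := exp_pos (4 * C)
        field_simp
        ring
      have h8 : δ ≤ η / 16 := min_le_right _ _
      linarith
    have hfin : ∀ S' : Finset (Sym2 V), T x ⊆ S' → (S' : Set (Sym2 V)) ⊆ E' →
        |mm S' y e - mm (T x) y e| ≤ η / 2 := by
      intro S' h1 h2
      have h3 := key S' h1 h2
      have h4 := key (T x) subset_rfl (hT1 x)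
      have h5 := hT3 x S' h1 h2
      have h6 := mm_anti h1 (fun f hf => hE f (h2 hf)) x (hT2 x)
      have h7 : η' ≤ η / 8 := min_le_left _ _
      rw [abs_le] at h3 h4 ⊢
      constructor <;> linarith
    have h1 := hfin S (hTS0.trans hS1) hS2
    have h2 := hfin _ hTS0 hS0
    rw [abs_le] at h1 h2 ⊢
    constructor <;> linarith

end P143
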