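import Vale.Agent.P143.Sampler
import Vale.Agent.P143.Energy

/-!
# P143: pathwise convergence of the sampler
-/

open MeasureTheory Filter Topology Real

namespace P143

variable {V : Type*}

theorem log_three_le : log 3 ≤ 6 / 5 := by
  have h : log 3 = log 2 + log (3 / 2) := by
    rw [← Real.log_mul (by norm_num) (by norm_num)]
    norm_num
  have h1 := Real.log_two_lt_d9
  have h2 : log (3 / 2) ≤ 3 / 2 - 1 := Real.log_le_sub_one_of_pos (by norm_num)
  rw [h]
  linarith

theorem mem_cut {E' : Set (Sym2 V)} {Q : Finset (Sym2 V)} {e : Sym2 V} :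
    e ∈ cut E' Q ↔ e ∈ Q ∧ e ∈ E' := by
  classical
  unfold cut
  simp

theorem cut_subset (E' : Set (Sym2 V)) (Q : Finset (Sym2 V)) :
    (cut E' Q : Set (Sym2 V)) ⊆ E' := fun _ he => (mem_cut.mp (Finset.mem_coe.mp he)).2

/-- stage increments in volume `cut E' Q` -/
noncomputable def YY (E' : Set (Sym2 V)) (t : Sym2 V → ℝ) (u : Sym2 V → ℕ → unitInterval)
    (K : ℕ) (Q : Finset (Sym2 V)) (e : Sym2 V) : ℝ :=
  stage (cut E' Q) (XX (cut E' Q) t u K) t (fun e => u e K) e

theorem eventually_prod_mem (e : Sym2 V) :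
    ∀ᶠ p : Finset (Sym2 V) × Finset (Sym2 V) in atTop ×ˢ atTop, e ∈ p.1 ∧ e ∈ p.2 := by
  rw [prod_atTop_atTop_eq, eventually_atTop_prod_self]
  exact ⟨{e}, fun k l hk hl => ⟨hk (Finset.mem_singleton_self e), hl (Finset.mem_singleton_self e)⟩⟩

theorem eventually_prod_subset (S : Finset (Sym2 V)) :
    ∀ᶠ p : Finset (Sym2 V) × Finset (Sym2 V) in atTop ×ˢ atTop, S ⊆ p.1 ∧ S ⊆ p.2 := by
  rw [prod_atTop_atTop_eq, eventually_atTop_prod_self]
  exact ⟨S, fun k l hk hl => ⟨hk, hl⟩⟩

open Classical in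
theorem YY_eq {E' : Set (Sym2 V)} (t : Sym2 V → ℝ) (u : Sym2 V → ℕ → unitInterval)
    (K : ℕ) {Q : Finset (Sym2 V)} {e : Sym2 V} (he : e ∈ E') (heQ : e ∈ Q) :
    YY E' t u K Q e = yf (mm (cut E' Q) (fun f => XX (cut E' Q) t u K f +
      if t f < t e then YY E' t u K Q f else 0) e) (u e K) :=
  stage_eq _ _ _ (mem_cut.mpr ⟨heQ, he⟩)

theorem YY_step0 {E' : Set (Sym2 V)} (t : Sym2 V → ℝ)
    (u : Sym2 V → ℕ → unitInterval) (K : ℕ) {e : Sym2 V} (he : e ∈ E') :
    ∀ᶠ p : Finset (Sym2 V) × Finset (Sym2 V) in atTop ×ˢ atTop,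
      |YY E' t u K p.1 e - YY E' t u K p.2 e| ≤ log 3 := by
  classical
  filter_upwards [eventually_prod_mem e] with p hp
  rw [YY_eq t u K he hp.1, YY_eq t u K he hp.2]
  exact abs_yf_sub_yf_le (mm_mem _ _ _) (mm_mem _ _ _) (u e K).2 (u e K).2

theorem YY_step {E' : Set (Sym2 V)} (hE : Loopless E') (t : Sym2 V → ℝ)
    (u : Sym2 V → ℕ → unitInterval) (K : ℕ)
    (hX : ∀ e, ∃ L, Tendsto (fun Q => XX (cut E' Q) t u K e) atTop (𝓝 L))
    {d : ℝ} (hd0 : 0 < d) (hd1 : d ≤ log 3)
    (hY : ∀ e ∈ E', ∀ᶠ p : Finset (Sym2 V) × Finset (Sym2 V) in atTop ×ˢ atTop,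
      |YY E' t u K p.1 e - YY E' t u K p.2 e| ≤ d) {e : Sym2 V} (he : e ∈ E') :
    ∀ᶠ p : Finset (Sym2 V) × Finset (Sym2 V) in atTop ×ˢ atTop,
      |YY E' t u K p.1 e - YY E' t u K p.2 e| ≤ d / 2 := by
  classical
  have h3 := log_three_le
  obtain ⟨S₀, hS₀E, heS₀, hS₀⟩ := mm_unif hE he ((K + 1) * log 2)
    (show (0:ℝ) < d / 16 by positivity)
  have hloop : Loopless (S₀ : Set (Sym2 V)) := fun f hf => hE f (hS₀E hf)
  -- differences of the fields before the stage
  have hXc : ∀ f, ∀ᶠ p : Finset (Sym2 V) × Finset (Sym2 V) in atTop ×ˢ atTop,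
      |XX (cut E' p.1) t u K f - XX (cut E' p.2) t u K f| ≤ d / 16 := by
    intro f
    obtain ⟨L, hL⟩ := hX f
    have h1 := hL.comp (tendsto_fst (f := (atTop : Filter (Finset (Sym2 V))))
      (g := (atTop : Filter (Finset (Sym2 V)))))
    have h2 := hL.comp (tendsto_snd (f := (atTop : Filter (Finset (Sym2 V))))
      (g := (atTop : Filter (Finset (Sym2 V)))))
    have h3 := (h1.sub h2).abs
    rw [sub_self, abs_zero] at h3
    have h4 := h3.eventually (ge_mem_nhds (show (0:ℝ) < d / 16 by positivity))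
    exact h4
  have hall1 : ∀ᶠ p : Finset (Sym2 V) × Finset (Sym2 V) in atTop ×ˢ atTop, ∀ f ∈ S₀,
      |XX (cut E' p.1) t u K f - XX (cut E' p.2) t u K f| ≤ d / 16 := by
    rw [eventually_all_finset]
    exact fun f _ => hXc f
  have hall2 : ∀ᶠ p : Finset (Sym2 V) × Finset (Sym2 V) in atTop ×ˢ atTop, ∀ f ∈ S₀,
      |YY E' t u K p.1 f - YY E' t u K p.2 f| ≤ d := by
    rw [eventually_all_finset]
    exact fun f hf => hY f (hS₀E hf)
  filter_upwards [hall1, hall2, eventually_prod_subset S₀] with p h1 h2 hsub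
  have hbound : ∀ Q : Finset (Sym2 V), ∀ f, |XX (cut E' Q) t u K f +
      if t f < t e then YY E' t u K Q f else 0| ≤ (K + 1) * log 2 := by
    intro Q f
    have ha := abs_XX_le (cut E' Q) t u K f
    have hb : |YY E' t u K Q f| ≤ log 2 := abs_stage_le _ _ _ _ _
    have hl : 0 ≤ log 2 := Real.log_nonneg (by norm_num)
    refine (abs_add_le _ _).trans ?_
    split_ifs
    · linarith
    · rw [abs_zero]
      linarith
  have hsubcut : ∀ Q : Finset (Sym2 V), S₀ ⊆ Q → S₀ ⊆ cut E' Q := fun Q hQ f hf =>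
    mem_cut.mpr ⟨hQ hf, hS₀E hf⟩
  rw [YY_eq t u K he (hsub.1 heS₀), YY_eq t u K he (hsub.2 heS₀)]
  refine (abs_yf_sub_le (mm_mem _ _ _) (mm_mem _ _ _) (u e K).2).trans ?_
  have e1 := hS₀ (cut E' p.1) (hsubcut _ hsub.1) (cut_subset _ _) _ (hbound p.1)
  have e2 := hS₀ (cut E' p.2) (hsubcut _ hsub.2) (cut_subset _ _) _ (hbound p.2)
  have e3 := mm_lip hloop
    (x := fun f => XX (cut E' p.1) t u K f + if t f < t e then YY E' t u K p.1 f else 0)
    (x' := fun f => XX (cut E' p.2) t u K f + if t f < t e then YY E' t u K p.2 f else 0)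
    heS₀ (d := d / 16 + d) (d' := d / 16) (by linarith) ?_ ?_
  · rw [abs_le] at e1 e2 e3
    have : |mm (cut E' p.1) (fun f => XX (cut E' p.1) t u K f +
        if t f < t e then YY E' t u K p.1 f else 0) e -
        mm (cut E' p.2) (fun f => XX (cut E' p.2) t u K f +
        if t f < t e then YY E' t u K p.2 f else 0) e| ≤ 11 * d / 16 := by
      rw [abs_le]
      constructor
      · linarith [e1.1, e1.2, e2.1, e2.2, e3.1, e3.2]
      · linarith [e1.1, e1.2, e2.1, e2.2, e3.1, e3.2]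
    linarith
  · intro f hf
    have ha := h1 f hf
    have hb := h2 f hf
    by_cases hlt : t f < t e
    · simp only [hlt, if_true]
      have : XX (cut E' p.1) t u K f + YY E' t u K p.1 f -
          (XX (cut E' p.2) t u K f + YY E' t u K p.2 f) =
          (XX (cut E' p.1) t u K f - XX (cut E' p.2) t u K f) +
          (YY E' t u K p.1 f - YY E' t u K p.2 f) := by ring
      rw [this]
      exact (abs_add_le _ _).trans (add_le_add ha hb)
    · simp only [hlt, if_false, add_zero]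
      linarith
  · simp only [lt_irrefl, if_false, add_zero]
    exact h1 e heS₀

theorem exists_tendsto_XX {E' : Set (Sym2 V)} (hE : Loopless E') (t : Sym2 V → ℝ)
    (u : Sym2 V → ℕ → unitInterval) (K : ℕ) : ∀ e : Sym2 V,
    ∃ L, Tendsto (fun Q => XX (cut E' Q) t u K e) atTop (𝓝 L) := by
  induction K with
  | zero => exact fun e => ⟨0, tendsto_const_nhds⟩
  | succ K ih =>
    intro e
    by_cases he : e ∈ E'
    · have hn : ∀ n : ℕ, ∀ e ∈ E', ∀ᶠ p : Finset (Sym2 V) × Finset (Sym2 V) in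
          atTop ×ˢ atTop, |YY E' t u K p.1 e - YY E' t u K p.2 e| ≤ log 3 * (1 / 2) ^ n := by
        intro n
        induction n with
        | zero =>
          intro e he
          simpa using YY_step0 t u K he
        | succ n ihn =>
          intro e he
          have hl3 : 0 < log 3 := Real.log_pos (by norm_num)
          have h := YY_step hE t u K ih (d := log 3 * (1 / 2) ^ n) (by positivity)
            (mul_le_of_le_one_right hl3.le (pow_le_one₀ (by norm_num) (by norm_num))) ihn he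
          convert h using 3
          rw [pow_succ]; ring
      have hcauchy : Cauchy (map (fun Q => YY E' t u K Q e) atTop) := by
        rw [Metric.cauchy_iff]
        refine ⟨inferInstance, fun ε hε => ?_⟩
        obtain ⟨n, hn'⟩ : ∃ n : ℕ, log 3 * (1 / 2) ^ n < ε := by
          have : Tendsto (fun n : ℕ => log 3 * (1 / 2 : ℝ) ^ n) atTop (𝓝 (log 3 * 0)) :=
            (tendsto_pow_atTop_nhds_zero_of_lt_one (by norm_num) (by norm_num)).const_mul _
          rw [mul_zero] at this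
          exact (this.eventually (gt_mem_nhds hε)).exists
        have h := hn n e he
        rw [prod_atTop_atTop_eq, eventually_atTop_prod_self] at h
        obtain ⟨Q₀, hQ₀⟩ := h
        refine ⟨(fun Q => YY E' t u K Q e) '' Set.Ici Q₀, image_mem_map (Ici_mem_atTop Q₀), ?_⟩
        rintro _ ⟨Q, hQ, rfl⟩ _ ⟨Q', hQ', rfl⟩
        rw [Real.dist_eq]
        exact (hQ₀ Q Q' hQ hQ').trans_lt hn'
      obtain ⟨LY, hLY⟩ := CompleteSpace.complete hcauchy
      obtain ⟨LX, hLX⟩ := ih e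
      exact ⟨LX + LY, hLX.add hLY⟩
    · refine ⟨0, ?_⟩
      have : (fun Q => XX (cut E' Q) t u (K + 1) e) = fun _ => 0 := by
        funext Q
        exact XX_off (fun h => he (mem_cut.mp h).2) _
      rw [this]
      exact tendsto_const_nhds

theorem tendsto_XI {E' : Set (Sym2 V)} (hE : Loopless E') (t : Sym2 V → ℝ)
    (u : Sym2 V → ℕ → unitInterval) (K : ℕ) (e : Sym2 V) :
    Tendsto (fun Q => XX (cut E' Q) t u K e) atTop (𝓝 (XI E' t u K e)) :=
  tendsto_nhds_limUnder (exists_tendsto_XX hE t u K e)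

end P143
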