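import Mathlib

/-!
# P143: definitions used in the statement of the result
-/

open MeasureTheory Filter Topology

namespace P143

variable {V : Type*}

/-- `T` is (the edge set of) a spanning tree of the subgraph `H`: its edges are edges of `H`, and the
graph with vertex set `V(H)` and edge set `T` is a tree. -/
def IsSpanningTree {G : SimpleGraph V} (H : G.Subgraph) (T : Finset (Sym2 V)) : Prop :=
  (T : Set (Sym2 V)) ⊆ H.edgeSet ∧
    ((SimpleGraph.fromEdgeSet (T : Set (Sym2 V))).induce H.verts).IsTree

/-- The probability, under the uniform spanning tree `T` of the finite graph `H`, of the cylinder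
event `T ∩ F = A`. -/
noncomputable def ustProb {G : SimpleGraph V} (H : G.Subgraph) (F A : Finset (Sym2 V)) : ℝ :=
  ({T : Finset (Sym2 V) | IsSpanningTree H T ∧ (T : Set (Sym2 V)) ∩ F = A}.ncard : ℝ) /
    ({T : Finset (Sym2 V) | IsSpanningTree H T}.ncard : ℝ)

/-- `H 0 ⊆ H 1 ⊆ ⋯` are finite connected subgraphs of `G` with union `G`. -/
structure IsExhaustion (G : SimpleGraph V) (H : ℕ → G.Subgraph) : Prop where
  mono : Monotone H
  finite : ∀ n, (H n).verts.Finite
  connected : ∀ n, (H n).Connected
  iSup_eq : ⨆ n, H n = ⊤

/-- The law `μ` of a random edge set is the free uniform spanning forest of `G`: it is a probability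
measure, exhaustions of `G` by finite connected subgraphs exist and, along every such exhaustion, the
uniform spanning tree measures converge weakly to `μ` (convergence of the probabilities of all
cylinder events). -/
structure IsFUSF (G : SimpleGraph V) (μ : Measure (Set (Sym2 V))) : Prop where
  prob : IsProbabilityMeasure μ
  exhaustible : ∃ H : ℕ → G.Subgraph, IsExhaustion G H
  limit : ∀ H : ℕ → G.Subgraph, IsExhaustion G H → ∀ F A : Finset (Sym2 V),
    Tendsto (fun n => ustProb (H n) F A) atTop
      (𝓝 (μ.real {T : Set (Sym2 V) | T ∩ (F : Set (Sym2 V)) = A}))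

/-- IID uniform `[0,1]` labels at the vertices. -/
noncomputable def iidLabels (V : Type*) : Measure (V → unitInterval) :=
  Measure.infinitePi (fun _ : V => (volume : Measure unitInterval))

/-- The (right) Cayley graph of `Γ` with respect to `S`: `g` and `h` are adjacent iff `g ≠ h` and
`h = g s` or `g = h s` for some `s ∈ S`. -/
def cayleyGraph {Γ : Type*} [Group Γ] (S : Set Γ) : SimpleGraph Γ :=
  SimpleGraph.fromRel (fun g h => g⁻¹ * h ∈ S)

/-- Action of a permutation of the vertex set on labellings: `(σ U) v = U (σ⁻¹ v)`. -/
def permLabels (σ : Equiv.Perm V) (U : V → unitInterval) : V → unitInterval :=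
  fun v => U (σ.symm v)

/-- Action of a permutation of the vertex set on edge sets. -/
def permEdges (σ : Equiv.Perm V) (T : Set (Sym2 V)) : Set (Sym2 V) := Sym2.map σ '' T

/-- Action of a permutation of the vertex set on graphs. -/
def permGraph (σ : Equiv.Perm V) (G : SimpleGraph V) : SimpleGraph V :=
  G.map σ.toEmbedding

end P143
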