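import Vale.Agent.P143.Sampler
import Vale.Agent.P143.Path
import Vale.Agent.P143.Statement

/-!
# P143: spanning trees of finite connected subgraphs are bases; exhaustions
-/

open MeasureTheory Filter Topology

namespace P143

variable {V : Type*} {G : SimpleGraph V}

theorem mem_verts_of_mem_edgeSet {H : G.Subgraph} {e : Sym2 V} (he : e ∈ H.edgeSet) {v : V}
    (hv : v ∈ e) : v ∈ H.verts := by
  induction e with
  | _ a b =>
    rw [SimpleGraph.Subgraph.mem_edgeSet] at he
    rcases Sym2.mem_iff.mp hv with rfl | rfl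
    · exact he.fst_mem
    · exact he.snd_mem

/-- reachability in `fromEdgeSet T` and in its restriction to the vertices of `H`. -/
theorem reachable_induce {H : G.Subgraph} {T : Set (Sym2 V)}
    (hT : T ⊆ H.edgeSet) {u v : V} (hu : u ∈ H.verts)
    (h : (SimpleGraph.fromEdgeSet T).Reachable u v) :
    ∃ hv : v ∈ H.verts, ((SimpleGraph.fromEdgeSet T).induce H.verts).Reachable
      ⟨u, hu⟩ ⟨v, hv⟩ := by
  obtain ⟨w⟩ := h
  induction w with
  | nil => exact ⟨hu, SimpleGraph.Reachable.refl _⟩
  | @cons a b c hab w ih =>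
    have hab' := hab
    rw [SimpleGraph.fromEdgeSet_adj] at hab'
    have hb : b ∈ H.verts := mem_verts_of_mem_edgeSet (hT hab'.1) (Sym2.mem_mk_right a b)
    obtain ⟨hc, hr⟩ := ih hb
    refine ⟨hc, SimpleGraph.Reachable.trans (SimpleGraph.Adj.reachable ?_) hr⟩
    simpa [SimpleGraph.induce, SimpleGraph.comap] using hab

theorem reachable_of_induce {s : Set V} {G' : SimpleGraph V} {u v : s}
    (h : (G'.induce s).Reachable u v) : G'.Reachable (u : V) (v : V) :=
  h.map (SimpleGraph.Embedding.induce s).toHom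

theorem isAcyclic_of_induce {H : G.Subgraph} {T : Set (Sym2 V)} (hT : T ⊆ H.edgeSet)
    (h : ((SimpleGraph.fromEdgeSet T).induce H.verts).IsAcyclic) :
    (SimpleGraph.fromEdgeSet T).IsAcyclic := by
  rw [SimpleGraph.isAcyclic_iff_forall_adj_isBridge] at h ⊢
  intro a b hab
  have hab' := hab
  rw [SimpleGraph.fromEdgeSet_adj] at hab'
  have ha : a ∈ H.verts := mem_verts_of_mem_edgeSet (hT hab'.1) (Sym2.mem_mk_left a b)
  have hb : b ∈ H.verts := mem_verts_of_mem_edgeSet (hT hab'.1) (Sym2.mem_mk_right a b)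
  have hbr := h (v := ⟨a, ha⟩) (w := ⟨b, hb⟩) (by
    simpa [SimpleGraph.induce, SimpleGraph.comap] using hab)
  rw [SimpleGraph.isBridge_iff] at hbr ⊢
  intro hr
  apply hbr
  have h1 : (SimpleGraph.fromEdgeSet T).deleteEdges {s(a, b)} =
      SimpleGraph.fromEdgeSet (T \ {s(a, b)}) := by
    ext x y
    simp only [SimpleGraph.deleteEdges_adj, SimpleGraph.fromEdgeSet_adj, Set.mem_sdiff,
      Set.mem_singleton_iff]
    tauto
  rw [h1] at hr
  obtain ⟨_, hr'⟩ := reachable_induce (H := H) (T := T \ {s(a, b)})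
    (fun e he => hT he.1) ha hr
  refine hr'.mono ?_
  intro x y hxy
  simp only [SimpleGraph.comap_adj, SimpleGraph.fromEdgeSet_adj, Set.mem_sdiff,
    Set.mem_singleton_iff, SimpleGraph.deleteEdges_adj, Function.Embedding.subtype_apply] at hxy ⊢
  refine ⟨⟨hxy.1.1, hxy.2⟩, ?_⟩
  intro hcon
  apply hxy.1.2
  have := congrArg (Sym2.map (Subtype.val : H.verts → V)) hcon
  simpa using this

theorem isSpanningTree_iff {H : G.Subgraph} (hH : H.Connected) {S : Finset (Sym2 V)}
    (hS : (S : Set (Sym2 V)) = H.edgeSet) (T : Finset (Sym2 V)) :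
    IsSpanningTree H T ↔ IsBase S T := by
  constructor
  · rintro ⟨hT, htree⟩
    refine ⟨?_, isAcyclic_of_induce hT htree.isAcyclic, ?_⟩
    · rw [← hS] at hT
      exact_mod_cast hT
    · intro u v huv
      have huv' : s(u, v) ∈ H.edgeSet := by rw [← hS]; exact huv
      have hu : u ∈ H.verts := mem_verts_of_mem_edgeSet huv' (Sym2.mem_mk_left u v)
      have hv : v ∈ H.verts := mem_verts_of_mem_edgeSet huv' (Sym2.mem_mk_right u v)
      exact reachable_of_induce (htree.connected.preconnected ⟨u, hu⟩ ⟨v, hv⟩)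
  · rintro ⟨hTS, hac, hr⟩
    have hT : (T : Set (Sym2 V)) ⊆ H.edgeSet := by
      rw [← hS]
      exact_mod_cast hTS
    refine ⟨hT, ?_, hac.induce _⟩
    have : Nonempty H.verts := hH.nonempty.to_subtype
    rw [SimpleGraph.connected_iff]
    refine ⟨?_, inferInstance⟩
    rintro ⟨u, hu⟩ ⟨v, hv⟩
    have hreach : (SimpleGraph.fromEdgeSet (T : Set (Sym2 V))).Reachable u v := by
      have hc := hH.coe.preconnected ⟨u, hu⟩ ⟨v, hv⟩
      obtain ⟨w⟩ := hc
      have key : ∀ (a b : H.verts), H.coe.Walk a b →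
          (SimpleGraph.fromEdgeSet (T : Set (Sym2 V))).Reachable (a : V) (b : V) := by
        intro a b w
        induction w with
        | nil => exact SimpleGraph.Reachable.refl _
        | @cons a b c hab w ih =>
          refine SimpleGraph.Reachable.trans (hr _ _ ?_) ih
          have : s((a : V), (b : V)) ∈ H.edgeSet := by
            rw [SimpleGraph.Subgraph.mem_edgeSet]
            simpa using hab
          rw [← hS] at this
          exact this
      exact key _ _ w
    obtain ⟨_, h2⟩ := reachable_induce hT hu hreach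
    exact h2

theorem ustProb_eq {H : G.Subgraph} (hH : H.Connected) {S : Finset (Sym2 V)}
    (hS : (S : Set (Sym2 V)) = H.edgeSet) (F A : Finset (Sym2 V)) :
    ustProb H F A = ustP S F A := by
  classical
  unfold ustProb ustP
  have h1 : {T : Finset (Sym2 V) | IsSpanningTree H T} = (bases S : Set (Finset (Sym2 V))) := by
    ext T
    rw [Set.mem_ofPred_eq, isSpanningTree_iff hH hS, Finset.mem_coe, mem_bases]
  have h2 : {T : Finset (Sym2 V) | IsSpanningTree H T ∧ (T : Set (Sym2 V)) ∩ F = A} =
      ((bases S).filter (fun B => B ∩ F = A) : Set (Finset (Sym2 V))) := by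
    ext T
    rw [Set.mem_ofPred_eq, isSpanningTree_iff hH hS, Finset.coe_filter, Set.mem_ofPred_eq, mem_bases,
      ← Finset.coe_inter, Finset.coe_inj]
  rw [h1, h2, Set.ncard_coe_finset, Set.ncard_coe_finset]

theorem edgeSet_finite {H : G.Subgraph} (hH : H.verts.Finite) : H.edgeSet.Finite := by
  classical
  have : H.edgeSet ⊆ ((hH.toFinset.sym2 : Finset (Sym2 V)) : Set (Sym2 V)) := by
    intro e he
    rw [Finset.mem_coe, Finset.mem_sym2_iff]
    intro v hv
    rw [Set.Finite.mem_toFinset]
    exact mem_verts_of_mem_edgeSet he hv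
  exact (Finset.finite_toSet _).subset this

theorem tendsto_exhaustion {H : ℕ → G.Subgraph} (hH : IsExhaustion G H)
    {F A : Finset (Sym2 V)} {L : ℝ}
    (hL : Tendsto (fun Q => ustP (cut G.edgeSet Q) F A) atTop (𝓝 L)) :
    Tendsto (fun n => ustProb (H n) F A) atTop (𝓝 L) := by
  classical
  have hfin : ∀ n, (H n).edgeSet.Finite := fun n => edgeSet_finite (hH.finite n)
  have hmono : ∀ {m n}, m ≤ n → (H m).edgeSet ⊆ (H n).edgeSet := fun hmn =>
    SimpleGraph.Subgraph.edgeSet_mono (hH.mono hmn)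
  have hex : ∀ e ∈ G.edgeSet, ∃ n, e ∈ (H n).edgeSet := by
    intro e he
    induction e with
    | _ a b =>
      have hadj : (⊤ : G.Subgraph).Adj a b := by simpa using he
      rw [← hH.iSup_eq, SimpleGraph.Subgraph.iSup_adj] at hadj
      obtain ⟨n, hn⟩ := hadj
      exact ⟨n, by simpa using hn⟩
  have hex2 : ∀ Q : Finset (Sym2 V), ∃ N, ∀ n ≥ N, ∀ e ∈ cut G.edgeSet Q, e ∈ (H n).edgeSet := by
    intro Q
    have : ∀ᶠ n in atTop, ∀ e ∈ cut G.edgeSet Q, e ∈ (H n).edgeSet := by
      rw [eventually_all_finset]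
      intro e he
      obtain ⟨n, hn⟩ := hex e (mem_cut.mp he).2
      filter_upwards [eventually_ge_atTop n] with m hm
      exact hmono hm hn
    exact eventually_atTop.mp this
  intro N hN
  have h1 := hL hN
  rw [mem_map, mem_atTop_sets] at h1
  obtain ⟨Q₀, hQ₀⟩ := h1
  obtain ⟨n₀, hn₀⟩ := hex2 Q₀
  rw [mem_map, mem_atTop_sets]
  refine ⟨n₀, fun n hn => ?_⟩
  have hS : ((hfin n).toFinset : Set (Sym2 V)) = (H n).edgeSet := Set.Finite.coe_toFinset _
  have h2 := hQ₀ (Q₀ ∪ (hfin n).toFinset) Finset.subset_union_left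
  have h3 : cut G.edgeSet (Q₀ ∪ (hfin n).toFinset) = (hfin n).toFinset := by
    ext e
    rw [mem_cut, Finset.mem_union, Set.Finite.mem_toFinset]
    constructor
    · rintro ⟨h | h, he⟩
      · exact hn₀ n hn e (mem_cut.mpr ⟨h, he⟩)
      · exact h
    · exact fun h => ⟨Or.inr h, (H n).edgeSet_subset h⟩
  rw [Set.mem_preimage, h3] at h2
  rw [Set.mem_preimage, ustProb_eq (hH.connected n) hS]
  exact h2

theorem exists_exhaustion [Countable V] (hG : G.Connected) :
    ∃ H : ℕ → G.Subgraph, IsExhaustion G H := by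
  classical
  have : Nonempty V := hG.nonempty
  obtain ⟨v, hv⟩ := exists_surjective_nat V
  have hext : ∀ t : Finset V, t.Nonempty → ∃ t' : Finset V, t ⊆ t' ∧
      (G.induce (t' : Set V)).Connected := fun t ht =>
    SimpleGraph.extend_finset_to_connected hG.preconnected ht
  choose! ext hext1 hext2 using hext
  obtain ⟨t, ht0, hts⟩ : ∃ t : ℕ → Finset V, t 0 = ext {v 0} ∧
      ∀ n, t (n + 1) = ext (insert (v (n + 1)) (t n)) :=
    ⟨fun n => Nat.rec (ext {v 0}) (fun n s => ext (insert (v (n + 1)) s)) n, rfl, fun n => rfl⟩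
  have hmono1 : ∀ n, t n ⊆ t (n + 1) := fun n => by
    rw [hts]
    exact (Finset.subset_insert _ _).trans (hext1 _ (Finset.insert_nonempty _ _))
  have hmono : Monotone t := monotone_nat_of_le_succ hmono1
  have hmem : ∀ n, v n ∈ t n := by
    intro n
    cases n with
    | zero => rw [ht0]; exact hext1 _ (Finset.singleton_nonempty _) (Finset.mem_singleton_self _)
    | succ n => rw [hts]; exact hext1 _ (Finset.insert_nonempty _ _) (Finset.mem_insert_self _ _)
  have hconn : ∀ n : ℕ, (G.induce ((t n : Finset V) : Set V)).Connected := by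
    intro n
    cases n with
    | zero => rw [ht0]; exact hext2 _ (Finset.singleton_nonempty _)
    | succ n => rw [hts]; exact hext2 _ (Finset.insert_nonempty _ _)
  let H : ℕ → G.Subgraph := fun n => (⊤ : G.Subgraph).induce ((t n : Finset V) : Set V)
  refine ⟨H, ?_, ?_, ?_, ?_⟩
  · intro m n hmn
    exact SimpleGraph.Subgraph.induce_mono_right (Finset.coe_subset.mpr (hmono hmn))
  · intro n
    show ((t n : Finset V) : Set V).Finite
    exact Finset.finite_toSet (t n)
  · intro n
    rw [← SimpleGraph.connected_induce_iff]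
    exact hconn n
  · ext a b
    · simp only [SimpleGraph.Subgraph.verts_iSup, Set.mem_iUnion, SimpleGraph.Subgraph.verts_top,
        Set.mem_univ, iff_true, SimpleGraph.Subgraph.induce_verts, Finset.mem_coe]
      obtain ⟨n, rfl⟩ := hv a
      exact ⟨n, hmem n⟩
    · simp only [SimpleGraph.Subgraph.iSup_adj, SimpleGraph.Subgraph.induce_adj,
        SimpleGraph.Subgraph.top_adj, Finset.mem_coe]
      constructor
      · rintro ⟨n, _, _, h⟩
        exact h
      · intro h
        obtain ⟨m, rfl⟩ := hv a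
        obtain ⟨n, rfl⟩ := hv b
        exact ⟨max m n, hmono (le_max_left m n) (hmem m), hmono (le_max_right m n) (hmem n), h⟩

end P143
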