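import Vale.Agent.P143.Phi
import Vale.Agent.P143.Trees

/-!
# P143: assembly
-/

open MeasureTheory Filter Topology

namespace P143

variable {V : Type*}

theorem isFUSF_Phi [Countable V] (G : SimpleGraph V) (hc : G.Connected)
    (hG : ∀ v, (G.neighborSet v).Finite) : IsFUSF G ((iidLabels V).map (Phi G)) := by
  have : IsProbabilityMeasure (iidLabels V) := by unfold iidLabels; infer_instance
  have hm : Measurable (Phi G : (V → unitInterval) → Set (Sym2 V)) :=
    measurable_Phi.comp (measurable_const.prodMk measurable_id)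
  refine ⟨Measure.isProbabilityMeasure_map hm.aemeasurable, exists_exhaustion hc,
    fun H hH F A => ?_⟩
  have h := tendsto_exhaustion hH (law_Phi G hG F A)
  rw [map_measureReal_apply hm (measurableSet_cyl F A)]
  exact h

theorem Phi_perm (σ : Equiv.Perm V) (G : SimpleGraph V) (U : V → unitInterval) :
    Phi (permGraph σ G) (permLabels σ U) = permEdges σ (Phi G U) := by
  unfold permGraph permEdges
  rw [Phi_map]
  simp [permLabels]

section Cayley

variable {Γ : Type*} [Group Γ]

theorem cayleyGraph_adj {S : Set Γ} {g h : Γ} :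
    (cayleyGraph S).Adj g h ↔ g ≠ h ∧ (g⁻¹ * h ∈ S ∨ h⁻¹ * g ∈ S) := by
  unfold cayleyGraph
  rw [SimpleGraph.fromRel_adj]

theorem permGraph_cayley (S : Set Γ) (γ : Γ) :
    permGraph (Equiv.mulLeft γ) (cayleyGraph S) = cayleyGraph S := by
  ext g h
  obtain ⟨g, rfl⟩ := (Equiv.mulLeft γ).surjective g
  obtain ⟨h, rfl⟩ := (Equiv.mulLeft γ).surjective h
  unfold permGraph
  have h1 : ((cayleyGraph S).map (Equiv.mulLeft γ).toEmbedding).Adj
      ((Equiv.mulLeft γ) g) ((Equiv.mulLeft γ) h) ↔ (cayleyGraph S).Adj g h :=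
    SimpleGraph.map_adj_apply (f := (Equiv.mulLeft γ).toEmbedding)
  rw [h1, cayleyGraph_adj, cayleyGraph_adj]
  simp only [Equiv.coe_mulLeft, ne_eq, mul_right_inj, mul_inv_rev]
  have e1 : ∀ a b : Γ, a⁻¹ * γ⁻¹ * (γ * b) = a⁻¹ * b := fun a b => by group
  rw [e1, e1]

theorem cayleyGraph_finite (S : Finset Γ) (g : Γ) :
    ((cayleyGraph (S : Set Γ)).neighborSet g).Finite := by
  classical
  have : (cayleyGraph (S : Set Γ)).neighborSet g ⊆
      ((S.image (fun s => g * s) ∪ S.image (fun s => g * s⁻¹) : Finset Γ) : Set Γ) := by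
    intro h hh
    rw [SimpleGraph.mem_neighborSet, cayleyGraph_adj] at hh
    rw [Finset.mem_coe, Finset.mem_union, Finset.mem_image, Finset.mem_image]
    rcases hh.2 with h1 | h1
    · left
      exact ⟨g⁻¹ * h, h1, by group⟩
    · right
      exact ⟨h⁻¹ * g, h1, by group⟩
  exact (Finset.finite_toSet _).subset this

theorem cayleyGraph_connected {S : Finset Γ} (hS : Subgroup.closure (S : Set Γ) = ⊤) :
    (cayleyGraph (S : Set Γ)).Connected := by
  have step : ∀ s ∈ S, ∀ g : Γ, (cayleyGraph (S : Set Γ)).Reachable g (g * s) := by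
    intro s hs g
    by_cases h : g = g * s
    · rw [← h]
    · refine SimpleGraph.Adj.reachable ?_
      rw [cayleyGraph_adj]
      exact ⟨h, Or.inl (by simpa using hs)⟩
  have key : ∀ x ∈ Subgroup.closure (S : Set Γ), ∀ g : Γ,
      (cayleyGraph (S : Set Γ)).Reachable g (g * x) := by
    intro x hx
    induction hx using Subgroup.closure_induction with
    | mem x hx => exact step x hx
    | one => intro g; rw [mul_one]
    | mul x y _ _ h1 h2 =>
      intro g
      rw [← mul_assoc]
      exact (h1 g).trans (h2 (g * x))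
    | inv x _ h1 =>
      intro g
      have := h1 (g * x⁻¹)
      rw [inv_mul_cancel_right] at this
      exact this.symm
  rw [SimpleGraph.connected_iff]
  refine ⟨fun g h => ?_, ⟨1⟩⟩
  have := key (g⁻¹ * h) (by rw [hS]; trivial) g
  rwa [mul_inv_cancel_left] at this

theorem countable_of_closure {S : Finset Γ} (hS : Subgroup.closure (S : Set Γ) = ⊤) :
    Countable Γ := by
  have hc : (((S : Set Γ) ∪ (S : Set Γ)⁻¹) : Set Γ).Countable := by
    apply Set.Countable.union
    · exact S.countable_toSet
    · rw [← Set.image_inv_eq_inv]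
      exact Set.Countable.image S.countable_toSet _
  have : Countable (((S : Set Γ) ∪ (S : Set Γ)⁻¹ : Set Γ) : Type _) := hc.to_subtype
  refine Function.Surjective.countable
    (f := fun l : List (((S : Set Γ) ∪ (S : Set Γ)⁻¹ : Set Γ) : Type _) =>
      (l.map (Subtype.val)).prod) ?_
  intro x
  have hx : x ∈ (Subgroup.closure (S : Set Γ)).toSubmonoid := by
    rw [hS]; trivial
  rw [Subgroup.closure_toSubmonoid] at hx
  obtain ⟨l, h1, h2⟩ := Submonoid.exists_list_of_mem_closure hx
  refine ⟨l.attach.map (fun y => ⟨y.1, h1 y.1 y.2⟩), ?_⟩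
  rw [← h2]
  simp

end Cayley

end P143
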