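import Vale.Agent.P143.Law

/-!
# P143: measurability of the edge labels; update times are almost surely distinct
-/

open MeasureTheory Filter Topology

namespace P143

variable {V : Type*}

namespace Lab2

theorem measurable_ncard [Countable V] : Measurable (Set.ncard : Set V → ℕ) := by
  classical
  apply measurable_to_countable'
  intro n
  have hfin : ∀ F : Finset V, MeasurableSet {s : Set V | s = F} := by
    intro F
    have : {s : Set V | s = (F : Set V)} = ⋂ v : V, {s : Set V | v ∈ s ↔ v ∈ F} := by
      ext s
      simp only [Set.mem_ofPred_eq, Set.mem_iInter, Set.ext_iff, Finset.mem_coe]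
    rw [this]
    apply MeasurableSet.iInter
    intro v
    have hv : Measurable (fun s : Set V => v ∈ s) := measurable_set_mem v
    by_cases h : v ∈ F
    · simpa [h] using hv
    · simpa [h] using hv.not
  have hU : MeasurableSet {s : Set V | s.Finite} := by
    have : {s : Set V | s.Finite} = ⋃ F : Finset V, {s : Set V | s = F} := by
      ext s
      simp only [Set.mem_ofPred_eq, Set.mem_iUnion]
      constructor
      · intro h
        exact ⟨h.toFinset, by simp⟩
      · rintro ⟨F, rfl⟩
        exact F.finite_toSet
    rw [this]
    exact MeasurableSet.iUnion hfin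
  have h2 : (Set.ncard : Set V → ℕ) ⁻¹' {n} =
      (⋃ F ∈ {F : Finset V | F.card = n}, {s : Set V | s = F}) ∪
        (if n = 0 then {s : Set V | s.Finite}ᶜ else ∅) := by
    ext s
    simp only [Set.mem_preimage, Set.mem_singleton_iff, Set.mem_union, Set.mem_iUnion,
      Set.mem_ofPred_eq, exists_prop]
    by_cases hs : s.Finite
    · lift s to Finset V using hs
      rw [Set.ncard_coe_finset]
      constructor
      · intro h
        exact Or.inl ⟨s, h, rfl⟩
      · rintro (⟨F, hF, h⟩ | h)
        · rw [Finset.coe_inj.mp h, hF]
        · split_ifs at h with h0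
          · exact absurd s.finite_toSet h
          · exact absurd h (Set.notMem_empty _)
    · rw [Set.Infinite.ncard hs]
      constructor
      · intro h
        right
        rw [if_pos h.symm]
        exact hs
      · rintro (⟨F, _, h⟩ | h)
        · exact absurd (h ▸ F.finite_toSet) hs
        · split_ifs at h with h0
          · exact h0.symm
          · exact absurd h (Set.notMem_empty _)
  rw [h2]
  refine MeasurableSet.union (MeasurableSet.biUnion (Set.to_countable _) fun F _ => hfin F) ?_
  split_ifs
  · exact hU.compl
  · exact MeasurableSet.empty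

theorem measurable_comb : Measurable (fun p : unitInterval × unitInterval => comb p.1 p.2) := by
  unfold comb
  apply Measurable.subtype_mk
  exact measurable_fract.comp (by fun_prop)

theorem measurable_rk [Countable V] (v w : V) :
    Measurable (fun p : SimpleGraph V × (V → ℕ → unitInterval) =>
      rk p.1 (fun z => p.2 z 0) v w) := by
  unfold rk
  apply measurable_ncard.comp
  rw [measurable_set_iff]
  intro w'
  have h1 : Measurable (fun p : SimpleGraph V × (V → ℕ → unitInterval) => p.1.Adj v w') := by
    exact (SimpleGraph.measurable_iff_adj.mp measurable_id v w').comp measurable_fst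
  have h2 : MeasurableSet {p : SimpleGraph V × (V → ℕ → unitInterval) |
      p.2 w' 0 < p.2 w 0} := by
    apply measurableSet_lt
    · fun_prop
    · fun_prop
  exact h1.and (measurableSet_setOfPred.mp h2)

theorem measurable_eval_nat : Measurable (fun q : ℕ × (ℕ → unitInterval) => q.2 q.1) := by
  apply measurable_from_prod_countable_right
  intro n
  fun_prop

end Lab2

open Lab2 in
theorem measurable_lab [Countable V] :
    Measurable (fun p : SimpleGraph V × (V → ℕ → unitInterval) => lab p.1 p.2) := by
  apply measurable_pi_lambda
  intro e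
  apply measurable_pi_lambda
  intro k
  induction e with
  | _ v w =>
    simp only [lab, Sym2.lift_mk]
    have hpair : Measurable (fun n : ℕ => Nat.pair n k + 1) := measurable_from_nat
    have h1 : ∀ v w : V, Measurable (fun p : SimpleGraph V × (V → ℕ → unitInterval) =>
        p.2 v (Nat.pair (rk p.1 (fun z => p.2 z 0) v w) k + 1)) := by
      intro v w
      have h2 : Measurable (fun p : SimpleGraph V × (V → ℕ → unitInterval) =>
          ((Nat.pair (rk p.1 (fun z => p.2 z 0) v w) k + 1, p.2 v) : ℕ × (ℕ → unitInterval))) :=
        (hpair.comp (measurable_rk v w)).prodMk (by fun_prop)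
      exact measurable_eval_nat.comp h2
    exact measurable_comb.comp ((h1 v w).prodMk (h1 w v))

namespace Lab2

theorem ae_ne_of_free [DecidableEq V] (v : V) {h : (V → unitInterval) → ℝ} (hm : Measurable h)
    (hfree : ∀ a s, h (Function.update a v s) = h a) :
    ∀ᵐ a ∂(U1 V), (a v : ℝ) ≠ h a := by
  have hmp := LawAux.mp_update (ι := V) v
  have hset : MeasurableSet {a : V → unitInterval | (a v : ℝ) ≠ h a} :=
    (measurableSet_eq_fun (by fun_prop) hm).compl
  have h1 : ∀ᵐ p ∂((LawAux.mu1 V).prod (volume : Measure unitInterval)),
      ((Function.update p.1 v p.2 v : unitInterval) : ℝ) ≠ h (Function.update p.1 v p.2) := by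
    have hset2 : MeasurableSet {p : (V → unitInterval) × unitInterval |
        ((Function.update p.1 v p.2 v : unitInterval) : ℝ) ≠ h (Function.update p.1 v p.2)} :=
      hmp.measurable hset
    rw [Measure.ae_prod_iff_ae_ae hset2]
    refine Eventually.of_forall fun a => ?_
    simp only [Function.update_self, hfree]
    rw [ae_iff]
    simp only [not_not]
    by_cases hx : ∃ s : unitInterval, (s : ℝ) = h a
    · obtain ⟨s, hs⟩ := hx
      have : {s' : unitInterval | (s' : ℝ) = h a} = {s} := by
        ext s'
        simp only [Set.mem_ofPred_eq, Set.mem_singleton_iff, ← hs, Subtype.ext_iff]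
      rw [this]
      exact measure_singleton s
    · have : {s' : unitInterval | (s' : ℝ) = h a} = ∅ := by
        ext s'
        simp only [Set.mem_ofPred_eq, Set.mem_empty_iff_false, iff_false]
        exact fun h' => hx ⟨s', h'⟩
      rw [this]
      exact measure_empty
  have h2 : ∀ᵐ a ∂(LawAux.mu1 V), (a v : ℝ) ≠ h a := by
    rw [← hmp.map_eq]
    rw [ae_map_iff hmp.measurable.aemeasurable hset]
    exact h1
  exact h2

theorem ae_tm_ne {v w v' w' : V} (hvw : v ≠ w) (h1 : v ≠ v') (h2 : v ≠ w') :
    ∀ᵐ a ∂(U1 V), tm a s(v, w) ≠ tm a s(v', w') := by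
  classical
  have h := ae_ne_of_free v (h := fun a => (a v' : ℝ) + a w' - a w) (by fun_prop) (by
    intro a s
    rw [Function.update_of_ne h1.symm, Function.update_of_ne h2.symm,
      Function.update_of_ne hvw.symm])
  filter_upwards [h] with a ha hcon
  apply ha
  have : (a v : ℝ) + a w = a v' + a w' := hcon
  linarith

end Lab2

open Lab2 in
theorem ae_injOn_tm [Countable V] :
    ∀ᵐ a ∂(U1 V), Set.InjOn (tm a) {e : Sym2 V | ¬ e.IsDiag} := by
  have h : ∀ e e' : Sym2 V, ¬ e.IsDiag → ¬ e'.IsDiag → e ≠ e' →
      ∀ᵐ a ∂(U1 V), tm a e ≠ tm a e' := by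
    intro e e'
    induction e with
    | _ v w =>
      induction e' with
      | _ v' w' =>
        intro hd hd' hne
        have hvw : v ≠ w := by simpa using hd
        have hvw' : v' ≠ w' := by simpa using hd'
        by_cases h1 : v ≠ v' ∧ v ≠ w'
        · exact ae_tm_ne hvw h1.1 h1.2
        · by_cases h2 : w ≠ v' ∧ w ≠ w'
          · have h3 := ae_tm_ne hvw.symm h2.1 h2.2
            rwa [Sym2.eq_swap (a := w) (b := v)] at h3
          · exfalso
            apply hne
            rw [Sym2.eq_iff]
            by_contra hcon
            push Not at h1 h2 hcon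
            by_cases hv : v = v'
            · subst hv
              have hw : w ≠ w' := hcon.1 rfl
              have : w ≠ v := hvw.symm
              exact hw (h2 this)
            · have hvw'' : v = w' := h1 hv
              subst hvw''
              have hw : w ≠ v' := hcon.2 rfl
              exact hvw (h2 hw).symm
  have h2 : ∀ᵐ a ∂(U1 V), ∀ e e' : Sym2 V, ¬ e.IsDiag → ¬ e'.IsDiag → e ≠ e' →
      tm a e ≠ tm a e' := by
    rw [ae_all_iff]
    intro e
    rw [ae_all_iff]
    intro e'
    by_cases hc : ¬ e.IsDiag ∧ ¬ e'.IsDiag ∧ e ≠ e'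
    · filter_upwards [h e e' hc.1 hc.2.1 hc.2.2] with a ha _ _ _
      exact ha
    · exact Eventually.of_forall fun a h1 h2 h3 => absurd ⟨h1, h2, h3⟩ hc
  filter_upwards [h2] with a ha e he e' he' heq
  by_contra hne
  exact ha e e' he he' hne heq

end P143
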