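import Vale.Agent.P143.Defs
import Vale.Agent.P143.Labels2

/-!
# P143, Labels : from vertex labels to edge labels (law)
-/

open MeasureTheory Filter Topology Real

namespace P143

namespace Lab

/-! ### Addition modulo one preserves the uniform law -/

theorem measurable_comb : Measurable fun p : unitInterval × unitInterval => comb p.1 p.2 := by
  refine Measurable.subtype_mk ?_
  exact measurable_fract.comp ((measurable_subtype_coe.comp measurable_fst).add
    (measurable_subtype_coe.comp measurable_snd))

theorem measurable_comb' {α : Type*} [MeasurableSpace α] {f g : α → unitInterval}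
    (hf : Measurable f) (hg : Measurable g) : Measurable fun a => comb (f a) (g a) :=
  measurable_comb.comp (hf.prodMk hg)

theorem map_comb_const (x : unitInterval) :
    (volume : Measure unitInterval).map (fun y => comb x y) = volume := by
  have hm : Measurable fun y => comb x y := measurable_comb.comp (measurable_const.prodMk measurable_id)
  have hP : IsProbabilityMeasure ((volume : Measure unitInterval).map (fun y => comb x y)) :=
    Measure.isProbabilityMeasure_map hm.aemeasurable
  -- integrals over the unit interval
  have hint : ∀ g : ℝ → ℝ, ∫ y : unitInterval, g y = ∫ y in (0 : ℝ)..1, g y := by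
    intro g
    rw [intervalIntegral.integral_of_le (by norm_num), ← integral_Icc_eq_integral_Ioc]
    exact integral_subtype_comap measurableSet_Icc g
  refine Measure.ext fun s hs => ?_
  have hs' : MeasurableSet (Subtype.val '' s : Set ℝ) :=
    (MeasurableEmbedding.subtype_coe measurableSet_Icc).measurableSet_image.mpr hs
  set φ : ℝ → ℝ := (Subtype.val '' s : Set ℝ).indicator 1 with hφ
  have hval : ∀ y : unitInterval, φ (y : ℝ) = s.indicator 1 y := by
    intro y
    by_cases hy : y ∈ s
    · rw [Set.indicator_of_mem hy, hφ, Set.indicator_of_mem (Set.mem_image_of_mem _ hy)]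
      rfl
    · rw [Set.indicator_of_notMem hy, hφ, Set.indicator_of_notMem]
      rintro ⟨z, hz, hzy⟩
      exact hy (Subtype.ext hzy ▸ hz)
  have h1 : ((volume : Measure unitInterval).map (fun y => comb x y)).real s =
      ∫ y in (0 : ℝ)..1, φ (Int.fract ((x : ℝ) + y)) := by
    rw [← hint fun y => φ (Int.fract ((x : ℝ) + y))]
    rw [Measure.real, Measure.map_apply hm hs, ← Measure.real,
      ← integral_indicator_one (hm hs)]
    refine integral_congr_ae (Eventually.of_forall fun y => ?_)
    show ((fun y => comb x y) ⁻¹' s).indicator 1 y = φ (Int.fract ((x : ℝ) + y))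
    have h2 := hval (comb x y)
    have h3 : ((comb x y : unitInterval) : ℝ) = Int.fract ((x : ℝ) + y) := rfl
    rw [h3] at h2
    rw [h2]
    rfl
  have hper : Function.Periodic (fun z : ℝ => φ (Int.fract z)) 1 := by
    intro z
    show φ (Int.fract (z + 1)) = φ (Int.fract z)
    rw [Int.fract_add_one]
  have h4 : ∫ y in (0 : ℝ)..1, φ (Int.fract ((x : ℝ) + y)) = ∫ z in (0 : ℝ)..1, φ (Int.fract z) := by
    have h5 := intervalIntegral.integral_comp_add_left (a := 0) (b := 1)
      (fun z : ℝ => φ (Int.fract z)) (x : ℝ)
    have h6 := hper.intervalIntegral_add_eq (x : ℝ) 0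
    rw [h5]
    rw [add_zero, zero_add] at *
    exact h6
  have h7 : ∫ z in (0 : ℝ)..1, φ (Int.fract z) = ∫ z in (0 : ℝ)..1, φ z := by
    rw [intervalIntegral.integral_of_le (by norm_num), intervalIntegral.integral_of_le (by norm_num),
      integral_Ioc_eq_integral_Ioo, integral_Ioc_eq_integral_Ioo]
    refine setIntegral_congr_fun measurableSet_Ioo fun z hz => ?_
    show φ (Int.fract z) = φ z
    rw [Int.fract_eq_self.mpr ⟨hz.1.le, hz.2⟩]
  have h8 : ∫ z in (0 : ℝ)..1, φ z = (volume : Measure unitInterval).real s := by
    rw [← hint φ, ← integral_indicator_one hs]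
    exact integral_congr_ae (Eventually.of_forall hval)
  have h9 : ((volume : Measure unitInterval).map (fun y => comb x y)).real s =
      (volume : Measure unitInterval).real s := by
    rw [h1, h4, h7, h8]
  rwa [Measure.real, Measure.real, ENNReal.toReal_eq_toReal_iff' (measure_ne_top _ _)
    (measure_ne_top _ _)] at h9

theorem map_comb_prod :
    ((volume : Measure unitInterval).prod (volume : Measure unitInterval)).map
      (fun p => comb p.1 p.2) = volume := by
  refine Measure.ext fun s hs => ?_
  rw [Measure.map_apply measurable_comb hs, Measure.prod_apply (measurable_comb hs)]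
  have h1 : ∀ x : unitInterval, (volume : Measure unitInterval)
      (Prod.mk x ⁻¹' ((fun p : unitInterval × unitInterval => comb p.1 p.2) ⁻¹' s)) =
      (volume : Measure unitInterval) s := by
    intro x
    have h2 : ((volume : Measure unitInterval).map (fun y => comb x y)) s = volume s := by
      rw [map_comb_const x]
    have hm : Measurable fun y : unitInterval => comb x y :=
      measurable_comb' measurable_const measurable_id
    rw [Measure.map_apply hm hs] at h2
    exact h2
  simp_rw [h1]
  simp

theorem map_comb_bool :
    (Measure.infinitePi fun _ : Bool => (volume : Measure unitInterval)).map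
      (fun q => comb (q false) (q true)) = volume := by
  have h1 := Measure.infinitePi_map_eval_prod (P := fun _ : Bool => (volume : Measure unitInterval))
    (i := false) (j := true) (by decide)
  have h2 : (fun q : Bool → unitInterval => comb (q false) (q true)) =
      (fun p : unitInterval × unitInterval => comb p.1 p.2) ∘ fun q => (q false, q true) := rfl
  rw [h2, ← Measure.map_map measurable_comb (by fun_prop), h1, map_comb_prod]

/-! ### Infinite products -/

theorem infinitePi_sum {α β X : Type*} [MeasurableSpace X] (ν : Measure X)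
    [IsProbabilityMeasure ν] :
    ((Measure.infinitePi fun _ : α => ν).prod (Measure.infinitePi fun _ : β => ν)).map
      (fun p => Sum.elim p.1 p.2) = Measure.infinitePi fun _ : α ⊕ β => ν := by
  have hm : Measurable fun p : (α → X) × (β → X) => (Sum.elim p.1 p.2 : α ⊕ β → X) := by
    refine measurable_pi_lambda _ fun q => ?_
    cases q with
    | inl a => exact (measurable_pi_apply a).comp measurable_fst
    | inr b => exact (measurable_pi_apply b).comp measurable_snd
  refine Measure.eq_infinitePi _ fun s t ht => ?_
  rw [Measure.map_apply hm (.pi s.countable_toSet fun _ _ => ht _)]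
  have h1 : (fun p : (α → X) × (β → X) => (Sum.elim p.1 p.2 : α ⊕ β → X)) ⁻¹'
      ((s : Set (α ⊕ β)).pi t) =
      ((s.toLeft : Set α).pi fun a => t (Sum.inl a)) ×ˢ
        ((s.toRight : Set β).pi fun b => t (Sum.inr b)) := by
    ext p
    simp only [Set.mem_preimage, Set.mem_pi, Finset.mem_coe, Set.mem_prod, Finset.mem_toLeft,
      Finset.mem_toRight]
    constructor
    · intro h
      exact ⟨fun a ha => h _ ha, fun b hb => h _ hb⟩
    · rintro ⟨h2, h3⟩ q hq
      cases q with
      | inl a => exact h2 a hq
      | inr b => exact h3 b hq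
  rw [h1, Measure.prod_prod, Measure.infinitePi_pi _ fun a _ => ht _,
    Measure.infinitePi_pi _ fun b _ => ht _]
  conv_rhs => rw [← Finset.toLeft_disjSum_toRight (u := s), Finset.prod_disjSum]

/-- combining the pairs of labels -/
noncomputable def comb2 {ι : Type*} (y : ι × ℕ × Bool → unitInterval) (e : ι) (k : ℕ) : unitInterval :=
  comb (y (e, k, false)) (y (e, k, true))

theorem measurable_comb2 {ι : Type*} : Measurable (comb2 : (ι × ℕ × Bool → unitInterval) → _) :=
  measurable_pi_lambda _ fun e => measurable_pi_lambda _ fun k =>
    measurable_comb' (measurable_pi_apply (e, k, false)) (measurable_pi_apply (e, k, true))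

theorem map_comb2 {ι : Type*} :
    (Measure.infinitePi fun _ : ι × ℕ × Bool => (volume : Measure unitInterval)).map comb2 =
      Measure.infinitePi fun _ : ι => Measure.infinitePi fun _ : ℕ =>
        (volume : Measure unitInterval) := by
  have h1 := Measure.infinitePi_map_curry (ι := ι) (κ := ℕ × Bool)
    (fun _ _ => (volume : Measure unitInterval))
  have h2 := Measure.infinitePi_map_curry (ι := ℕ) (κ := Bool)
    (fun _ _ => (volume : Measure unitInterval))
  set g : (ℕ × Bool → unitInterval) → ℕ → unitInterval := fun z k =>
    comb (z (k, false)) (z (k, true)) with hg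
  have hgm : Measurable g := measurable_pi_lambda _ fun k =>
    measurable_comb' (measurable_pi_apply (k, false)) (measurable_pi_apply (k, true))
  have hgl : (Measure.infinitePi fun _ : ℕ × Bool => (volume : Measure unitInterval)).map g =
      Measure.infinitePi fun _ : ℕ => (volume : Measure unitInterval) := by
    have hq : Measurable fun q : Bool → unitInterval => comb (q false) (q true) :=
      measurable_comb' (measurable_pi_apply false) (measurable_pi_apply true)
    have h3 : g = (fun (x : ℕ → Bool → unitInterval) k => comb (x k false) (x k true)) ∘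
        (MeasurableEquiv.curry ℕ Bool unitInterval) := rfl
    have h4 := Measure.infinitePi_map_pi
      (μ := fun _ : ℕ => Measure.infinitePi fun _ : Bool => (volume : Measure unitInterval))
      (f := fun _ q => comb (q false) (q true)) fun _ => hq
    rw [map_comb_bool] at h4
    have hm : Measurable fun (x : ℕ → Bool → unitInterval) k => comb (x k false) (x k true) :=
      measurable_pi_lambda _ fun k => hq.comp (measurable_pi_apply k)
    rw [h3, ← Measure.map_map hm (by fun_prop), h2, h4]
  have h5 : (comb2 : (ι × ℕ × Bool → unitInterval) → ι → ℕ → unitInterval) =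
      (fun (x : ι → ℕ × Bool → unitInterval) e => g (x e)) ∘
        (MeasurableEquiv.curry ι (ℕ × Bool) unitInterval) := rfl
  have h6 := Measure.infinitePi_map_pi
    (μ := fun _ : ι => Measure.infinitePi fun _ : ℕ × Bool => (volume : Measure unitInterval))
    (f := fun _ => g) fun _ => hgm
  rw [hgl] at h6
  have hm : Measurable fun (x : ι → ℕ × Bool → unitInterval) e => g (x e) :=
    measurable_pi_lambda _ fun e => hgm.comp (measurable_pi_apply e)
  rw [h5, ← Measure.map_map hm (by fun_prop), h1, h6]

/-! ### Assembling the labels -/

variable {V : Type*}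

/-- labels from the first labels and the others -/
def glue (p : (V → unitInterval) × (V × ℕ → unitInterval)) (v : V) (n : ℕ) : unitInterval :=
  Nat.casesOn n (p.1 v) fun m => p.2 (v, m)

theorem measurable_glue : Measurable (glue : (V → unitInterval) × (V × ℕ → unitInterval) → _) := by
  refine measurable_pi_lambda _ fun v => measurable_pi_lambda _ fun n => ?_
  cases n with
  | zero => exact (measurable_pi_apply v).comp measurable_fst
  | succ m => exact (measurable_pi_apply (v, m)).comp measurable_snd

/-- iid labels on `V × ℕ` -/
noncomputable def P0 (V : Type*) : Measure (V × ℕ → unitInterval) :=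
  Measure.infinitePi fun _ : V × ℕ => (volume : Measure unitInterval)

instance : IsProbabilityMeasure (P0 V) := by unfold P0; infer_instance

instance : IsProbabilityMeasure (U1 V) := by unfold U1; infer_instance

theorem map_glue : ((U1 V).prod (P0 V)).map glue = U2 V := by
  -- the injection into the sum type
  set g : V × ℕ → V ⊕ (V × ℕ) := fun q => Nat.casesOn q.2 (Sum.inl q.1) fun m => Sum.inr (q.1, m)
    with hg
  have hginj : Function.Injective g := by
    rintro ⟨v, n⟩ ⟨v', n'⟩ h
    cases n with
    | zero =>
      cases n' with
      | zero =>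
        have h1 : (Sum.inl v : V ⊕ (V × ℕ)) = Sum.inl v' := h
        rw [Sum.inl.inj h1]
      | succ m' =>
        have h1 : (Sum.inl v : V ⊕ (V × ℕ)) = Sum.inr (v', m') := h
        exact absurd h1 (by simp)
    | succ m =>
      cases n' with
      | zero =>
        have h1 : (Sum.inr (v, m) : V ⊕ (V × ℕ)) = Sum.inl v' := h
        exact absurd h1 (by simp)
      | succ m' =>
        have h1 : (Sum.inr (v, m) : V ⊕ (V × ℕ)) = Sum.inr (v', m') := h
        have h2 := Sum.inr.inj h1
        rw [Prod.mk.injEq] at h2 ⊢
        exact ⟨h2.1, by rw [h2.2]⟩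
  have h1 := infinitePi_sum (α := V) (β := V × ℕ) (volume : Measure unitInterval)
  have h2 := Measure.map_infinitePi_infinitePi_of_inj
    (P := fun _ : V ⊕ (V × ℕ) => (volume : Measure unitInterval)) hginj
  have h3 := Measure.infinitePi_map_curry (ι := V) (κ := ℕ)
    (fun _ _ => (volume : Measure unitInterval))
  have hm1 : Measurable fun p : (V → unitInterval) × (V × ℕ → unitInterval) =>
      (Sum.elim p.1 p.2 : V ⊕ (V × ℕ) → unitInterval) := by
    refine measurable_pi_lambda _ fun q => ?_
    cases q with
    | inl a => exact (measurable_pi_apply a).comp measurable_fst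
    | inr b => exact (measurable_pi_apply b).comp measurable_snd
  have hm2 : Measurable fun (x : V ⊕ (V × ℕ) → unitInterval) i => x (g i) :=
    measurable_pi_lambda _ fun i => measurable_pi_apply (g i)
  have hm3 : Measurable (MeasurableEquiv.curry V ℕ unitInterval) := by fun_prop
  have h4 : (glue : (V → unitInterval) × (V × ℕ → unitInterval) → V → ℕ → unitInterval) =
      (MeasurableEquiv.curry V ℕ unitInterval) ∘
        ((fun (x : V ⊕ (V × ℕ) → unitInterval) i => x (g i)) ∘
        fun p => (Sum.elim p.1 p.2 : V ⊕ (V × ℕ) → unitInterval)) := by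
    ext p v n
    cases n with
    | zero => rfl
    | succ m => rfl
  rw [h4, ← Measure.map_map hm3 (hm2.comp hm1), ← Measure.map_map hm2 hm1]
  unfold U1 P0
  rw [h1, h2, h3]
  rfl

theorem ae_injective [Countable V] : ∀ᵐ a ∂(U1 V), Function.Injective a := by
  have h1 : ∀ v w : V, v ≠ w → ∀ᵐ a ∂(U1 V), a v ≠ a w := by
    intro v w hvw
    have h2 := Measure.infinitePi_map_eval_prod (P := fun _ : V => (volume : Measure unitInterval))
      (i := v) (j := w) hvw
    have hD : MeasurableSet {p : unitInterval × unitInterval | p.1 ≠ p.2} :=
      (measurableSet_eq_fun measurable_fst measurable_snd).compl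
    have h3 : ∀ᵐ p ∂((volume : Measure unitInterval).prod (volume : Measure unitInterval)),
        p.1 ≠ p.2 := by
      rw [Measure.ae_prod_iff_ae_ae hD]
      refine Eventually.of_forall fun x => ?_
      have h4 : ∀ᵐ y : unitInterval, y ≠ x := by
        rw [ae_iff]
        simp
      filter_upwards [h4] with y hy
      exact hy.symm
    rw [← h2] at h3
    have hm : Measurable fun a : V → unitInterval => (a v, a w) :=
      (measurable_pi_apply v).prodMk (measurable_pi_apply w)
    exact ae_of_ae_map hm.aemeasurable h3
  have h2 : ∀ᵐ a ∂(U1 V), ∀ v w : V, v ≠ w → a v ≠ a w := by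
    rw [ae_all_iff]
    intro v
    rw [ae_all_iff]
    intro w
    by_cases hvw : v = w
    · exact Eventually.of_forall fun a h => absurd hvw h
    · filter_upwards [h1 v w hvw] with a ha _
      exact ha
  filter_upwards [h2] with a ha v w hvw
  by_contra hne
  exact ha v w hne hvw

/-- ranks of different neighbours are different -/
theorem rk_inj (G : SimpleGraph V) (hG : ∀ v, (G.neighborSet v).Finite) {a : V → unitInterval}
    (ha : Function.Injective a) {v w w' : V} (hw : G.Adj v w) (hw' : G.Adj v w')
    (h : rk G a v w = rk G a v w') : w = w' := by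
  have key : ∀ x y, G.Adj v x → a x < a y → rk G a v x < rk G a v y := by
    intro x y hx hxy
    unfold rk
    apply Set.ncard_lt_ncard
    · rw [Set.ssubset_iff_of_subset]
      · exact ⟨x, ⟨hx, hxy⟩, fun h => lt_irrefl _ h.2⟩
      · rintro z ⟨hz1, hz2⟩
        exact ⟨hz1, hz2.trans hxy⟩
    · exact (hG v).subset fun z hz => hz.1
  by_contra hne
  rcases lt_or_gt_of_ne (fun hh => hne (ha hh)) with hlt | hlt
  · exact absurd h (key w w' hw hlt).ne
  · exact absurd h.symm (key w' w hw' hlt).ne

/-- the two endpoints of an edge -/
noncomputable def ep (e : Sym2 V) (c : Bool) : V := if c then tgt e else src e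

theorem mk_src_tgt (e : Sym2 V) : s(src e, tgt e) = e := by
  unfold src tgt
  exact Quot.out_eq e

open Classical in
/-- the private label used by the edge `e` at stage `k` at the endpoint `c` -/
noncomputable def slot (G : SimpleGraph V) (a : V → unitInterval) (q : Sym2 V × ℕ × Bool) :
    (V × ℕ) ⊕ (Sym2 V × ℕ × Bool) :=
  if q.1 ∈ G.edgeSet then
    Sum.inl (ep q.1 q.2.2, Nat.pair (rk G a (ep q.1 q.2.2) (ep q.1 (!q.2.2))) q.2.1)
  else Sum.inr q

theorem slot_inj (G : SimpleGraph V) (hG : ∀ v, (G.neighborSet v).Finite) {a : V → unitInterval}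
    (ha : Function.Injective a) : Function.Injective (slot G a) := by
  have hadj : ∀ e ∈ G.edgeSet, ∀ c, G.Adj (ep e c) (ep e (!c)) := by
    intro e he c
    have h1 : G.Adj (src e) (tgt e) := by
      rw [← SimpleGraph.mem_edgeSet, mk_src_tgt]
      exact he
    cases c with
    | false => exact h1
    | true => exact h1.symm
  have hmk : ∀ (e : Sym2 V) (c : Bool), s(ep e c, ep e (!c)) = e := by
    intro e c
    cases c with
    | false => exact mk_src_tgt e
    | true => rw [Sym2.eq_swap]; exact mk_src_tgt e
  rintro ⟨e, k, c⟩ ⟨e', k', c'⟩ h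
  unfold slot at h
  by_cases he : e ∈ G.edgeSet
  · by_cases he' : e' ∈ G.edgeSet
    · simp only [he, he', if_true] at h
      have h1 := Sum.inl.inj h
      rw [Prod.mk.injEq, Nat.pair_eq_pair] at h1
      obtain ⟨h2, h3, h4⟩ := h1
      have h5 := hadj e he c
      have h6 := hadj e' he' c'
      rw [← h2] at h6 h3
      have h7 := rk_inj G hG ha h5 h6 h3
      have h8 : e = e' := by
        rw [← hmk e c, ← hmk e' c', ← h2, ← h7]
      subst h8
      have h9 : c = c' := by
        by_contra hne
        have h10 : c' = !c := by
          cases c <;> cases c' <;> simp_all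
        rw [h10] at h2
        exact h5.ne h2
      rw [h4, h9]
    · simp only [he, he', if_true, if_false] at h
      exact absurd h (by simp)
  · by_cases he' : e' ∈ G.edgeSet
    · simp only [he, he', if_true, if_false] at h
      exact absurd h (by simp)
    · simp only [he, he', if_false] at h
      exact Sum.inr.inj h

/-- on the edges of `G` the labels are read off the slots -/
theorem lab_glue (G : SimpleGraph V) (a : V → unitInterval)
    (x : (V × ℕ) ⊕ (Sym2 V × ℕ × Bool) → unitInterval) {e : Sym2 V} (he : e ∈ G.edgeSet) :
    lab G (glue (a, fun p => x (Sum.inl p))) e = comb2 (fun q => x (slot G a q)) e := by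
  ext k
  have h1 : lab G (glue (a, fun p => x (Sum.inl p))) e k =
      lab G (glue (a, fun p => x (Sum.inl p))) s(src e, tgt e) k := by rw [mk_src_tgt]
  have h2 : slot G a (e, k, false) = Sum.inl (src e, Nat.pair (rk G a (src e) (tgt e)) k) := by
    unfold slot ep
    simp [he]
  have h3 : slot G a (e, k, true) = Sum.inl (tgt e, Nat.pair (rk G a (tgt e) (src e)) k) := by
    unfold slot ep
    simp [he]
  rw [h1]
  unfold comb2
  simp only [h2, h3]
  rfl

theorem fixed_law [Countable V] (G : SimpleGraph V) (hG : ∀ v, (G.neighborSet v).Finite)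
    {a : V → unitInterval} (ha : Function.Injective a)
    {H : Set (Sym2 V → ℕ → unitInterval)} (hH : MeasurableSet H)
    (hsat : ∀ u u', (∀ e ∈ G.edgeSet, u e = u' e) → (u ∈ H ↔ u' ∈ H))
    (hmeas : MeasurableSet {β : V × ℕ → unitInterval | lab G (glue (a, β)) ∈ H}) :
    P0 V {β | lab G (glue (a, β)) ∈ H} = UU V H := by
  have h1 := Measure.map_infinitePi_infinitePi_of_inj
    (P := fun _ : (V × ℕ) ⊕ (Sym2 V × ℕ × Bool) => (volume : Measure unitInterval))
    (Sum.inl_injective (α := V × ℕ) (β := Sym2 V × ℕ × Bool))
  have h2 := Measure.map_infinitePi_infinitePi_of_inj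
    (P := fun _ : (V × ℕ) ⊕ (Sym2 V × ℕ × Bool) => (volume : Measure unitInterval))
    (slot_inj G hG ha)
  have h3 := map_comb2 (ι := Sym2 V)
  have hm1 : Measurable fun (x : (V × ℕ) ⊕ (Sym2 V × ℕ × Bool) → unitInterval) i =>
      x (Sum.inl i) := measurable_pi_lambda _ fun i => measurable_pi_apply _
  have hm2 : Measurable fun (x : (V × ℕ) ⊕ (Sym2 V × ℕ × Bool) → unitInterval) i =>
      x (slot G a i) := measurable_pi_lambda _ fun i => measurable_pi_apply _
  unfold P0 UU
  rw [← h1, ← h3, ← h2, Measure.map_apply hm1 hmeas, Measure.map_apply measurable_comb2 hH,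
    Measure.map_apply hm2 (measurable_comb2 hH)]
  congr 1
  ext x
  exact hsat _ _ fun e he => lab_glue G a x he

end Lab

open Lab

variable {V : Type*}

theorem lab_law [Countable V] (G : SimpleGraph V) (hG : ∀ v, (G.neighborSet v).Finite)
    {H : Set ((V → unitInterval) × (Sym2 V → ℕ → unitInterval))} (hH : MeasurableSet H)
    (hsat : ∀ a u u', (∀ e ∈ G.edgeSet, u e = u' e) → ((a, u) ∈ H ↔ (a, u') ∈ H)) :
    U2 V {b | ((fun v => b v 0), lab G b) ∈ H} = ((U1 V).prod (UU V)) H := by
  have hlab : Measurable fun b : V → ℕ → unitInterval => lab G b :=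
    measurable_lab.comp (measurable_const.prodMk measurable_id)
  have hb0 : Measurable fun (b : V → ℕ → unitInterval) v => b v 0 :=
    measurable_pi_lambda _ fun v => (measurable_pi_apply 0).comp (measurable_pi_apply v)
  have hset : MeasurableSet {b : V → ℕ → unitInterval | ((fun v => b v 0), lab G b) ∈ H} :=
    (hb0.prodMk hlab) hH
  have hset2 : MeasurableSet {p : (V → unitInterval) × (V × ℕ → unitInterval) |
      (p.1, lab G (glue p)) ∈ H} :=
    (measurable_fst.prodMk (hlab.comp measurable_glue)) hH
  rw [← map_glue, Measure.map_apply measurable_glue hset]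
  have h1 : glue ⁻¹' {b : V → ℕ → unitInterval | ((fun v => b v 0), lab G b) ∈ H} =
      {p : (V → unitInterval) × (V × ℕ → unitInterval) | (p.1, lab G (glue p)) ∈ H} := rfl
  have hUU : IsProbabilityMeasure (UU V) := by unfold UU; infer_instance
  rw [h1, Measure.prod_apply hset2, Measure.prod_apply hH]
  refine lintegral_congr_ae ?_
  filter_upwards [ae_injective (V := V)] with a ha
  have hHa : MeasurableSet {u : Sym2 V → ℕ → unitInterval | (a, u) ∈ H} :=
    (measurable_const.prodMk measurable_id) hH
  have hmeas : MeasurableSet {β : V × ℕ → unitInterval |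
      lab G (glue (a, β)) ∈ {u : Sym2 V → ℕ → unitInterval | (a, u) ∈ H}} :=
    (measurable_const.prodMk measurable_id) hset2
  exact fixed_law G hG ha hHa (fun u u' h => hsat a u u' h) hmeas

end P143
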