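import Vale.Agent.P143.Zfun

/-!
# P143: the sampler in finite volume
-/

open MeasureTheory Filter Topology Real

namespace P143

variable {V W : Type*}

theorem wt_pos (x : Sym2 V → ℝ) (B : Finset (Sym2 V)) : 0 < wt x B := exp_pos _

theorem mm_nonneg' (S : Finset (Sym2 V)) (x : Sym2 V → ℝ) (e : Sym2 V) : 0 ≤ mm S x e := by
  unfold mm ZZ
  apply div_nonneg
  · exact Finset.sum_nonneg fun B _ => (wt_pos x B).le
  · exact Finset.sum_nonneg fun B _ => (wt_pos x B).le

theorem mm_le_one' (S : Finset (Sym2 V)) (x : Sym2 V → ℝ) (e : Sym2 V) : mm S x e ≤ 1 := by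
  classical
  unfold mm ZZ
  apply div_le_one_of_le₀
  · exact Finset.sum_le_sum_of_subset_of_nonneg (Finset.filter_subset _ _)
      fun B _ _ => (wt_pos x B).le
  · exact Finset.sum_nonneg fun B _ => (wt_pos x B).le

theorem mm_mem (S : Finset (Sym2 V)) (x : Sym2 V → ℝ) (e : Sym2 V) :
    mm S x e ∈ Set.Icc (0:ℝ) 1 := ⟨mm_nonneg' S x e, mm_le_one' S x e⟩

theorem wt_congr {S B : Finset (Sym2 V)} (hB : B ⊆ S) {x x' : Sym2 V → ℝ}
    (h : ∀ f ∈ S, x f = x' f) : wt x B = wt x' B := by
  unfold wt
  congr 1
  exact Finset.sum_congr rfl fun f hf => h f (hB hf)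

theorem mem_bases {S B : Finset (Sym2 V)} : B ∈ bases S ↔ IsBase S B := by
  unfold bases
  simp only [Finset.mem_filter, Finset.mem_powerset, and_iff_right_iff_imp]
  exact fun h => h.1

theorem ZZ_congr {S : Finset (Sym2 V)} {x x' : Sym2 V → ℝ}
    (h : ∀ f ∈ S, x f = x' f) : ZZ S x = ZZ S x' := by
  unfold ZZ
  exact Finset.sum_congr rfl fun B hB => wt_congr (mem_bases.mp hB).1 h

theorem mm_congr {S : Finset (Sym2 V)} {x x' : Sym2 V → ℝ} (e : Sym2 V)
    (h : ∀ f ∈ S, x f = x' f) : mm S x e = mm S x' e := by
  classical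
  unfold mm
  rw [ZZ_congr h]
  congr 1
  exact Finset.sum_congr rfl fun B hB =>
    wt_congr (mem_bases.mp (Finset.mem_filter.mp hB).1).1 h

theorem measurable_wt (B : Finset (Sym2 V)) : Measurable (fun x : Sym2 V → ℝ => wt x B) := by
  unfold wt
  fun_prop

theorem measurable_ZZ (S : Finset (Sym2 V)) : Measurable (fun x : Sym2 V → ℝ => ZZ S x) := by
  unfold ZZ
  exact Finset.measurable_fun_sum _ fun B _ => measurable_wt B

theorem measurable_mm (S : Finset (Sym2 V)) (e : Sym2 V) :
    Measurable (fun x : Sym2 V → ℝ => mm S x e) := by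
  unfold mm
  exact (Finset.measurable_fun_sum _ fun B _ => measurable_wt B).div (measurable_ZZ S)

section Iter

variable {S : Finset (Sym2 V)} {x t : Sym2 V → ℝ} {u : Sym2 V → unitInterval}

theorem stageIter_off {e : Sym2 V} (he : e ∉ S) (n : ℕ) : stageIter S x t u n e = 0 := by
  cases n with
  | zero => rfl
  | succ n => simp [stageIter, he]

open Classical in
/-- number of predecessors -/
noncomputable def npre (S : Finset (Sym2 V)) (t : Sym2 V → ℝ) (e : Sym2 V) : ℕ :=
  (S.filter (fun f => t f < t e)).card

theorem npre_lt {S : Finset (Sym2 V)} {t : Sym2 V → ℝ} {e f : Sym2 V} (hf : f ∈ S)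
    (h : t f < t e) : npre S t f < npre S t e := by
  classical
  unfold npre
  apply Finset.card_lt_card
  rw [Finset.ssubset_iff_of_subset]
  · exact ⟨f, Finset.mem_filter.mpr ⟨hf, h⟩, by simp⟩
  · intro g hg
    rw [Finset.mem_filter] at hg ⊢
    exact ⟨hg.1, hg.2.trans h⟩

theorem npre_lt_card {e : Sym2 V} (he : e ∈ S) : npre S t e < S.card := by
  classical
  unfold npre
  apply Finset.card_lt_card
  rw [Finset.ssubset_iff_of_subset (Finset.filter_subset _ _)]
  exact ⟨e, he, by simp⟩

theorem stageIter_stable (n : ℕ) : ∀ e, npre S t e < n →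
    stageIter S x t u n e = stageIter S x t u (n + 1) e := by
  classical
  induction n with
  | zero => intro e he; omega
  | succ n ih =>
    intro e he
    by_cases heS : e ∈ S
    · simp only [stageIter, heS, if_true]
      congr 1
      apply mm_congr
      intro f hf
      by_cases h : t f < t e
      · simp only [h, if_true]
        congr 1
        have := npre_lt hf h
        cases n with
        | zero => omega
        | succ n => exact ih f (by omega)
      · simp [h]
    · rw [stageIter_off heS, stageIter_off heS]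

theorem stageIter_card {e : Sym2 V} (he : e ∈ S) :
    stageIter S x t u S.card e = stageIter S x t u (S.card + 1) e :=
  stageIter_stable _ _ (npre_lt_card he)

end Iter

theorem stage_off {S : Finset (Sym2 V)} {x t : Sym2 V → ℝ} {u : Sym2 V → unitInterval}
    {e : Sym2 V} (he : e ∉ S) : stage S x t u e = 0 := stageIter_off he _

open Classical in
theorem stage_eq {S : Finset (Sym2 V)} (x t : Sym2 V → ℝ) (u : Sym2 V → unitInterval)
    {e : Sym2 V} (he : e ∈ S) :
    stage S x t u e =
      yf (mm S (fun f => x f + if t f < t e then stage S x t u f else 0) e) (u e) := by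
  have h := stageIter_card (x := x) (t := t) (u := u) he
  unfold stage
  rw [h]
  simp only [stageIter, he, if_true]

open Classical in
/-- uniqueness of the solution of the stage equation -/
theorem stage_unique {S : Finset (Sym2 V)} (x t : Sym2 V → ℝ) (u : Sym2 V → unitInterval)
    {y : Sym2 V → ℝ} (hoff : ∀ e ∉ S, y e = 0)
    (hy : ∀ e ∈ S, y e = yf (mm S (fun f => x f + if t f < t e then y f else 0) e) (u e)) :
    y = stage S x t u := by
  have key : ∀ n, ∀ e ∈ S, npre S t e ≤ n → y e = stage S x t u e := by
    intro n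
    induction n with
    | zero =>
      intro e he hn
      rw [hy e he, stage_eq x t u he]
      congr 1
      apply mm_congr
      intro f hf
      by_cases h : t f < t e
      · have := npre_lt hf h
        omega
      · simp [h]
    | succ n ih =>
      intro e he hn
      rw [hy e he, stage_eq x t u he]
      congr 1
      apply mm_congr
      intro f hf
      by_cases h : t f < t e
      · simp only [h, if_true]
        rw [ih f hf (by have := npre_lt hf h; omega)]
      · simp [h]
  funext e
  by_cases he : e ∈ S
  · exact key _ e he le_rfl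
  · rw [hoff e he, stage_off he]

theorem abs_stage_le (S : Finset (Sym2 V)) (x t : Sym2 V → ℝ) (u : Sym2 V → unitInterval)
    (e : Sym2 V) : |stage S x t u e| ≤ log 2 := by
  by_cases he : e ∈ S
  · rw [stage_eq x t u he]
    exact abs_yf_le (mm_mem _ _ _) (u e).2
  · rw [stage_off he, abs_zero]
    exact Real.log_nonneg (by norm_num)

theorem XX_off {S : Finset (Sym2 V)} {t : Sym2 V → ℝ} {u : Sym2 V → ℕ → unitInterval}
    {e : Sym2 V} (he : e ∉ S) (K : ℕ) : XX S t u K e = 0 := by
  induction K with
  | zero => rfl
  | succ K ih => simp [XX, ih, stage_off he]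

theorem abs_XX_le (S : Finset (Sym2 V)) (t : Sym2 V → ℝ) (u : Sym2 V → ℕ → unitInterval)
    (K : ℕ) (e : Sym2 V) : |XX S t u K e| ≤ K * log 2 := by
  induction K with
  | zero => simp [XX]
  | succ K ih =>
    have h := abs_stage_le S (XX S t u K) t (fun e => u e K) e
    simp only [XX, Pi.add_apply]
    refine (abs_add_le _ _).trans ?_
    push_cast
    linarith

theorem measurable_stageIter (S : Finset (Sym2 V)) (n : ℕ) : ∀ e : Sym2 V,
    Measurable (fun p : (Sym2 V → ℝ) × (Sym2 V → ℝ) × (Sym2 V → unitInterval) =>
      stageIter S p.1 p.2.1 p.2.2 n e) := by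
  classical
  induction n with
  | zero => intro e; exact measurable_const
  | succ n ih =>
    intro e
    by_cases he : e ∈ S
    · simp only [stageIter, he, if_true]
      apply measurable_yf.comp (f := fun p : (Sym2 V → ℝ) × (Sym2 V → ℝ) ×
        (Sym2 V → unitInterval) => (mm S (fun f => p.1 f +
          if p.2.1 f < p.2.1 e then stageIter S p.1 p.2.1 p.2.2 n f else 0) e,
          ((p.2.2 e : unitInterval) : ℝ)))
      apply Measurable.prodMk
      · apply (measurable_mm S e).comp
        apply measurable_pi_lambda
        intro f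
        apply Measurable.add
        · fun_prop
        · apply Measurable.ite
          · apply measurableSet_lt <;> fun_prop
          · exact ih f
          · exact measurable_const
      · fun_prop
    · simp only [stageIter, he, if_false]
      exact measurable_const

theorem measurable_stage (S : Finset (Sym2 V)) (e : Sym2 V) :
    Measurable (fun p : (Sym2 V → ℝ) × (Sym2 V → ℝ) × (Sym2 V → unitInterval) =>
      stage S p.1 p.2.1 p.2.2 e) := measurable_stageIter S S.card e

theorem measurable_XX (S : Finset (Sym2 V)) (K : ℕ) (e : Sym2 V) :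
    Measurable (fun p : (Sym2 V → ℝ) × (Sym2 V → ℕ → unitInterval) =>
      XX S p.1 p.2 K e) := by
  induction K generalizing e with
  | zero => exact measurable_const
  | succ K ih =>
    simp only [XX, Pi.add_apply]
    apply (ih e).add
    apply (measurable_stage S e).comp (g := fun p : (Sym2 V → ℝ) × (Sym2 V → ℝ) ×
      (Sym2 V → unitInterval) => stage S p.1 p.2.1 p.2.2 e)
      (f := fun p : (Sym2 V → ℝ) × (Sym2 V → ℕ → unitInterval) =>
        (XX S p.1 p.2 K, p.1, fun e => p.2 e K))
    apply Measurable.prodMk
    · exact measurable_pi_lambda _ fun f => ih f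
    · apply Measurable.prodMk
      · fun_prop
      · fun_prop

theorem stage_congr {S : Finset (Sym2 V)} {x x' t t' : Sym2 V → ℝ}
    {u u' : Sym2 V → unitInterval} (hx : ∀ e ∈ S, x e = x' e) (ht : ∀ e ∈ S, t e = t' e)
    (hu : ∀ e ∈ S, u e = u' e) : stage S x t u = stage S x' t' u' := by
  classical
  apply stage_unique
  · exact fun e he => stage_off he
  · intro e he
    rw [stage_eq x t u he, hu e he]
    congr 1
    apply mm_congr
    intro f hf
    rw [hx f hf, ht f hf, ht e he]

theorem XX_congr {S : Finset (Sym2 V)} {t t' : Sym2 V → ℝ}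
    {u u' : Sym2 V → ℕ → unitInterval} (ht : ∀ e ∈ S, t e = t' e) (hu : ∀ e ∈ S, u e = u' e)
    (K : ℕ) : XX S t u K = XX S t' u' K := by
  induction K with
  | zero => rfl
  | succ K ih =>
    simp only [XX]
    rw [ih]
    congr 1
    exact stage_congr (fun _ _ => rfl) ht (fun e he => by rw [hu e he])

end P143
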