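import Vale.Agent.P143.Defs

/-!
# P143: the one-edge update (quantile coupling)
-/

open MeasureTheory Filter Topology Real

namespace P143

/-- the discriminant is positive -/
theorem zf_aux {m u : ℝ} (hm : m ∈ Set.Icc (0:ℝ) 1) (_hu : u ∈ Set.Icc (0:ℝ) 1) :
    0 < (1 - m / 2) + √((1 - m / 2) ^ 2 + 2 * m * u) := by
  have h1 : 0 ≤ √((1 - m / 2) ^ 2 + 2 * m * u) := Real.sqrt_nonneg _
  have : 0 < 1 - m / 2 := by linarith [hm.2]
  linarith

theorem zf_eq {m u : ℝ} (hm : m ∈ Set.Icc (0:ℝ) 1) (hu : u ∈ Set.Icc (0:ℝ) 1) :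
    zf m u - (m / 2) * zf m u * (1 - zf m u) = u := by
  obtain ⟨hm0, hm1⟩ := hm
  obtain ⟨hu0, hu1⟩ := hu
  have hD : 0 ≤ (1 - m / 2) ^ 2 + 2 * m * u := by positivity
  have hpos := zf_aux ⟨hm0, hm1⟩ ⟨hu0, hu1⟩
  set s := √((1 - m / 2) ^ 2 + 2 * m * u) with hs
  have hss : s ^ 2 = (1 - m / 2) ^ 2 + 2 * m * u := Real.sq_sqrt hD
  set D := (1 - m / 2) + s with hDdef
  have hz : zf m u * D = 2 * u := by
    have : zf m u = 2 * u / D := rfl
    rw [this, div_mul_cancel₀ _ hpos.ne']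
  have hD2 : D ^ 2 - 2 * D * (1 - m / 2) = 2 * m * u := by
    have : s = D - (1 - m / 2) := by rw [hDdef]; ring
    rw [this] at hss
    linear_combination hss
  have h0 : (zf m u - (m / 2) * zf m u * (1 - zf m u) - u) * D ^ 2 = 0 := by
    have : (zf m u - (m / 2) * zf m u * (1 - zf m u) - u) * D ^ 2 =
        (m / 2) * (zf m u * D) ^ 2 + (1 - m / 2) * (zf m u * D) * D - u * D ^ 2 := by ring
    rw [this, hz]
    linear_combination (-u) * hD2
  rcases mul_eq_zero.mp h0 with h | h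
  · linarith
  · exact absurd h (pow_ne_zero 2 hpos.ne')

theorem zf_nonneg {m u : ℝ} (hm : m ∈ Set.Icc (0:ℝ) 1) (hu : u ∈ Set.Icc (0:ℝ) 1) :
    0 ≤ zf m u := by
  have hpos := zf_aux hm hu
  exact div_nonneg (by linarith [hu.1]) hpos.le

theorem zf_le_one {m u : ℝ} (hm : m ∈ Set.Icc (0:ℝ) 1) (hu : u ∈ Set.Icc (0:ℝ) 1) :
    zf m u ≤ 1 := by
  have hz0 := zf_nonneg hm hu
  have he := zf_eq hm hu
  obtain ⟨hm0, hm1⟩ := hm
  obtain ⟨hu0, hu1⟩ := hu
  by_contra hlt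
  push Not at hlt
  nlinarith [mul_nonneg (mul_nonneg hm0 hz0) (sub_nonneg.mpr hlt.le)]

theorem zf_mem {m u : ℝ} (hm : m ∈ Set.Icc (0:ℝ) 1) (hu : u ∈ Set.Icc (0:ℝ) 1) :
    zf m u ∈ Set.Icc (0:ℝ) 1 := ⟨zf_nonneg hm hu, zf_le_one hm hu⟩

theorem measurable_zf : Measurable (fun p : ℝ × ℝ => zf p.1 p.2) := by
  unfold zf
  fun_prop

theorem measurable_yf : Measurable (fun p : ℝ × ℝ => yf p.1 p.2) := by
  unfold yf zf
  fun_prop

theorem abs_zf_sub_le {m m' u : ℝ} (hm : m ∈ Set.Icc (0:ℝ) 1) (hm' : m' ∈ Set.Icc (0:ℝ) 1)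
    (hu : u ∈ Set.Icc (0:ℝ) 1) : |zf m u - zf m' u| ≤ |m - m'| / 4 := by
  have hz := zf_mem hm hu
  have hz' := zf_mem hm' hu
  have he := zf_eq hm hu
  have he' := zf_eq hm' hu
  set z := zf m u
  set z' := zf m' u
  have key : (z - z') * (1 - m / 2 * (1 - z - z')) = (m - m') / 2 * (z' * (1 - z')) := by
    linear_combination he - he'
  have h1 : (1:ℝ) / 2 ≤ 1 - m / 2 * (1 - z - z') := by
    have : m / 2 * (1 - z - z') ≤ 1 / 2 := by
      have h2 : 1 - z - z' ≤ 1 := by linarith [hz.1, hz'.1]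
      have h3 : m / 2 ≤ 1 / 2 := by linarith [hm.2]
      have h4 : 0 ≤ m / 2 := by linarith [hm.1]
      nlinarith
    linarith
  have h2 : 0 ≤ z' * (1 - z') := mul_nonneg hz'.1 (by linarith [hz'.2])
  have h3 : z' * (1 - z') ≤ 1 / 4 := by nlinarith [sq_nonneg (z' - 1 / 2)]
  have habs := congrArg abs key
  rw [abs_mul, abs_mul, abs_of_nonneg h2, abs_of_nonneg (by linarith : (0:ℝ) ≤ 1 - m / 2 * (1 - z - z')),
    abs_div, abs_two] at habs
  nlinarith [abs_nonneg (z - z'), abs_nonneg (m - m'), mul_le_mul_of_nonneg_left h3 (abs_nonneg (m - m')),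
    mul_le_mul_of_nonneg_left h1 (abs_nonneg (z - z'))]

theorem abs_log_sub_log_le {a b : ℝ} (ha : 1 / 2 ≤ a) (hb : 1 / 2 ≤ b) :
    |log a - log b| ≤ 2 * |a - b| := by
  have ha0 : 0 < a := by linarith
  have hb0 : 0 < b := by linarith
  have h1 : ∀ {x y : ℝ}, 1 / 2 ≤ x → 1 / 2 ≤ y → x ≤ y → log y - log x ≤ 2 * (y - x) := by
    intro x y hx hy hxy
    have hx0 : 0 < x := by linarith
    have hy0 : 0 < y := by linarith
    rw [← Real.log_div hy0.ne' hx0.ne']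
    have h2 := Real.log_le_sub_one_of_pos (div_pos hy0 hx0)
    have h3 : y / x - 1 = (y - x) / x := by field_simp
    rw [h3] at h2
    refine h2.trans ?_
    rw [div_le_iff₀ hx0]
    nlinarith
  rcases le_total a b with h | h
  · rw [abs_sub_comm, abs_sub_comm a b, abs_of_nonneg (sub_nonneg.mpr (Real.log_le_log ha0 h)),
      abs_of_nonneg (sub_nonneg.mpr h)]
    exact h1 ha hb h
  · rw [abs_of_nonneg (sub_nonneg.mpr (Real.log_le_log hb0 h)), abs_of_nonneg (sub_nonneg.mpr h)]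
    exact h1 hb ha h

theorem abs_yf_sub_le {m m' u : ℝ} (hm : m ∈ Set.Icc (0:ℝ) 1) (hm' : m' ∈ Set.Icc (0:ℝ) 1)
    (hu : u ∈ Set.Icc (0:ℝ) 1) : |yf m u - yf m' u| ≤ |m - m'| / 2 := by
  have h1 := abs_zf_sub_le hm hm' hu
  have h2 := abs_log_sub_log_le (a := 1 / 2 + zf m u) (b := 1 / 2 + zf m' u)
    (by linarith [(zf_mem hm hu).1]) (by linarith [(zf_mem hm' hu).1])
  have h3 : (1 / 2 + zf m u) - (1 / 2 + zf m' u) = zf m u - zf m' u := by ring
  rw [h3] at h2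
  unfold yf
  linarith

theorem yf_mem {m u : ℝ} (hm : m ∈ Set.Icc (0:ℝ) 1) (hu : u ∈ Set.Icc (0:ℝ) 1) :
    yf m u ∈ Set.Icc (- log 2) (log (3 / 2)) := by
  have hz := zf_mem hm hu
  constructor
  · unfold yf
    rw [← Real.log_inv]
    apply Real.log_le_log (by norm_num)
    have := hz.1
    norm_num
    linarith
  · unfold yf
    apply Real.log_le_log (by linarith [hz.1])
    linarith [hz.2]

theorem abs_yf_le {m u : ℝ} (hm : m ∈ Set.Icc (0:ℝ) 1) (hu : u ∈ Set.Icc (0:ℝ) 1) :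
    |yf m u| ≤ log 2 := by
  have h := yf_mem hm hu
  rw [abs_le]
  refine ⟨h.1, h.2.trans ?_⟩
  exact Real.log_le_log (by norm_num) (by norm_num)

theorem abs_yf_sub_yf_le {m m' u u' : ℝ} (hm : m ∈ Set.Icc (0:ℝ) 1)
    (hm' : m' ∈ Set.Icc (0:ℝ) 1) (hu : u ∈ Set.Icc (0:ℝ) 1) (hu' : u' ∈ Set.Icc (0:ℝ) 1) :
    |yf m u - yf m' u'| ≤ log 3 := by
  have h := yf_mem hm hu
  have h' := yf_mem hm' hu'
  have h3 : log (3 / 2) + log 2 = log 3 := by
    rw [← Real.log_mul (by norm_num) (by norm_num)]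
    norm_num
  rw [abs_le]
  constructor <;> linarith [h.1, h.2, h'.1, h'.2]

theorem log_half_mem (ζ : unitInterval) : |log (1 / 2 + (ζ : ℝ))| ≤ log 2 := by
  have h0 := ζ.2.1
  have h1 := ζ.2.2
  rw [abs_le]
  constructor
  · rw [← Real.log_inv]
    apply Real.log_le_log (by norm_num)
    norm_num
    linarith
  · apply Real.log_le_log (by linarith)
    linarith

theorem integral_unitInterval (F : ℝ → ℝ) :
    ∫ u : unitInterval, F u = ∫ u in Set.Icc (0:ℝ) 1, F u :=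
  integral_subtype_comap measurableSet_Icc F

/-- the distribution function -/
noncomputable def hf (m z : ℝ) : ℝ := z - (m / 2) * z * (1 - z)

theorem hf_sub {m z z' : ℝ} :
    hf m z - hf m z' = (z - z') * (1 - m / 2 * (1 - z - z')) := by
  unfold hf; ring

theorem hf_factor {m z z' : ℝ} (hm : m ∈ Set.Icc (0:ℝ) 1) (hz : z ∈ Set.Icc (0:ℝ) 1)
    (hz' : z' ∈ Set.Icc (0:ℝ) 1) : 0 < 1 - m / 2 * (1 - z - z') := by
  have h2 : 1 - z - z' ≤ 1 := by linarith [hz.1, hz'.1]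
  have h3 : m / 2 ≤ 1 / 2 := by linarith [hm.2]
  have h4 : 0 ≤ m / 2 := by linarith [hm.1]
  nlinarith

theorem hf_mem {m z : ℝ} (hm : m ∈ Set.Icc (0:ℝ) 1) (hz : z ∈ Set.Icc (0:ℝ) 1) :
    hf m z ∈ Set.Icc (0:ℝ) 1 := by
  have h0 : hf m z - hf m 0 = (z - 0) * (1 - m / 2 * (1 - z - 0)) := hf_sub
  have h1 : hf m 1 - hf m z = (1 - z) * (1 - m / 2 * (1 - 1 - z)) := hf_sub
  have e0 : hf m 0 = 0 := by unfold hf; ring
  have e1 : hf m 1 = 1 := by unfold hf; ring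
  have p0 := hf_factor hm hz (Set.left_mem_Icc.mpr zero_le_one : (0:ℝ) ∈ Set.Icc (0:ℝ) 1)
  have p1 := hf_factor hm (Set.right_mem_Icc.mpr zero_le_one : (1:ℝ) ∈ Set.Icc (0:ℝ) 1) hz
  rw [e0] at h0
  rw [e1] at h1
  constructor
  · have := mul_nonneg (by linarith [hz.1] : 0 ≤ z - 0) p0.le
    linarith
  · have := mul_nonneg (by linarith [hz.2] : 0 ≤ 1 - z) p1.le
    linarith

theorem hf_injOn {m : ℝ} (hm : m ∈ Set.Icc (0:ℝ) 1) : Set.InjOn (hf m) (Set.Icc 0 1) := by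
  intro z hz z' hz' h
  have h1 : hf m z - hf m z' = (z - z') * (1 - m / 2 * (1 - z - z')) := hf_sub
  rw [h, sub_self] at h1
  rcases mul_eq_zero.mp h1.symm with h2 | h2
  · linarith
  · exact absurd h2 (hf_factor hm hz hz').ne'

theorem hf_zf {m u : ℝ} (hm : m ∈ Set.Icc (0:ℝ) 1) (hu : u ∈ Set.Icc (0:ℝ) 1) :
    hf m (zf m u) = u := zf_eq hm hu

theorem zf_hf {m z : ℝ} (hm : m ∈ Set.Icc (0:ℝ) 1) (hz : z ∈ Set.Icc (0:ℝ) 1) :
    zf m (hf m z) = z :=
  hf_injOn hm (zf_mem hm (hf_mem hm hz)) hz (hf_zf hm (hf_mem hm hz))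

theorem hf_image {m : ℝ} (hm : m ∈ Set.Icc (0:ℝ) 1) : hf m '' Set.Icc 0 1 = Set.Icc 0 1 := by
  ext u
  constructor
  · rintro ⟨z, hz, rfl⟩
    exact hf_mem hm hz
  · intro hu
    exact ⟨zf m u, zf_mem hm hu, hf_zf hm hu⟩

/-- law of the update -/
theorem integral_yf' {m : ℝ} (hm : m ∈ Set.Icc (0:ℝ) 1) (g : ℝ → ℝ) :
    ∫ u : unitInterval, g (yf m u) =
      ∫ u : unitInterval, g (log (1 / 2 + (u : ℝ))) * (1 - m + m * (1 / 2 + (u : ℝ))) := by
  have e1 := integral_unitInterval (fun u => g (yf m u))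
  have e2 := integral_unitInterval
    (fun u => g (log (1 / 2 + u)) * (1 - m + m * (1 / 2 + u)))
  rw [e1, e2]
  have h := integral_image_eq_integral_abs_deriv_smul (s := Set.Icc (0:ℝ) 1) (f := hf m)
    (f' := fun z => 1 - m + m * (1 / 2 + z)) measurableSet_Icc ?_ (hf_injOn hm)
    (fun u => g (yf m u))
  · rw [hf_image hm] at h
    rw [h]
    apply setIntegral_congr_fun measurableSet_Icc
    intro z hz
    have hpos : 0 < 1 - m + m * (1 / 2 + z) := by
      have := hf_factor hm hz hz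
      nlinarith
    simp only [smul_eq_mul]
    rw [abs_of_pos hpos, mul_comm]
    unfold yf
    rw [zf_hf hm hz]
  · intro z _
    apply HasDerivAt.hasDerivWithinAt
    have h1 : HasDerivAt (fun z : ℝ => z - (m / 2) * z * (1 - z))
        (1 - ((m / 2 * 1) * (1 - z) + (m / 2) * z * (0 - 1))) z := by
      apply HasDerivAt.sub (hasDerivAt_id z)
      apply HasDerivAt.mul
      · exact (hasDerivAt_id z).const_mul (m / 2)
      · exact (hasDerivAt_const z (1:ℝ)).sub (hasDerivAt_id z)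
    have h2 : (1 - ((m / 2 * 1) * (1 - z) + (m / 2) * z * (0 - 1))) =
        1 - m + m * (1 / 2 + z) := by ring
    rw [h2] at h1
    exact h1

theorem integral_yf {m : ℝ} (hm : m ∈ Set.Icc (0:ℝ) 1) {g : ℝ → ℝ} (_hg : Measurable g)
    {M : ℝ} (_hM : ∀ y, |g y| ≤ M) :
    ∫ u : unitInterval, g (yf m u) =
      ∫ u : unitInterval, g (log (1 / 2 + (u : ℝ))) * (1 - m + m * (1 / 2 + (u : ℝ))) :=
  integral_yf' hm g

theorem rho_nonneg : 0 ≤ rho := integral_nonneg fun _ => Real.sqrt_nonneg _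

theorem integral_id_half : ∫ u : unitInterval, (1 / 2 + (u : ℝ)) = 1 := by
  rw [integral_unitInterval (fun u => 1 / 2 + u), integral_Icc_eq_integral_Ioc,
    ← intervalIntegral.integral_of_le zero_le_one]
  rw [intervalIntegral.integral_add (by simp) (by simp)]
  simp
  norm_num

theorem rho_lt_one : rho < 1 := by
  have e1 : rho = ∫ u in (0:ℝ)..1, √(1 / 2 + u) := by
    unfold rho
    rw [integral_unitInterval (fun u => √(1 / 2 + u)), integral_Icc_eq_integral_Ioc,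
      ← intervalIntegral.integral_of_le zero_le_one]
  have e2 : ∫ u in (0:ℝ)..1, ((1 + (1 / 2 + u)) / 2 - (u - 1 / 2) ^ 2 / 16) < 1 := by
    have : (fun u : ℝ => (1 + (1 / 2 + u)) / 2 - (u - 1 / 2) ^ 2 / 16) =
        fun u : ℝ => (3 / 4 - 1 / 64) + (1 / 2 + 1 / 16) * u - 1 / 16 * u ^ 2 := by
      funext u; ring
    rw [this, intervalIntegral.integral_sub, intervalIntegral.integral_add,
      intervalIntegral.integral_const_mul, intervalIntegral.integral_const_mul]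
    · simp
      norm_num
    all_goals apply Continuous.intervalIntegrable; fun_prop
  rw [e1]
  refine lt_of_le_of_lt ?_ e2
  apply intervalIntegral.integral_mono_on zero_le_one
  · apply Continuous.intervalIntegrable; fun_prop
  · apply Continuous.intervalIntegrable; fun_prop
  · intro u hu
    have hs : 0 < 1 / 2 + u := by linarith [hu.1]
    set s := √(1 / 2 + u) with hsdef
    have hs2 : s ^ 2 = 1 / 2 + u := Real.sq_sqrt hs.le
    have hs0 : 0 ≤ s := Real.sqrt_nonneg _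
    have hu' : u = s ^ 2 - 1 / 2 := by linarith
    have hs3 : s ^ 2 ≤ 3 / 2 := by rw [hs2]; linarith [hu.2]
    have hs4 : s ≤ 3 / 2 := by nlinarith
    rw [hu']
    -- (1+s²)/2 - s - (s²-1)²/16 = (s-1)²/2 - (s-1)²(s+1)²/16 ≥ 0
    have : (1 + (1 / 2 + (s ^ 2 - 1 / 2))) / 2 - (s ^ 2 - 1 / 2 - 1 / 2) ^ 2 / 16 - s =
        (s - 1) ^ 2 * (8 - (s + 1) ^ 2) / 16 := by ring
    have h8 : 0 ≤ 8 - (s + 1) ^ 2 := by nlinarith
    have := mul_nonneg (sq_nonneg (s - 1)) h8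
    linarith

end P143
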