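import Vale.Agent.P143.Base
import Vale.Agent.P143.Energy
import Vale.Agent.P143.Zfun
import Vale.Agent.P143.Sampler

/-!
# P143 : exact law of the sampler in finite volume
-/

open MeasureTheory Filter Topology Real

namespace P143

namespace LawAux

/-! ### Resampling -/

section Resample

variable {ι : Type*}

/-- i.i.d. uniform labels -/
noncomputable abbrev mu1 (ι : Type*) : Measure (ι → unitInterval) :=
  Measure.infinitePi fun _ : ι => (volume : Measure unitInterval)

theorem mp_update [DecidableEq ι] (e : ι) : MeasurePreserving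
    (fun p : (ι → unitInterval) × unitInterval => Function.update p.1 e p.2)
    ((mu1 ι).prod volume) (mu1 ι) := by
  have hm : Measurable fun p : (ι → unitInterval) × unitInterval =>
      Function.update p.1 e p.2 := by
    refine measurable_pi_lambda _ fun i => ?_
    by_cases h : i = e
    · subst h
      simp only [Function.update_self]
      fun_prop
    · simp only [Function.update_of_ne h]
      fun_prop
  refine ⟨hm, Measure.eq_infinitePi _ fun s t ht => ?_⟩
  rw [Measure.map_apply hm (MeasurableSet.pi s.countable_toSet fun i _ => ht i)]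
  by_cases he : e ∈ s
  · have h : (fun p : (ι → unitInterval) × unitInterval => Function.update p.1 e p.2) ⁻¹'
        (Set.pi s t) = (Set.pi ((s.erase e : Finset ι) : Set ι) t) ×ˢ (t e) := by
      ext p
      simp only [Set.mem_preimage, Set.mem_pi, Set.mem_prod, Finset.mem_coe]
      constructor
      · intro hp
        refine ⟨fun i hi => ?_, ?_⟩
        · have h1 := hp i (Finset.mem_of_mem_erase hi)
          rwa [Function.update_of_ne (Finset.ne_of_mem_erase hi)] at h1
        · have h1 := hp e he
          rwa [Function.update_self] at h1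
      · rintro ⟨h1, h2⟩ i hi
        by_cases hie : i = e
        · subst hie
          rwa [Function.update_self]
        · rw [Function.update_of_ne hie]
          exact h1 i (Finset.mem_erase.2 ⟨hie, hi⟩)
    rw [h, Measure.prod_prod, mu1,
      Measure.infinitePi_pi (fun _ : ι => (volume : Measure unitInterval)) (fun i _ => ht i),
      mul_comm, Finset.mul_prod_erase s (fun i => (volume : Measure unitInterval) (t i)) he]
  · have h : (fun p : (ι → unitInterval) × unitInterval => Function.update p.1 e p.2) ⁻¹'
        (Set.pi s t) = (Set.pi (s : Set ι) t) ×ˢ (Set.univ : Set unitInterval) := by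
      ext p
      simp only [Set.mem_preimage, Set.mem_pi, Set.mem_prod, Finset.mem_coe, Set.mem_univ,
        and_true]
      refine forall₂_congr fun i hi => ?_
      rw [Function.update_of_ne (fun h : i = e => he (by rw [← h]; exact hi))]
    rw [h, Measure.prod_prod, mu1,
      Measure.infinitePi_pi (fun _ : ι => (volume : Measure unitInterval)) (fun i _ => ht i),
      measure_univ, mul_one]

theorem resample [DecidableEq ι] (e : ι) {F : (ι → unitInterval) → ℝ} (hF : Integrable F (mu1 ι)) :
    ∫ u, F u ∂(mu1 ι) = ∫ u, (∫ s : unitInterval, F (Function.update u e s)) ∂(mu1 ι) := by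
  have h1 : ∫ u, F u ∂(mu1 ι) =
      ∫ p : (ι → unitInterval) × unitInterval, F (Function.update p.1 e p.2)
        ∂((mu1 ι).prod volume) := by
    conv_lhs => rw [← (mp_update e).map_eq]
    rw [integral_map (mp_update e).measurable.aemeasurable]
    rw [(mp_update e).map_eq]
    exact hF.1
  have h2 : Integrable (fun p : (ι → unitInterval) × unitInterval =>
      F (Function.update p.1 e p.2)) ((mu1 ι).prod volume) :=
    (mp_update e).integrable_comp_of_integrable hF
  rw [h1, integral_prod _ h2]

open Classical in
/-- replace the column `K` of `u` by that of `u'` -/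
noncomputable def glue (K : ℕ) (u u' : ι → ℕ → unitInterval) : ι → ℕ → unitInterval :=
  fun e k => if k = K then u' e k else u e k

/-- i.i.d. uniform array -/
noncomputable abbrev mu2 (ι : Type*) : Measure (ι → ℕ → unitInterval) :=
  Measure.infinitePi (fun _ : ι => Measure.infinitePi
    (fun _ : ℕ => (volume : Measure unitInterval)))

theorem measurable_glue (K : ℕ) : Measurable
    fun p : (ι → ℕ → unitInterval) × (ι → ℕ → unitInterval) => glue K p.1 p.2 := by
  refine measurable_pi_lambda _ fun e => measurable_pi_lambda _ fun k => ?_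
  unfold glue
  by_cases h : k = K
  · simp only [h, if_true]
    fun_prop
  · simp only [h, if_false]
    fun_prop

theorem mp_glue (K : ℕ) : MeasurePreserving
    (fun p : (ι → ℕ → unitInterval) × (ι → ℕ → unitInterval) => glue K p.1 p.2)
    ((mu2 ι).prod (mu2 ι)) (mu2 ι) := by
  classical
  -- the flat product
  let P : Measure (ι × ℕ → unitInterval) :=
    Measure.infinitePi fun _ : ι × ℕ => (volume : Measure unitInterval)
  have hcurry : P.map (MeasurableEquiv.curry ι ℕ unitInterval) = mu2 ι :=
    Measure.infinitePi_map_curry (fun (_ : ι) (_ : ℕ) => (volume : Measure unitInterval))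
  let gl : (ι × ℕ → unitInterval) × (ι × ℕ → unitInterval) → ι × ℕ → unitInterval :=
    fun p q => if q.2 = K then p.2 q else p.1 q
  have hglm : Measurable gl := by
    refine measurable_pi_lambda _ fun q => ?_
    by_cases h : q.2 = K
    · simp only [gl, h, if_true]
      fun_prop
    · simp only [gl, h, if_false]
      fun_prop
  have hgl : MeasurePreserving gl (P.prod P) P := by
    refine ⟨hglm, Measure.eq_infinitePi _ fun s t ht => ?_⟩
    rw [Measure.map_apply hglm (MeasurableSet.pi s.countable_toSet fun i _ => ht i)]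
    have h : gl ⁻¹' (Set.pi s t) =
        (Set.pi ((s.filter fun q => ¬ q.2 = K : Finset (ι × ℕ)) : Set (ι × ℕ)) t) ×ˢ
          (Set.pi ((s.filter fun q => q.2 = K : Finset (ι × ℕ)) : Set (ι × ℕ)) t) := by
      ext p
      simp only [Set.mem_preimage, Set.mem_pi, Set.mem_prod, Finset.mem_coe, Finset.mem_filter]
      constructor
      · intro hp
        refine ⟨fun q hq => ?_, fun q hq => ?_⟩
        · have h1 := hp q hq.1
          simpa only [gl, hq.2, if_false] using h1
        · have h1 := hp q hq.1
          simpa only [gl, hq.2, if_true] using h1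
      · rintro ⟨h1, h2⟩ q hq
        by_cases hK : q.2 = K
        · simpa only [gl, hK, if_true] using h2 q ⟨hq, hK⟩
        · simpa only [gl, hK, if_false] using h1 q ⟨hq, hK⟩
    rw [h, Measure.prod_prod, Measure.infinitePi_pi _ (fun i _ => ht i),
      Measure.infinitePi_pi _ (fun i _ => ht i), mul_comm, Finset.prod_filter_mul_prod_filter_not]
  have hc : MeasurePreserving (MeasurableEquiv.curry ι ℕ unitInterval) P (mu2 ι) :=
    ⟨(MeasurableEquiv.curry ι ℕ unitInterval).measurable, hcurry⟩
  have h1 : MeasurePreserving (fun p => glue K (MeasurableEquiv.curry ι ℕ unitInterval p.1)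
      (MeasurableEquiv.curry ι ℕ unitInterval p.2)) (P.prod P) (mu2 ι) := hc.comp hgl
  refine ⟨measurable_glue K, ?_⟩
  rw [← (hc.prod hc).map_eq, Measure.map_map (measurable_glue K) (hc.prod hc).measurable]
  exact h1.map_eq

theorem map_col (K : ℕ) : (mu2 ι).map (fun u e => u e K) = mu1 ι := by
  have h := Measure.infinitePi_map_pi (fun _ : ι => Measure.infinitePi
    (fun _ : ℕ => (volume : Measure unitInterval))) (f := fun _ w => w K)
    (fun _ => measurable_pi_apply K)
  rw [mu2, h]
  congr 1
  ext1 e
  exact (measurePreserving_eval_infinitePi (fun _ : ℕ => (volume : Measure unitInterval)) K).map_eq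

theorem resample_col (K : ℕ) {F : (ι → ℕ → unitInterval) → ℝ} (hF : Integrable F (mu2 ι)) :
    ∫ u, F u ∂(mu2 ι) = ∫ u, ∫ u', F (glue K u u') ∂(mu2 ι) ∂(mu2 ι) := by
  have h1 : ∫ u, F u ∂(mu2 ι) = ∫ p, F (glue K p.1 p.2) ∂((mu2 ι).prod (mu2 ι)) := by
    conv_lhs => rw [← (mp_glue (ι := ι) K).map_eq]
    rw [integral_map (measurable_glue K).aemeasurable]
    rw [(mp_glue K).map_eq]
    exact hF.1
  have h2 : Integrable (fun p : (ι → ℕ → unitInterval) × (ι → ℕ → unitInterval) =>
      F (glue K p.1 p.2)) ((mu2 ι).prod (mu2 ι)) := (mp_glue K).integrable_comp_of_integrable hF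
  rw [h1, integral_prod _ h2]

theorem integral_col (K : ℕ) {F : (ι → unitInterval) → ℝ} (hF : Measurable F) :
    ∫ u, F (fun e => u e K) ∂(mu2 ι) = ∫ v, F v ∂(mu1 ι) := by
  have hm : Measurable fun (u : ι → ℕ → unitInterval) (e : ι) => u e K :=
    measurable_pi_lambda _ fun e => (measurable_pi_apply K).comp (measurable_pi_apply e)
  rw [← map_col K, integral_map hm.aemeasurable hF.aestronglyMeasurable]

theorem integrable_of_bdd {α : Type*} [MeasurableSpace α] {μ : Measure α} [IsFiniteMeasure μ]
    {F : α → ℝ} (hF : Measurable F) {C : ℝ} (hC : ∀ x, |F x| ≤ C) : Integrable F μ :=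
  Integrable.of_bound hF.aestronglyMeasurable C (Eventually.of_forall hC)

end Resample

variable {V : Type*}

/-! ### Partition functions -/

theorem measurable_wt (B : Finset (Sym2 V)) : Measurable fun x => wt x B := by
  unfold wt
  fun_prop

theorem measurable_ZZ (S : Finset (Sym2 V)) : Measurable (ZZ S) := by
  have h : ZZ S = fun x => ∑ B ∈ bases S, wt x B := rfl
  rw [h]
  exact Finset.measurable_sum _ fun B _ => measurable_wt B

theorem measurable_mm (S : Finset (Sym2 V)) (e : Sym2 V) : Measurable fun x => mm S x e := by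
  unfold mm
  exact (Finset.measurable_sum _ fun B _ => measurable_wt B).div (measurable_ZZ S)

theorem wt_pos (x : Sym2 V → ℝ) (B : Finset (Sym2 V)) : 0 < wt x B := exp_pos _

theorem ZZ_pos {S : Finset (Sym2 V)} (hS : Loopless (S : Set (Sym2 V))) (x : Sym2 V → ℝ) :
    0 < ZZ S x :=
  Finset.sum_pos (fun B _ => wt_pos x B) (P143.bases_nonempty hS)

theorem ZZ_mono {S : Finset (Sym2 V)} {x y : Sym2 V → ℝ} (h : ∀ f, x f ≤ y f) :
    ZZ S x ≤ ZZ S y :=
  Finset.sum_le_sum fun B _ => exp_le_exp.2 (Finset.sum_le_sum fun f _ => h f)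

open Classical in
theorem wt_add_single (x : Sym2 V → ℝ) (e : Sym2 V) (l : ℝ) (B : Finset (Sym2 V)) :
    wt (x + Pi.single e l) B = wt x B * (if e ∈ B then exp l else 1) := by
  unfold wt
  have h : ∑ f ∈ B, (x + Pi.single e l : Sym2 V → ℝ) f =
      ∑ f ∈ B, x f + if e ∈ B then l else 0 := by
    simp only [Pi.add_apply, Finset.sum_add_distrib]
    congr 1
    simp only [Pi.single_apply]
    rw [Finset.sum_ite_eq' B e (fun _ => l)]
  rw [h, exp_add]
  split_ifs <;> simp

open Classical in
theorem ZZ_add_single {S : Finset (Sym2 V)} (hS : Loopless (S : Set (Sym2 V))) (x : Sym2 V → ℝ)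
    (e : Sym2 V) (l : ℝ) :
    ZZ S (x + Pi.single e l) / ZZ S x = 1 - mm S x e + mm S x e * exp l := by
  have hZ := ZZ_pos hS x
  have h1 : ZZ S (x + Pi.single e l) =
      ZZ S x - (∑ B ∈ (bases S).filter (fun B => e ∈ B), wt x B) +
        (∑ B ∈ (bases S).filter (fun B => e ∈ B), wt x B) * exp l := by
    have h2 : ZZ S x = ∑ B ∈ (bases S).filter (fun B => e ∈ B), wt x B +
        ∑ B ∈ (bases S).filter (fun B => ¬ e ∈ B), wt x B :=
      (Finset.sum_filter_add_sum_filter_not _ _ _).symm
    have h3 : ZZ S (x + Pi.single e l) =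
        ∑ B ∈ (bases S).filter (fun B => e ∈ B), wt (x + Pi.single e l) B +
        ∑ B ∈ (bases S).filter (fun B => ¬ e ∈ B), wt (x + Pi.single e l) B :=
      (Finset.sum_filter_add_sum_filter_not _ _ _).symm
    have h4 : ∑ B ∈ (bases S).filter (fun B => e ∈ B), wt (x + Pi.single e l) B =
        (∑ B ∈ (bases S).filter (fun B => e ∈ B), wt x B) * exp l := by
      rw [Finset.sum_mul]
      refine Finset.sum_congr rfl fun B hB => ?_
      rw [wt_add_single, if_pos (Finset.mem_filter.1 hB).2]
    have h5 : ∑ B ∈ (bases S).filter (fun B => ¬ e ∈ B), wt (x + Pi.single e l) B =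
        ∑ B ∈ (bases S).filter (fun B => ¬ e ∈ B), wt x B := by
      refine Finset.sum_congr rfl fun B hB => ?_
      rw [wt_add_single, if_neg (Finset.mem_filter.1 hB).2, mul_one]
    rw [h3, h4, h5, h2]
    ring
  rw [h1, mm]
  field_simp

/-! ### One stage -/

open Classical in
/-- `y` is the increment produced by updating the edges of `R` -/
structure IsStage (S : Finset (Sym2 V)) (x t : Sym2 V → ℝ) (R : Finset (Sym2 V))
    (y : (Sym2 V → unitInterval) → Sym2 V → ℝ) : Prop where
  off : ∀ u, ∀ e ∉ R, y u e = 0
  eq : ∀ u, ∀ e ∈ R, y u e =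
    yf (mm S (fun f => x f + if t f < t e then y u f else 0) e) (u e)
  meas : Measurable y

open Classical in
theorem IsStage.congr {S : Finset (Sym2 V)} {x t : Sym2 V → ℝ} {R : Finset (Sym2 V)}
    {y : (Sym2 V → unitInterval) → Sym2 V → ℝ} (h : IsStage S x t R y)
    {u u' : Sym2 V → unitInterval} (huu : ∀ e ∈ R, u e = u' e) : y u = y u' := by
  have key : ∀ n : ℕ, ∀ e ∈ R, (R.filter fun f => t f < t e).card ≤ n → y u e = y u' e := by
    intro n
    induction n using Nat.strong_induction_on with
    | _ n ih =>
      intro e he hn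
      rw [h.eq u e he, h.eq u' e he, huu e he]
      congr 2
      ext f
      by_cases hf : t f < t e
      · rw [if_pos hf, if_pos hf]
        by_cases hfR : f ∈ R
        · have hlt : (R.filter fun g => t g < t f).card < (R.filter fun g => t g < t e).card := by
            refine Finset.card_lt_card ⟨fun g hg => ?_, fun hsub => ?_⟩
            · rw [Finset.mem_filter] at hg ⊢
              exact ⟨hg.1, hg.2.trans hf⟩
            · have := hsub (Finset.mem_filter.2 ⟨hfR, hf⟩)
              exact lt_irrefl _ (Finset.mem_filter.1 this).2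
          rw [ih _ (lt_of_lt_of_le hlt hn) f hfR le_rfl]
        · rw [h.off u f hfR, h.off u' f hfR]
      · rw [if_neg hf, if_neg hf]
  ext e
  by_cases he : e ∈ R
  · exact key _ e he le_rfl
  · rw [h.off u e he, h.off u' e he]

open Classical in
/-- null increments on `R` -/
noncomputable def LR (R : Finset (Sym2 V)) (ζ : Sym2 V → unitInterval) : Sym2 V → ℝ :=
  fun e => if e ∈ R then log (1 / 2 + (ζ e : ℝ)) else 0

theorem log_le_one (s : unitInterval) : log (1 / 2 + (s : ℝ)) ≤ 1 := by
  have h0 : (0 : ℝ) ≤ s := s.2.1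
  have h1 : (s : ℝ) ≤ 1 := s.2.2
  have h2 := log_le_sub_one_of_pos (show (0 : ℝ) < 1 / 2 + (s : ℝ) by linarith)
  linarith

theorem measurable_log_half : Measurable fun s : unitInterval => log (1 / 2 + (s : ℝ)) := by
  fun_prop

theorem measurable_LR (R : Finset (Sym2 V)) : Measurable (LR R) := by
  refine measurable_pi_lambda _ fun e => ?_
  unfold LR
  by_cases he : e ∈ R
  · simp only [he, if_true]
    exact measurable_log_half.comp (measurable_pi_apply e)
  · simp only [he, if_false]
    fun_prop

theorem LR_le_one (R : Finset (Sym2 V)) (ζ : Sym2 V → unitInterval) (e : Sym2 V) :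
    LR R ζ e ≤ 1 := by
  unfold LR
  split_ifs
  · exact log_le_one _
  · exact zero_le_one

open Classical in
theorem LR_update {R : Finset (Sym2 V)} {e : Sym2 V} (he : e ∈ R) (ζ : Sym2 V → unitInterval)
    (s : unitInterval) : LR R (Function.update ζ e s) =
      LR (R.erase e) ζ + Pi.single e (log (1 / 2 + (s : ℝ))) := by
  ext f
  simp only [LR, Pi.add_apply, Pi.single_apply, Finset.mem_erase]
  by_cases hf : f = e
  · subst hf
    simp [he]
  · simp [hf]

theorem integrable_weight {S : Finset (Sym2 V)} (hS : Loopless (S : Set (Sym2 V)))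
    (x : Sym2 V → ℝ) (R : Finset (Sym2 V)) {φ : (Sym2 V → ℝ) → ℝ} (hφ : Measurable φ)
    {M : ℝ} (hM : ∀ x, |φ x| ≤ M) :
    Integrable (fun ζ => φ (x + LR R ζ) * (ZZ S (x + LR R ζ) / ZZ S x)) (mu1 (Sym2 V)) := by
  have hmeas : Measurable fun ζ : Sym2 V → unitInterval => x + LR R ζ :=
    measurable_const.add (measurable_LR R)
  refine integrable_of_bdd ((hφ.comp hmeas).mul
    (((measurable_ZZ S).comp hmeas).div_const _)) (C := M * (ZZ S (x + 1) / ZZ S x)) fun ζ => ?_
  have hZ := ZZ_pos hS x
  have h1 : ZZ S (x + LR R ζ) ≤ ZZ S (x + 1) := ZZ_mono fun f => by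
    simp only [Pi.add_apply, Pi.one_apply]
    have := LR_le_one R ζ f
    linarith
  have h2 := ZZ_pos hS (x + LR R ζ)
  rw [abs_mul, abs_of_nonneg (div_nonneg h2.le hZ.le)]
  exact mul_le_mul (hM _) (div_le_div_of_nonneg_right h1 hZ.le) (div_nonneg h2.le hZ.le)
    ((abs_nonneg _).trans (hM 0))

open Classical in
theorem one_stage {S : Finset (Sym2 V)} (hS : Loopless (S : Set (Sym2 V)))
    {t : Sym2 V → ℝ} (ht : Set.InjOn t S) (x : Sym2 V → ℝ) (n : ℕ) :
    ∀ R ⊆ S, R.card = n → ∀ y, IsStage S x t R y → ∀ {φ : (Sym2 V → ℝ) → ℝ}, Measurable φ →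
      ∀ {M : ℝ}, (∀ x, |φ x| ≤ M) →
      ∫ u, φ (x + y u) ∂(mu1 (Sym2 V)) =
        ∫ ζ, φ (x + LR R ζ) * (ZZ S (x + LR R ζ) / ZZ S x) ∂(mu1 (Sym2 V)) := by
  induction n with
  | zero =>
    intro R _ hR y hy φ hφ M hM
    rw [Finset.card_eq_zero] at hR
    subst hR
    have h1 : ∀ u, y u = 0 := fun u => funext fun e => hy.off u e (by simp)
    have h2 : ∀ ζ : Sym2 V → unitInterval, LR (∅ : Finset (Sym2 V)) ζ = 0 := fun ζ =>
      funext fun e => by simp [LR]
    simp only [h1, h2, add_zero, div_self (ZZ_pos hS x).ne', mul_one]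
  | succ n ih =>
    intro R hRS hR y hy φ hφ M hM
    have hne : R.Nonempty := by
      rw [← Finset.card_pos, hR]
      omega
    obtain ⟨e, he, hmax⟩ := Finset.exists_max_image R t hne
    have hlt : ∀ f ∈ R, f ≠ e → t f < t e := fun f hf hfe =>
      lt_of_le_of_ne (hmax f hf) fun h => hfe (ht (hRS hf) (hRS he) h)
    -- the increments without `e`
    let y' : (Sym2 V → unitInterval) → Sym2 V → ℝ := fun u => Function.update (y u) e 0
    have hy' : IsStage S x t (R.erase e) y' := by
      refine ⟨fun u f hf => ?_, fun u f hf => ?_, ?_⟩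
      · by_cases hfe : f = e
        · subst hfe
          simp [y']
        · simp only [y', Function.update_of_ne hfe]
          exact hy.off u f fun h => hf (Finset.mem_erase.2 ⟨hfe, h⟩)
      · obtain ⟨hfe, hfR⟩ := Finset.mem_erase.1 hf
        simp only [y', Function.update_of_ne hfe]
        rw [hy.eq u f hfR]
        congr 2
        ext g
        by_cases hg : t g < t f
        · rw [if_pos hg, if_pos hg]
          have hge : g ≠ e := fun h => by
            subst h
            exact absurd hg (not_lt.2 (hmax f hfR))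
          rw [Function.update_of_ne hge]
        · rw [if_neg hg, if_neg hg]
      · refine measurable_pi_lambda _ fun f => ?_
        by_cases hfe : f = e
        · subst hfe
          simp only [y', Function.update_self]
          fun_prop
        · simp only [y', Function.update_of_ne hfe]
          exact (measurable_pi_apply f).comp hy.meas
    have hye : ∀ u, x + y u = (x + y' u) +
        Pi.single e (yf (mm S (x + y' u) e) (u e)) := by
      intro u
      have h1 : y u = y' u + Pi.single e (y u e) := by
        ext f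
        by_cases hfe : f = e
        · subst hfe
          simp [y']
        · simp [y', hfe]
      have h2 : y u e = yf (mm S (x + y' u) e) (u e) := by
        rw [hy.eq u e he]
        congr 2
        ext f
        simp only [Pi.add_apply]
        congr 1
        by_cases hfe : f = e
        · subst hfe
          simp [y']
        · simp only [y', Function.update_of_ne hfe]
          by_cases hfR : f ∈ R
          · rw [if_pos (hlt f hfR hfe)]
          · rw [hy.off u f hfR, ite_self]
      rw [← h2, add_assoc, ← h1]
    have hsame : ∀ u s, y' (Function.update u e s) = y' u := fun u s =>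
      hy'.congr fun f hf => Function.update_of_ne (Finset.ne_of_mem_erase hf) _ _
    -- the new test function
    let φ' : (Sym2 V → ℝ) → ℝ := fun z =>
      ∫ s : unitInterval, φ (z + Pi.single e (yf (mm S z e) s))
    have hjoint : Measurable fun p : (Sym2 V → ℝ) × unitInterval =>
        φ (p.1 + Pi.single e (yf (mm S p.1 e) p.2)) := by
      refine hφ.comp (measurable_pi_lambda _ fun f => ?_)
      have h1 : Measurable fun p : (Sym2 V → ℝ) × unitInterval => yf (mm S p.1 e) p.2 :=
        P143.measurable_yf.comp (((measurable_mm S e).comp measurable_fst).prodMk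
          (measurable_subtype_coe.comp measurable_snd))
      by_cases hfe : f = e
      · subst hfe
        simp only [Pi.add_apply, Pi.single_eq_same]
        fun_prop
      · simp only [Pi.add_apply, Pi.single_eq_of_ne hfe]
        fun_prop
    have hj2 : StronglyMeasurable (Function.uncurry fun (z : Sym2 V → ℝ) (s : unitInterval) =>
        φ (z + Pi.single e (yf (mm S z e) (s : ℝ)))) := hjoint.stronglyMeasurable
    have hφ'm : Measurable φ' := hj2.integral_prod_right.measurable
    have hφ'M : ∀ z, |φ' z| ≤ M := fun z => by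
      have h1 := norm_integral_le_of_norm_le_const (μ := (volume : Measure unitInterval))
        (f := fun s : unitInterval => φ (z + Pi.single e (yf (mm S z e) s)))
        (Eventually.of_forall fun s => hM _)
      simpa using h1
    have hφ'eq : ∀ z, φ' z = ∫ s : unitInterval, φ (z + Pi.single e (log (1 / 2 + (s : ℝ)))) *
        (ZZ S (z + Pi.single e (log (1 / 2 + (s : ℝ)))) / ZZ S z) := by
      intro z
      have hg : Measurable fun l : ℝ => φ (z + Pi.single e l) := by
        refine hφ.comp (measurable_pi_lambda _ fun f => ?_)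
        by_cases hfe : f = e
        · subst hfe
          simp only [Pi.add_apply, Pi.single_eq_same]
          fun_prop
        · simp only [Pi.add_apply, Pi.single_eq_of_ne hfe]
          fun_prop
      have h1 := P143.integral_yf (m := mm S z e) ⟨P143.mm_nonneg S z e, P143.mm_le_one S z e⟩
        hg (M := M) (fun l => hM _)
      refine h1.trans (integral_congr_ae (Eventually.of_forall fun s => ?_))
      simp only
      have hs : (0 : ℝ) < 1 / 2 + (s : ℝ) := by
        have h0 : (0 : ℝ) ≤ s := s.2.1
        linarith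
      rw [ZZ_add_single hS, exp_log hs]
    -- left side
    have hL : ∫ u, φ (x + y u) ∂(mu1 (Sym2 V)) = ∫ u, φ' (x + y' u) ∂(mu1 (Sym2 V)) := by
      have hi : Integrable (fun u => φ (x + y u)) (mu1 (Sym2 V)) :=
        integrable_of_bdd (hφ.comp (measurable_const.add hy.meas)) fun u => hM _
      rw [resample e hi]
      refine integral_congr_ae (Eventually.of_forall fun u => ?_)
      simp only [hye, hsame, Function.update_self, φ']
    rw [hL, ih (R.erase e) ((Finset.erase_subset _ _).trans hRS)
      (by rw [Finset.card_erase_of_mem he, hR]; rfl) y' hy' hφ'm hφ'M,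
      resample e (integrable_weight hS x R hφ hM)]
    refine integral_congr_ae (Eventually.of_forall fun ζ => ?_)
    simp only
    rw [hφ'eq, ← integral_mul_const]
    refine integral_congr_ae (Eventually.of_forall fun s => ?_)
    simp only
    rw [LR_update he, ← add_assoc, mul_assoc]
    congr 1
    rw [div_mul_div_cancel₀ (ZZ_pos hS _).ne']

/-! ### All stages -/

theorem XX_depends {S : Finset (Sym2 V)} {t : Sym2 V → ℝ} {u u' : Sym2 V → ℕ → unitInterval}
    (K : ℕ) (h : ∀ e, ∀ k < K, u e k = u' e k) : XX S t u K = XX S t u' K := by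
  induction K with
  | zero => rfl
  | succ K ih =>
    have h1 := ih fun e k hk => h e k (by omega)
    simp only [XX, h1]
    congr 2
    ext e
    rw [h e K (by omega)]

theorem NN_succ (S : Finset (Sym2 V)) (ζ : Sym2 V → ℕ → unitInterval) (K : ℕ) :
    NN S ζ (K + 1) = NN S ζ K + LR S (fun e => ζ e K) := by
  ext e
  simp only [NN, LR, Pi.add_apply, Finset.sum_range_succ]
  split_ifs <;> simp

theorem NN_depends {S : Finset (Sym2 V)} {ζ ζ' : Sym2 V → ℕ → unitInterval}
    (K : ℕ) (h : ∀ e, ∀ k < K, ζ e k = ζ' e k) : NN S ζ K = NN S ζ' K := by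
  ext e
  simp only [NN]
  split_ifs
  · exact Finset.sum_congr rfl fun k hk => by rw [h e k (Finset.mem_range.1 hk)]
  · rfl

theorem measurable_NN (S : Finset (Sym2 V)) (K : ℕ) : Measurable fun ζ => NN S ζ K := by
  refine measurable_pi_lambda _ fun e => ?_
  simp only [NN]
  by_cases he : e ∈ S
  · simp only [he, if_true]
    refine Finset.measurable_sum _ fun k _ => ?_
    exact measurable_log_half.comp ((measurable_pi_apply k).comp (measurable_pi_apply e))
  · simp only [he, if_false]
    fun_prop

theorem NN_le (S : Finset (Sym2 V)) (ζ : Sym2 V → ℕ → unitInterval) (K : ℕ) (e : Sym2 V) :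
    NN S ζ K e ≤ K := by
  simp only [NN]
  split_ifs
  · calc ∑ k ∈ Finset.range K, log (1 / 2 + (ζ e k : ℝ)) ≤ ∑ _k ∈ Finset.range K, (1 : ℝ) :=
        Finset.sum_le_sum fun k _ => log_le_one _
      _ = K := by simp
  · exact Nat.cast_nonneg K

theorem integrable_weight_NN {S : Finset (Sym2 V)} (hS : Loopless (S : Set (Sym2 V)))
    (K : ℕ) {φ : (Sym2 V → ℝ) → ℝ} (hφ : Measurable φ) {M : ℝ} (hM : ∀ x, |φ x| ≤ M) :
    Integrable (fun ζ => φ (NN S ζ K) * (ZZ S (NN S ζ K) / ZZ S 0)) (mu2 (Sym2 V)) := by
  refine integrable_of_bdd ((hφ.comp (measurable_NN S K)).mul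
    (((measurable_ZZ S).comp (measurable_NN S K)).div_const _))
    (C := M * (ZZ S (fun _ => K) / ZZ S 0)) fun ζ => ?_
  have hZ := ZZ_pos hS 0
  have h1 : ZZ S (NN S ζ K) ≤ ZZ S (fun _ => (K : ℝ)) := ZZ_mono fun f => NN_le S ζ K f
  have h2 := ZZ_pos hS (NN S ζ K)
  rw [abs_mul, abs_of_nonneg (div_nonneg h2.le hZ.le)]
  exact mul_le_mul (hM _) (div_le_div_of_nonneg_right h1 hZ.le) (div_nonneg h2.le hZ.le)
    ((abs_nonneg _).trans (hM 0))

end LawAux

variable {V : Type*}

open LawAux in
theorem law_XX [Countable V] {S : Finset (Sym2 V)} (hS : Loopless (S : Set (Sym2 V)))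
    {t : Sym2 V → ℝ} (ht : Set.InjOn t S) (K : ℕ) {φ : (Sym2 V → ℝ) → ℝ} (hφ : Measurable φ)
    {M : ℝ} (hM : ∀ x, |φ x| ≤ M) :
    ∫ u, φ (XX S t u K) ∂UU V =
      ∫ ζ, φ (NN S ζ K) * (ZZ S (NN S ζ K) / ZZ S 0) ∂UU V := by
  have hUU : UU V = mu2 (Sym2 V) := rfl
  rw [hUU]
  induction K generalizing φ with
  | zero =>
    have h1 : ∀ ζ : Sym2 V → ℕ → unitInterval, NN S ζ 0 = 0 := fun ζ => by
      ext e
      simp [NN]
    simp only [XX, h1, div_self (ZZ_pos hS 0).ne', mul_one]
  | succ K ih =>
    -- measurability of one stage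
    have hst : Measurable fun p : (Sym2 V → ℝ) × (Sym2 V → unitInterval) =>
        stage S p.1 t p.2 := by
      refine measurable_pi_lambda _ fun e => ?_
      exact (P143.measurable_stage S e).comp
        (measurable_fst.prodMk (measurable_const.prodMk measurable_snd))
    have hXX : Measurable fun u => XX S t u K := by
      refine measurable_pi_lambda _ fun e => ?_
      exact (P143.measurable_XX S K e).comp (measurable_const.prodMk measurable_id)
    have hXX' : Measurable fun u => XX S t u (K + 1) := by
      refine measurable_pi_lambda _ fun e => ?_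
      exact (P143.measurable_XX S (K + 1) e).comp (measurable_const.prodMk measurable_id)
    have hstage : ∀ x, IsStage S x t S (fun v => stage S x t v) := fun x =>
      ⟨fun u e he => P143.stage_off he, fun u e he => P143.stage_eq x t u he,
        hst.comp (measurable_const.prodMk measurable_id)⟩
    let φ' : (Sym2 V → ℝ) → ℝ := fun x => ∫ v, φ (x + stage S x t v) ∂(mu1 (Sym2 V))
    have hjoint : Measurable fun p : (Sym2 V → ℝ) × (Sym2 V → unitInterval) =>
        φ (p.1 + stage S p.1 t p.2) := hφ.comp (measurable_fst.add hst)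
    have hj2 : StronglyMeasurable (Function.uncurry
        fun (x : Sym2 V → ℝ) (v : Sym2 V → unitInterval) => φ (x + stage S x t v)) :=
      hjoint.stronglyMeasurable
    have hφ'm : Measurable φ' := hj2.integral_prod_right.measurable
    have hφ'M : ∀ z, |φ' z| ≤ M := fun z => by
      have h1 := norm_integral_le_of_norm_le_const (μ := mu1 (Sym2 V))
        (f := fun v => φ (z + stage S z t v)) (Eventually.of_forall fun s => hM _)
      simpa using h1
    have hL : ∫ u, φ (XX S t u (K + 1)) ∂(mu2 (Sym2 V)) =
        ∫ u, φ' (XX S t u K) ∂(mu2 (Sym2 V)) := by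
      have hi : Integrable (fun u => φ (XX S t u (K + 1))) (mu2 (Sym2 V)) :=
        integrable_of_bdd (hφ.comp hXX') fun u => hM _
      rw [resample_col K hi]
      refine integral_congr_ae (Eventually.of_forall fun u => ?_)
      simp only [φ']
      rw [← integral_col K (F := fun v => φ (XX S t u K + stage S (XX S t u K) t v))
        (hφ.comp (measurable_const.add (hst.comp (measurable_const.prodMk measurable_id))))]
      refine integral_congr_ae (Eventually.of_forall fun u' => ?_)
      have h1 : XX S t (glue K u u') K = XX S t u K := XX_depends K fun e k hk => by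
        simp only [glue]
        rw [if_neg (by omega)]
      simp only [XX, h1, glue, if_true]
    have hφ'eq : ∀ x, φ' x = ∫ ζ, φ (x + LR S ζ) * (ZZ S (x + LR S ζ) / ZZ S x)
        ∂(mu1 (Sym2 V)) := fun x =>
      one_stage hS ht x S.card S (subset_refl S) rfl _ (hstage x) hφ hM
    rw [hL, ih hφ'm hφ'M, resample_col K (integrable_weight_NN hS (K + 1) hφ hM)]
    refine integral_congr_ae (Eventually.of_forall fun ζ => ?_)
    simp only
    rw [hφ'eq, ← integral_mul_const]
    have hmeas : Measurable fun v : Sym2 V → unitInterval => NN S ζ K + LR S v :=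
      measurable_const.add (measurable_LR S)
    rw [← integral_col K (F := fun v => φ (NN S ζ K + LR S v) *
      (ZZ S (NN S ζ K + LR S v) / ZZ S (NN S ζ K)) * (ZZ S (NN S ζ K) / ZZ S 0))
      (((hφ.comp hmeas).mul (((measurable_ZZ S).comp hmeas).div_const _)).mul_const _)]
    refine integral_congr_ae (Eventually.of_forall fun ζ' => ?_)
    have h1 : NN S (glue K ζ ζ') (K + 1) = NN S ζ K + LR S (fun e => ζ' e K) := by
      rw [NN_succ, NN_depends (ζ' := ζ) K fun e k hk => by
        simp only [glue]
        rw [if_neg (by omega)]]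
      congr 2
      ext e
      simp [glue]
    simp only [h1]
    rw [mul_assoc, div_mul_div_cancel₀ (ZZ_pos hS _).ne']

end P143
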