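import Vale.Agent.P143.Path
import Vale.Agent.P143.Approx

/-!
# P143: the infinite volume limit of the sampler
-/

open MeasureTheory Filter Topology Real

namespace P143

variable {V : Type*}

theorem loopless_edgeSet (G : SimpleGraph V) : Loopless G.edgeSet := fun e he =>
  G.not_isDiag_of_mem_edgeSet he

/-! ### measurability -/

theorem measurable_edgeSet : Measurable fun G : SimpleGraph V => G.edgeSet :=
  SimpleGraph.measurable_edgeSet

theorem measurableSet_mem_edgeSet (e : Sym2 V) :
    MeasurableSet {G : SimpleGraph V | e ∈ G.edgeSet} :=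
  measurableSet_setOf.mpr ((measurable_set_mem e).comp measurable_edgeSet)

theorem measurableSet_cut_eq (Q S : Finset (Sym2 V)) :
    MeasurableSet {G : SimpleGraph V | cut G.edgeSet Q = S} := by
  classical
  have h : {G : SimpleGraph V | cut G.edgeSet Q = S} =
      {_G : SimpleGraph V | S ⊆ Q} ∩ ⋂ e ∈ Q, {G : SimpleGraph V | e ∈ G.edgeSet ↔ e ∈ S} := by
    ext G
    simp only [Set.mem_setOf_eq, Set.mem_inter_iff, Set.mem_iInter]
    constructor
    · rintro rfl
      exact ⟨fun e he => (mem_cut.mp he).1, fun e he =>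
        ⟨fun h => mem_cut.mpr ⟨he, h⟩, fun h => (mem_cut.mp h).2⟩⟩
    · rintro ⟨h1, h2⟩
      ext e
      rw [mem_cut]
      exact ⟨fun h => (h2 e h.1).mp h.2, fun h => ⟨h1 h, (h2 e (h1 h)).mpr h⟩⟩
  rw [h]
  refine (MeasurableSet.const _).inter ?_
  refine Finset.measurableSet_biInter _ fun e _ => ?_
  by_cases he : e ∈ S
  · simp only [he, iff_true]
    exact measurableSet_mem_edgeSet e
  · simp only [he, iff_false]
    exact (measurableSet_mem_edgeSet e).compl

theorem measurable_XX_cut (Q : Finset (Sym2 V)) (K : ℕ) (e : Sym2 V) :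
    Measurable (fun p : SimpleGraph V × (Sym2 V → ℝ) × (Sym2 V → ℕ → unitInterval) =>
      XX (cut p.1.edgeSet Q) p.2.1 p.2.2 K e) := by
  classical
  have h : (fun p : SimpleGraph V × (Sym2 V → ℝ) × (Sym2 V → ℕ → unitInterval) =>
      XX (cut p.1.edgeSet Q) p.2.1 p.2.2 K e) = fun p => ∑ S ∈ Q.powerset,
        if cut p.1.edgeSet Q = S then XX S p.2.1 p.2.2 K e else 0 := by
    ext p
    have hmem : cut p.1.edgeSet Q ∈ Q.powerset := by
      rw [Finset.mem_powerset]
      intro e he
      exact (mem_cut.mp he).1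
    rw [Finset.sum_ite_eq, if_pos hmem]
  rw [h]
  refine Finset.measurable_sum _ fun S _ => Measurable.ite ?_ ?_ measurable_const
  · exact measurable_fst (measurableSet_cut_eq Q S)
  · exact (measurable_XX S K e).comp measurable_snd

theorem measurable_XI [Countable V] (K : ℕ) (e : Sym2 V) :
    Measurable (fun p : SimpleGraph V × (Sym2 V → ℝ) × (Sym2 V → ℕ → unitInterval) =>
      XI p.1.edgeSet p.2.1 p.2.2 K e) := by
  refine measurable_of_tendsto_metrizable' (atTop : Filter (Finset (Sym2 V)))
    (fun Q => measurable_XX_cut Q K e) ?_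
  rw [tendsto_pi_nhds]
  intro p
  exact tendsto_XI (loopless_edgeSet p.1) p.2.1 p.2.2 K e

theorem measurable_TT [Countable V] :
    Measurable (fun p : SimpleGraph V × (Sym2 V → ℝ) × (Sym2 V → ℕ → unitInterval) =>
      TT p.1.edgeSet p.2.1 p.2.2) := by
  rw [measurable_set_iff]
  intro e
  refine measurableSet_setOf.mp ?_
  have h : {p : SimpleGraph V × (Sym2 V → ℝ) × (Sym2 V → ℕ → unitInterval) |
      e ∈ TT p.1.edgeSet p.2.1 p.2.2} =
      {p : SimpleGraph V × (Sym2 V → ℝ) × (Sym2 V → ℕ → unitInterval) | e ∈ p.1.edgeSet} ∩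
      ⋃ n : ℕ, ⋂ K : ℕ, {p | n ≤ K → 0 < XI p.1.edgeSet p.2.1 p.2.2 K e} := by
    ext p
    simp only [TT, Set.mem_setOf_eq, Set.mem_inter_iff, Set.mem_iUnion, Set.mem_iInter,
      eventually_atTop, ge_iff_le]
  rw [h]
  refine (measurable_fst (measurableSet_mem_edgeSet e)).inter ?_
  refine MeasurableSet.iUnion fun n => MeasurableSet.iInter fun K => ?_
  by_cases hn : n ≤ K
  · simp only [hn, forall_const]
    exact measurableSet_lt measurable_const (measurable_XI K e)
  · simp only [hn, false_imp_iff]
    exact MeasurableSet.univ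

/-! ### the sigmoid -/

theorem psi_pos (x : ℝ) : 0 < psi x := by
  unfold psi
  positivity

theorem psi_lt_one (x : ℝ) : psi x < 1 := by
  unfold psi
  rw [div_lt_one (by positivity)]
  linarith [exp_pos (-x)]

theorem continuous_psi : Continuous psi := by
  unfold psi
  refine continuous_const.div (by fun_prop) fun x => ?_
  positivity

/-- if `ψ(x) (1 - ψ(x)) < 2 / 9` then `|x| > log 2` -/
theorem abs_gt_of_psi {x : ℝ} (h : psi x * (1 - psi x) < 2 / 9) : log 2 < |x| := by
  by_contra hx
  rw [not_lt, abs_le] at hx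
  have h1 : 1 / 2 ≤ exp (-x) := by
    have h3 := Real.exp_le_exp.mpr (show -log 2 ≤ -x by linarith [hx.2])
    rw [Real.exp_neg, Real.exp_log (by norm_num)] at h3
    linarith
  have h2 : exp (-x) ≤ 2 := by
    have h3 := Real.exp_le_exp.mpr (show -x ≤ log 2 by linarith [hx.1])
    rwa [Real.exp_log (by norm_num)] at h3
  unfold psi at h
  have h4 : 0 < 1 + exp (-x) := by positivity
  have h5 : 1 / (1 + exp (-x)) * (1 - 1 / (1 + exp (-x))) = exp (-x) / (1 + exp (-x)) ^ 2 := by
    field_simp
    ring
  rw [h5, div_lt_iff₀ (by positivity)] at h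
  nlinarith

theorem psi_ge_half {x : ℝ} (h : 0 ≤ x) : 1 / 2 ≤ psi x := by
  unfold psi
  have : exp (-x) ≤ 1 := Real.exp_le_one_iff.mpr (by linarith)
  exact one_div_le_one_div_of_le (by positivity) (by linarith)

theorem psi_le_half {x : ℝ} (h : x ≤ 0) : psi x ≤ 1 / 2 := by
  unfold psi
  have : 1 ≤ exp (-x) := Real.one_le_exp (by linarith)
  exact one_div_le_one_div_of_le (by norm_num) (by linarith)

open Classical in
/-- a sequence with bounded increments whose sigmoid approaches `{0, 1}` -/
theorem psi_tendsto {x : ℕ → ℝ} (hx : ∀ K, |x (K + 1) - x K| ≤ log 2)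
    (h : Tendsto (fun K => psi (x K) * (1 - psi (x K))) atTop (𝓝 0)) :
    Tendsto (fun K => psi (x K)) atTop (𝓝 (if ∀ᶠ K in atTop, 0 < x K then 1 else 0)) := by
  have hl : 0 < log 2 := Real.log_pos (by norm_num)
  have h1 : ∀ᶠ K in atTop, psi (x K) * (1 - psi (x K)) < 2 / 9 :=
    h.eventually (gt_mem_nhds (by norm_num))
  obtain ⟨K0, hK0⟩ := eventually_atTop.mp h1
  have h2 : ∀ K ≥ K0, log 2 < |x K| := fun K hK => abs_gt_of_psi (hK0 K hK)
  rcases lt_or_ge 0 (x K0) with h0 | h0
  · have h3 : ∀ K ≥ K0, log 2 < x K := by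
      intro K hK
      induction K, hK using Nat.le_induction with
      | base =>
        have := h2 K0 le_rfl
        rwa [abs_of_pos h0] at this
      | succ K hK ih =>
        have h4 := (abs_le.mp (hx K)).1
        have h5 : 0 < x (K + 1) := by linarith
        have := h2 (K + 1) (by omega)
        rwa [abs_of_pos h5] at this
    have h4 : ∀ᶠ K in atTop, 0 < x K :=
      eventually_atTop.mpr ⟨K0, fun K hK => hl.trans (h3 K hK)⟩
    rw [if_pos h4]
    have h5 : Tendsto (fun K => 1 - 2 * (psi (x K) * (1 - psi (x K)))) atTop (𝓝 1) := by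
      have := (h.const_mul 2).const_sub 1
      rwa [mul_zero, sub_zero] at this
    refine tendsto_of_tendsto_of_tendsto_of_le_of_le' h5 tendsto_const_nhds ?_
      (Eventually.of_forall fun K => (psi_lt_one _).le)
    filter_upwards [h4] with K hK
    have h6 := psi_ge_half hK.le
    have h7 := psi_lt_one (x K)
    nlinarith
  · have h3 : ∀ K ≥ K0, x K < -log 2 := by
      intro K hK
      induction K, hK using Nat.le_induction with
      | base =>
        have := h2 K0 le_rfl
        rw [abs_of_nonpos h0] at this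
        linarith
      | succ K hK ih =>
        have h4 := (abs_le.mp (hx K)).2
        have h5 : x (K + 1) < 0 := by linarith
        have := h2 (K + 1) (by omega)
        rw [abs_of_neg h5] at this
        linarith
    have h4 : ¬ ∀ᶠ K in atTop, 0 < x K := by
      intro h4
      obtain ⟨K1, hK1⟩ := eventually_atTop.mp h4
      have h5 := hK1 (max K0 K1) (le_max_right _ _)
      have h6 := h3 (max K0 K1) (le_max_left _ _)
      linarith
    rw [if_neg h4]
    have h5 : Tendsto (fun K => 2 * (psi (x K) * (1 - psi (x K)))) atTop (𝓝 0) := by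
      have := h.const_mul 2
      rwa [mul_zero] at this
    refine tendsto_of_tendsto_of_tendsto_of_le_of_le' tendsto_const_nhds h5
      (Eventually.of_forall fun K => (psi_pos _).le) ?_
    filter_upwards [eventually_ge_atTop K0] with K hK
    have h6 := psi_le_half (show x K ≤ 0 by linarith [h3 K hK])
    have h7 := psi_pos (x K)
    nlinarith

/-! ### integrals in infinite volume -/

instance [Countable V] : IsProbabilityMeasure (UU V) := by
  unfold UU
  infer_instance

theorem gg_nonneg (F A : Finset (Sym2 V)) (x : Sym2 V → ℝ) : 0 ≤ gg F A x := by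
  classical
  refine Finset.prod_nonneg fun e _ => ?_
  split_ifs
  · exact (psi_pos _).le
  · linarith [psi_lt_one (x e)]

theorem gg_le_one (F A : Finset (Sym2 V)) (x : Sym2 V → ℝ) : gg F A x ≤ 1 := by
  classical
  refine Finset.prod_le_one (fun e _ => ?_) fun e _ => ?_
  · split_ifs
    · exact (psi_pos _).le
    · linarith [psi_lt_one (x e)]
  · split_ifs
    · exact (psi_lt_one _).le
    · linarith [psi_pos (x e)]

theorem continuous_gg (F A : Finset (Sym2 V)) : Continuous (gg F A) := by
  classical
  unfold gg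
  refine continuous_finset_prod _ fun e _ => ?_
  split_ifs
  · exact continuous_psi.comp (continuous_apply e)
  · exact continuous_const.sub (continuous_psi.comp (continuous_apply e))

theorem measurable_gg_comp (F A : Finset (Sym2 V)) {Ω : Type*} [MeasurableSpace Ω]
    {X : Ω → Sym2 V → ℝ} (hX : ∀ e, Measurable fun ω => X ω e) :
    Measurable fun ω => gg F A (X ω) := by
  classical
  unfold gg
  refine Finset.measurable_prod _ fun e _ => ?_
  split_ifs
  · exact continuous_psi.measurable.comp (hX e)
  · exact measurable_const.sub (continuous_psi.measurable.comp (hX e))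

theorem measurable_XX_u (S : Finset (Sym2 V)) (t : Sym2 V → ℝ) (K : ℕ) (e : Sym2 V) :
    Measurable fun u => XX S t u K e :=
  (measurable_XX S K e).comp (f := fun u : Sym2 V → ℕ → unitInterval => (t, u))
    (measurable_const.prodMk measurable_id)

section Fixed

variable [Countable V] (G : SimpleGraph V) (t : Sym2 V → ℝ)

theorem measurable_XI_u (K : ℕ) (e : Sym2 V) : Measurable fun u => XI G.edgeSet t u K e :=
  (measurable_XI K e).comp (f := fun u : Sym2 V → ℕ → unitInterval => (G, t, u))
    (measurable_const.prodMk (measurable_const.prodMk measurable_id))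

theorem measurable_TT_u : Measurable fun u => TT G.edgeSet t u :=
  measurable_TT.comp (f := fun u : Sym2 V → ℕ → unitInterval => (G, t, u))
    (measurable_const.prodMk (measurable_const.prodMk measurable_id))

theorem tendsto_integral_cut {g : (Sym2 V → ℝ) → ℝ} (hg : Continuous g)
    (hgm : ∀ X : (Sym2 V → ℕ → unitInterval) → Sym2 V → ℝ, (∀ e, Measurable fun u => X u e) →
      Measurable fun u => g (X u)) (hb : ∀ x, |g x| ≤ 1) (K : ℕ) :
    Tendsto (fun Q => ∫ u, g (XX (cut G.edgeSet Q) t u K) ∂UU V) atTop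
      (𝓝 (∫ u, g (XI G.edgeSet t u K) ∂UU V)) := by
  refine tendsto_integral_filter_of_dominated_convergence (fun _ => 1) ?_ ?_ ?_ ?_
  · exact Eventually.of_forall fun Q =>
      (hgm _ fun e => measurable_XX_u _ t K e).aestronglyMeasurable
  · exact Eventually.of_forall fun Q => Eventually.of_forall fun u => hb _
  · exact integrable_const _
  · refine Eventually.of_forall fun u => ?_
    refine (hg.tendsto _).comp ?_
    rw [tendsto_pi_nhds]
    intro e
    exact tendsto_XI (loopless_edgeSet G) t u K e

theorem abs_XI_succ_sub_le (u : Sym2 V → ℕ → unitInterval) (K : ℕ) (e : Sym2 V) :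
    |XI G.edgeSet t u (K + 1) e - XI G.edgeSet t u K e| ≤ log 2 := by
  have h1 := (tendsto_XI (loopless_edgeSet G) t u (K + 1) e).sub
    (tendsto_XI (loopless_edgeSet G) t u K e)
  refine le_of_tendsto h1.abs (Eventually.of_forall fun Q => ?_)
  have h2 : XX (cut G.edgeSet Q) t u (K + 1) e - XX (cut G.edgeSet Q) t u K e =
      stage (cut G.edgeSet Q) (XX (cut G.edgeSet Q) t u K) t (fun e => u e K) e := by
    rw [XX, Pi.add_apply]
    ring
  rw [h2]
  exact abs_stage_le _ _ _ _ _

theorem continuous_var (e : Sym2 V) :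
    Continuous fun x : Sym2 V → ℝ => psi (x e) * (1 - psi (x e)) :=
  (continuous_psi.comp (continuous_apply e)).mul
    (continuous_const.sub (continuous_psi.comp (continuous_apply e)))

theorem var_nonneg (x : ℝ) : 0 ≤ psi x * (1 - psi x) :=
  mul_nonneg (psi_pos x).le (by linarith [psi_lt_one x])

theorem var_le_one (x : ℝ) : psi x * (1 - psi x) ≤ 1 := by
  have h1 := psi_pos x
  have h2 := psi_lt_one x
  nlinarith

theorem integral_var_le {t : Sym2 V → ℝ} (ht : Set.InjOn t G.edgeSet) (K : ℕ) {e : Sym2 V}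
    (he : e ∈ G.edgeSet) :
    ∫ u, psi (XI G.edgeSet t u K e) * (1 - psi (XI G.edgeSet t u K e)) ∂UU V ≤ rho ^ K := by
  have h1 := tendsto_integral_cut G t (g := fun x => psi (x e) * (1 - psi (x e)))
    (continuous_var e) (fun X hX => (continuous_psi.measurable.comp (hX e)).mul
      (measurable_const.sub (continuous_psi.measurable.comp (hX e))))
    (fun x => by rw [abs_of_nonneg (var_nonneg _)]; exact var_le_one _) K
  refine le_of_tendsto h1 ?_
  filter_upwards [eventually_ge_atTop {e}] with Q hQ
  have heQ : e ∈ cut G.edgeSet Q := mem_cut.mpr ⟨hQ (Finset.mem_singleton_self e), he⟩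
  exact var_small (fun f hf => loopless_edgeSet G f (cut_subset _ _ hf))
    (ht.mono (cut_subset _ _)) K heQ

theorem ae_tendsto_var {t : Sym2 V → ℝ} (ht : Set.InjOn t G.edgeSet) {e : Sym2 V}
    (he : e ∈ G.edgeSet) :
    ∀ᵐ u ∂UU V, Tendsto (fun K => psi (XI G.edgeSet t u K e) * (1 - psi (XI G.edgeSet t u K e)))
      atTop (𝓝 0) := by
  have hm : ∀ K, Measurable fun u => psi (XI G.edgeSet t u K e) *
      (1 - psi (XI G.edgeSet t u K e)) := fun K =>
    (continuous_psi.measurable.comp (measurable_XI_u G t K e)).mul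
      (measurable_const.sub (continuous_psi.measurable.comp (measurable_XI_u G t K e)))
  have hi : ∀ K, Integrable (fun u => psi (XI G.edgeSet t u K e) *
      (1 - psi (XI G.edgeSet t u K e))) (UU V) := fun K =>
    Integrable.of_bound (hm K).aestronglyMeasurable 1 (Eventually.of_forall fun u => by
      rw [Real.norm_of_nonneg (var_nonneg _)]
      exact var_le_one _)
  have h1 : ∫⁻ u, ∑' K, ENNReal.ofReal (psi (XI G.edgeSet t u K e) *
      (1 - psi (XI G.edgeSet t u K e))) ∂UU V ≠ ⊤ := by
    rw [lintegral_tsum fun K => (hm K).ennreal_ofReal.aemeasurable]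
    have h2 : ∀ K, ∫⁻ u, ENNReal.ofReal (psi (XI G.edgeSet t u K e) *
        (1 - psi (XI G.edgeSet t u K e))) ∂UU V ≤ ENNReal.ofReal (rho ^ K) := by
      intro K
      rw [← ofReal_integral_eq_lintegral_ofReal (hi K)
        (Eventually.of_forall fun u => var_nonneg _)]
      exact ENNReal.ofReal_le_ofReal (integral_var_le G ht K he)
    have h3 : ∑' K, ENNReal.ofReal (rho ^ K) ≠ ⊤ := by
      have := (summable_geometric_of_lt_one rho_nonneg rho_lt_one)
      exact this.tsum_ofReal_ne_top
    exact ne_top_of_le_ne_top h3 (ENNReal.tsum_le_tsum h2)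
  have h4 := ae_lt_top' (AEMeasurable.ennreal_tsum fun K => (hm K).ennreal_ofReal.aemeasurable) h1
  filter_upwards [h4] with u hu
  have h5 := ENNReal.tendsto_atTop_zero_of_tsum_ne_top hu.ne
  have h6 := (ENNReal.tendsto_toReal ENNReal.zero_ne_top).comp h5
  rw [ENNReal.toReal_zero] at h6
  refine h6.congr fun K => ?_
  exact ENNReal.toReal_ofReal (var_nonneg _)

open Classical in
theorem ae_tendsto_psi {t : Sym2 V → ℝ} (ht : Set.InjOn t G.edgeSet) :
    ∀ᵐ u ∂UU V, ∀ e ∈ G.edgeSet, Tendsto (fun K => psi (XI G.edgeSet t u K e)) atTop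
      (𝓝 (if e ∈ TT G.edgeSet t u then 1 else 0)) := by
  have h1 : ∀ᵐ u ∂UU V, ∀ e : G.edgeSet,
      Tendsto (fun K => psi (XI G.edgeSet t u K e) * (1 - psi (XI G.edgeSet t u K e)))
        atTop (𝓝 0) := ae_all_iff.mpr fun e => ae_tendsto_var G ht e.2
  filter_upwards [h1] with u hu e he
  have h2 := psi_tendsto (fun K => abs_XI_succ_sub_le G t u K e) (hu ⟨e, he⟩)
  have h3 : e ∈ TT G.edgeSet t u ↔ ∀ᶠ K in atTop, 0 < XI G.edgeSet t u K e :=
    ⟨fun h => h.2, fun h => ⟨he, h⟩⟩
  simp only [h3]
  exact h2

theorem tendsto_integral_gg {t : Sym2 V → ℝ} (ht : Set.InjOn t G.edgeSet)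
    {F A : Finset (Sym2 V)} (hF : (F : Set (Sym2 V)) ⊆ G.edgeSet) (hA : A ⊆ F) :
    Tendsto (fun K => ∫ u, gg F A (XI G.edgeSet t u K) ∂UU V) atTop
      (𝓝 ((UU V).real {u | TT G.edgeSet t u ∩ F = A})) := by
  classical
  have hmeas : MeasurableSet {u | TT G.edgeSet t u ∩ F = A} := by
    have h1 : {u | TT G.edgeSet t u ∩ F = A} =
        ⋂ e ∈ F, {u | e ∈ TT G.edgeSet t u ↔ e ∈ A} := by
      ext u
      simp only [Set.mem_setOf_eq, Set.mem_iInter]
      constructor
      · intro h e he
        have := Set.ext_iff.mp h e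
        simp only [Set.mem_inter_iff, Finset.mem_coe] at this
        exact ⟨fun h' => this.mp ⟨h', he⟩, fun h' => (this.mpr h').1⟩
      · intro h
        ext e
        simp only [Set.mem_inter_iff, Finset.mem_coe]
        exact ⟨fun h' => (h e h'.2).mp h'.1, fun h' => ⟨(h e (hA h')).mpr h', hA h'⟩⟩
    rw [h1]
    refine Finset.measurableSet_biInter _ fun e _ => ?_
    have h2 : MeasurableSet {u | e ∈ TT G.edgeSet t u} :=
      measurableSet_setOf.mpr ((measurable_set_mem e).comp (measurable_TT_u G t))
    by_cases he : e ∈ A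
    · simp only [he, iff_true]
      exact h2
    · simp only [he, iff_false]
      exact h2.compl
  rw [← integral_indicator_one hmeas]
  refine tendsto_integral_of_dominated_convergence (fun _ => 1) ?_ (integrable_const _) ?_ ?_
  · exact fun K => (measurable_gg_comp F A fun e => measurable_XI_u G t K e).aestronglyMeasurable
  · intro K
    refine Eventually.of_forall fun u => ?_
    rw [Real.norm_of_nonneg (gg_nonneg _ _ _)]
    exact gg_le_one _ _ _
  · filter_upwards [ae_tendsto_psi G ht] with u hu
    have h1 : Tendsto (fun K => gg F A (XI G.edgeSet t u K)) atTop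
        (𝓝 (∏ e ∈ F, if e ∈ A then (if e ∈ TT G.edgeSet t u then (1 : ℝ) else 0) else
          1 - (if e ∈ TT G.edgeSet t u then (1 : ℝ) else 0))) := by
      unfold gg
      refine tendsto_finset_prod _ fun e he => ?_
      have h2 := hu e (hF he)
      by_cases heA : e ∈ A
      · simp only [heA, if_true]
        exact h2
      · simp only [heA, if_false]
        exact h2.const_sub 1
    have h3 : (∏ e ∈ F, if e ∈ A then (if e ∈ TT G.edgeSet t u then (1 : ℝ) else 0) else
          1 - (if e ∈ TT G.edgeSet t u then (1 : ℝ) else 0)) =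
        {u | TT G.edgeSet t u ∩ F = A}.indicator 1 u := by
      by_cases h : TT G.edgeSet t u ∩ F = A
      · rw [Set.indicator_of_mem (show u ∈ {u | TT G.edgeSet t u ∩ F = A} from h)]
        refine Finset.prod_eq_one fun e he => ?_
        have := Set.ext_iff.mp h e
        simp only [Set.mem_inter_iff, Finset.mem_coe] at this
        by_cases heA : e ∈ A
        · rw [if_pos heA, if_pos (this.mpr heA).1]
        · rw [if_neg heA, if_neg fun h' => heA (this.mp ⟨h', he⟩), sub_zero]
      · rw [Set.indicator_of_notMem (show u ∉ {u | TT G.edgeSet t u ∩ F = A} from h)]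
        by_contra hne
        apply h
        ext e
        simp only [Set.mem_inter_iff, Finset.mem_coe]
        have h4 : ∀ e ∈ F, (if e ∈ A then (if e ∈ TT G.edgeSet t u then (1 : ℝ) else 0) else
          1 - (if e ∈ TT G.edgeSet t u then (1 : ℝ) else 0)) ≠ 0 :=
          fun e he => Finset.prod_ne_zero_iff.mp hne e he
        constructor
        · rintro ⟨h5, h6⟩
          by_contra heA
          have := h4 e h6
          rw [if_neg heA, if_pos h5, sub_self] at this
          exact this rfl
        · intro heA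
          refine ⟨?_, hA heA⟩
          by_contra h5
          have := h4 e (hA heA)
          rw [if_pos heA, if_neg h5] at this
          exact this rfl
    rw [h3] at h1
    exact h1

theorem tendsto_ustP {t : Sym2 V → ℝ}
    (ht : Set.InjOn t G.edgeSet) {F A : Finset (Sym2 V)} (hF : (F : Set (Sym2 V)) ⊆ G.edgeSet)
    (hA : A ⊆ F) :
    Tendsto (fun Q => ustP (cut G.edgeSet Q) F A) atTop
      (𝓝 ((UU V).real {u | TT G.edgeSet t u ∩ F = A})) := by
  rw [Metric.tendsto_nhds]
  intro ε hε
  have h1 := Metric.tendsto_nhds.mp (tendsto_integral_gg G ht hF hA) (ε / 3) (by positivity)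
  have h2 : Tendsto (fun K : ℕ => (F.card : ℝ) * rho ^ K) atTop (𝓝 0) := by
    have := (tendsto_pow_atTop_nhds_zero_of_lt_one rho_nonneg rho_lt_one).const_mul (F.card : ℝ)
    rwa [mul_zero] at this
  obtain ⟨K, hK1, hK2⟩ := (h1.and (h2.eventually (gt_mem_nhds (show (0:ℝ) < ε / 3 by
    positivity)))).exists
  have h3 := tendsto_integral_cut G t (continuous_gg F A)
    (fun X hX => measurable_gg_comp F A hX)
    (fun x => by rw [abs_of_nonneg (gg_nonneg _ _ _)]; exact gg_le_one _ _ _) K
  filter_upwards [Metric.tendsto_nhds.mp h3 (ε / 3) (by positivity), eventually_ge_atTop F]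
    with Q hQ1 hQ2
  have hFQ : F ⊆ cut G.edgeSet Q := fun e he => mem_cut.mpr ⟨hQ2 he, hF he⟩
  have h4 := approx_gg (fun f hf => loopless_edgeSet G f (cut_subset _ _ hf))
    (ht.mono (cut_subset G.edgeSet Q)) K hFQ hA
  rw [Real.dist_eq] at hK1 hQ1 ⊢
  rw [abs_lt] at hK1 hQ1 ⊢
  rw [abs_le] at h4
  constructor
  · linarith [hK1.1, hQ1.1, h4.2]
  · linarith [hK1.2, hQ1.2, h4.1]

end Fixed

end P143
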