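import Vale.Agent.P143.Defs

/-!
# P143: naturality of the sampler under a bijection of the vertex sets
-/

open MeasureTheory Filter Topology Real

namespace P143

variable {V W : Type*}

/-- the embedding of the edges given by a bijection of the vertices -/
def emb (σ : V ≃ W) : Sym2 V ↪ Sym2 W := ⟨Sym2.map σ, Sym2.map.injective σ.injective⟩

theorem mem_map_emb (σ : V ≃ W) (B : Finset (Sym2 V)) (a b : V) :
    s(σ a, σ b) ∈ B.map (emb σ) ↔ s(a, b) ∈ B := by
  have h : s(σ a, σ b) = emb σ s(a, b) := rfl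
  rw [h, Finset.mem_map' (emb σ)]

/-- the isomorphism between the graphs spanned by `B` and by its image -/
def isoB (σ : V ≃ W) (B : Finset (Sym2 V)) :
    SimpleGraph.fromEdgeSet (B : Set (Sym2 V)) ≃g
      SimpleGraph.fromEdgeSet ((B.map (emb σ) : Finset (Sym2 W)) : Set (Sym2 W)) where
  toEquiv := σ
  map_rel_iff' := by
    intro a b
    rw [SimpleGraph.fromEdgeSet_adj, SimpleGraph.fromEdgeSet_adj, Finset.mem_coe, Finset.mem_coe,
      mem_map_emb, σ.injective.ne_iff]

theorem isBase_map (σ : V ≃ W) (S B : Finset (Sym2 V)) :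
    IsBase (S.map (emb σ)) (B.map (emb σ)) ↔ IsBase S B := by
  unfold IsBase
  rw [Finset.map_subset_map, (isoB σ B).isAcyclic_iff]
  refine and_congr_right fun _ => and_congr_right fun _ => ?_
  constructor
  · intro h u v huv
    have := h (σ u) (σ v) ((mem_map_emb σ S u v).mpr huv)
    exact (isoB σ B).reachable_iff.mp this
  · intro h u v huv
    obtain ⟨a, rfl⟩ := σ.surjective u
    obtain ⟨b, rfl⟩ := σ.surjective v
    exact (isoB σ B).reachable_iff.mpr (h a b ((mem_map_emb σ S a b).mp huv))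

theorem mem_bases_iff_nat (S B : Finset (Sym2 V)) : B ∈ bases S ↔ B ⊆ S ∧ IsBase S B := by
  classical
  unfold bases
  rw [Finset.mem_filter, Finset.mem_powerset]

theorem bases_map (σ : V ≃ W) (S : Finset (Sym2 V)) :
    bases (S.map (emb σ)) = (bases S).map (Finset.mapEmbedding (emb σ)).toEmbedding := by
  ext B'
  rw [Finset.mem_map, mem_bases_iff_nat]
  constructor
  · rintro ⟨h1, h2⟩
    obtain ⟨B, hB, rfl⟩ := Finset.subset_map_iff.mp h1
    exact ⟨B, (mem_bases_iff_nat S B).mpr ⟨hB, (isBase_map σ S B).mp h2⟩, rfl⟩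
  · rintro ⟨B, hB, rfl⟩
    obtain ⟨h1, h2⟩ := (mem_bases_iff_nat S B).mp hB
    exact ⟨Finset.map_subset_map.mpr h1, (isBase_map σ S B).mpr h2⟩

theorem wt_map (σ : V ≃ W) (x : Sym2 W → ℝ) (B : Finset (Sym2 V)) :
    wt x (B.map (emb σ)) = wt (fun f => x (Sym2.map σ f)) B := by
  unfold wt
  rw [Finset.sum_map]
  rfl

theorem ZZ_map (σ : V ≃ W) (S : Finset (Sym2 V)) (x : Sym2 W → ℝ) :
    ZZ (S.map (emb σ)) x = ZZ S (fun f => x (Sym2.map σ f)) := by
  unfold ZZ
  rw [bases_map, Finset.sum_map]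
  exact Finset.sum_congr rfl fun B _ => wt_map σ x B

theorem mm_map (σ : V ≃ W) (S : Finset (Sym2 V)) (x : Sym2 W → ℝ) (e : Sym2 V) :
    mm (S.map ⟨Sym2.map σ, Sym2.map.injective σ.injective⟩) x (Sym2.map σ e) =
      mm S (fun f => x (Sym2.map σ f)) e := by
  classical
  have h1 := ZZ_map σ S x
  have h2 := bases_map σ S
  unfold emb at h1 h2
  unfold mm
  rw [h1, h2, Finset.filter_map, Finset.sum_map]
  congr 1
  have h3 : ((fun B : Finset (Sym2 W) => Sym2.map σ e ∈ B) ∘
      (Finset.mapEmbedding (emb σ)).toEmbedding) = fun B : Finset (Sym2 V) => e ∈ B := by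
    ext B
    exact Finset.mem_map' (emb σ)
  unfold emb at h3
  simp only [h3]
  exact Finset.sum_congr rfl fun B _ => wt_map σ x B

theorem stageIter_map (σ : V ≃ W) (S : Finset (Sym2 V)) (x t : Sym2 W → ℝ)
    (u : Sym2 W → unitInterval) (n : ℕ) (e : Sym2 V) :
    stageIter (S.map ⟨Sym2.map σ, Sym2.map.injective σ.injective⟩) x t u n (Sym2.map σ e) =
      stageIter S (fun f => x (Sym2.map σ f)) (fun f => t (Sym2.map σ f))
        (fun f => u (Sym2.map σ f)) n e := by
  induction n generalizing e with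
  | zero => rfl
  | succ n ih =>
    have hmem : Sym2.map σ e ∈ S.map (emb σ) ↔ e ∈ S := Finset.mem_map' (emb σ)
    unfold emb at hmem
    unfold stageIter
    by_cases he : e ∈ S
    · rw [if_pos he, if_pos (hmem.mpr he), mm_map]
      simp only [ih]
    · rw [if_neg he, if_neg (mt hmem.mp he)]

theorem stage_map (σ : V ≃ W) (S : Finset (Sym2 V)) (x t : Sym2 W → ℝ)
    (u : Sym2 W → unitInterval) (e : Sym2 V) :
    stage (S.map ⟨Sym2.map σ, Sym2.map.injective σ.injective⟩) x t u (Sym2.map σ e) =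
      stage S (fun f => x (Sym2.map σ f)) (fun f => t (Sym2.map σ f))
        (fun f => u (Sym2.map σ f)) e := by
  unfold stage
  rw [Finset.card_map, stageIter_map]

theorem XX_map (σ : V ≃ W) (S : Finset (Sym2 V)) (t : Sym2 W → ℝ)
    (u : Sym2 W → ℕ → unitInterval) (K : ℕ) (e : Sym2 V) :
    XX (S.map ⟨Sym2.map σ, Sym2.map.injective σ.injective⟩) t u K (Sym2.map σ e) =
      XX S (fun f => t (Sym2.map σ f)) (fun f => u (Sym2.map σ f)) K e := by
  induction K generalizing e with
  | zero => rfl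
  | succ K ih =>
    unfold XX
    simp only [Pi.add_apply]
    rw [stage_map, ih]
    have h : (fun f => XX (S.map ⟨Sym2.map σ, Sym2.map.injective σ.injective⟩) t u K
        (Sym2.map σ f)) = XX S (fun f => t (Sym2.map σ f)) (fun f => u (Sym2.map σ f)) K :=
      funext ih
    rw [h]

end P143
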