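import Vale.Agent.P143.Sampler
import Vale.Agent.P143.Path
import Vale.Agent.P143.Natural
import Vale.Agent.P143.Limit
import Vale.Agent.P143.Statement
import Vale.Agent.P143.Labels
import Vale.Agent.P143.Labels2

/-!
# P143: the factor map
-/

open MeasureTheory Filter Topology

namespace P143

variable {V W : Type*}

/-! ### Naturality -/

theorem map_mem_image {σ : V ≃ W} {E' : Set (Sym2 V)} {e : Sym2 V} :
    Sym2.map σ e ∈ Sym2.map σ '' E' ↔ e ∈ E' :=
  (Sym2.map.injective σ.injective).mem_set_image

theorem cut_map (σ : V ≃ W) (E' : Set (Sym2 V)) (Q : Finset (Sym2 V)) :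
    cut (Sym2.map σ '' E') (Q.map (emb σ)) = (cut E' Q).map (emb σ) := by
  ext e'
  rw [mem_cut, Finset.mem_map, Finset.mem_map]
  constructor
  · rintro ⟨⟨e, he, rfl⟩, h2⟩
    exact ⟨e, mem_cut.mpr ⟨he, map_mem_image.mp h2⟩, rfl⟩
  · rintro ⟨e, he, rfl⟩
    rw [mem_cut] at he
    exact ⟨⟨e, he.1, rfl⟩, map_mem_image.mpr he.2⟩

theorem map_surj (σ : V ≃ W) (e' : Sym2 W) : ∃ e : Sym2 V, Sym2.map σ e = e' := by
  refine ⟨Sym2.map σ.symm e', ?_⟩
  rw [Sym2.map_map]
  simp

theorem tendsto_map_emb (σ : V ≃ W) :
    Tendsto (fun Q : Finset (Sym2 V) => Q.map (emb σ)) atTop atTop := by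
  classical
  rw [tendsto_atTop_atTop]
  intro Q'
  refine ⟨Q'.preimage (emb σ) ((emb σ).injective.injOn), fun Q hQ e' he' => ?_⟩
  obtain ⟨e, rfl⟩ := map_surj σ e'
  rw [Finset.mem_map]
  exact ⟨e, hQ (Finset.mem_preimage.mpr he'), rfl⟩

theorem loopless_map {σ : V ≃ W} {E' : Set (Sym2 V)} (hE : Loopless E') :
    Loopless (Sym2.map σ '' E') := by
  rintro _ ⟨e, he, rfl⟩
  have := hE e he
  induction e with
  | _ a b =>
    simpa using this

theorem XI_map (σ : V ≃ W) {E' : Set (Sym2 V)} (hE : Loopless E') (t : Sym2 W → ℝ)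
    (u : Sym2 W → ℕ → unitInterval) (K : ℕ) (e : Sym2 V) :
    XI (Sym2.map σ '' E') t u K (Sym2.map σ e) =
      XI E' (fun f => t (Sym2.map σ f)) (fun f => u (Sym2.map σ f)) K e := by
  have h1 := (tendsto_XI (loopless_map (σ := σ) hE) t u K (Sym2.map σ e)).comp
    (tendsto_map_emb σ)
  have h2 := tendsto_XI hE (fun f => t (Sym2.map σ f)) (fun f => u (Sym2.map σ f)) K e
  refine tendsto_nhds_unique h1 (h2.congr fun Q => ?_)
  rw [Function.comp_apply, cut_map]
  exact (XX_map σ (cut E' Q) t u K e).symm

theorem TT_map (σ : V ≃ W) {E' : Set (Sym2 V)} (hE : Loopless E') (t : Sym2 W → ℝ)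
    (u : Sym2 W → ℕ → unitInterval) :
    TT (Sym2.map σ '' E') t u =
      Sym2.map σ '' TT E' (fun f => t (Sym2.map σ f)) (fun f => u (Sym2.map σ f)) := by
  ext e'
  obtain ⟨e, rfl⟩ := map_surj σ e'
  rw [map_mem_image]
  unfold TT
  simp only [Set.mem_ofPred_eq, map_mem_image]
  simp_rw [XI_map σ hE]

theorem tm_map (σ : V ≃ W) (a : W → unitInterval) (e : Sym2 V) :
    tm a (Sym2.map σ e) = tm (fun v => a (σ v)) e := by
  induction e with
  | _ v w => rfl

theorem rk_map (σ : V ≃ W) (G : SimpleGraph V) (a : W → unitInterval) (v w : V) :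
    rk (G.map σ.toEmbedding) a (σ v) (σ w) = rk G (fun z => a (σ z)) v w := by
  unfold rk
  have : {w' | (G.map σ.toEmbedding).Adj (σ v) w' ∧ a w' < a (σ w)} =
      σ '' {w' | G.Adj v w' ∧ a (σ w') < a (σ w)} := by
    ext z
    obtain ⟨z, rfl⟩ := σ.surjective z
    rw [σ.injective.mem_set_image]
    simp only [Set.mem_ofPred_eq]
    have : (G.map σ.toEmbedding).Adj (σ v) (σ z) ↔ G.Adj v z :=
      SimpleGraph.map_adj_apply (f := σ.toEmbedding)
    rw [this]
  rw [this, Set.ncard_image_of_injective _ σ.injective]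

theorem lab_map (σ : V ≃ W) (G : SimpleGraph V) (b : W → ℕ → unitInterval) (e : Sym2 V)
    (k : ℕ) : lab (G.map σ.toEmbedding) b (Sym2.map σ e) k =
      lab G (fun z => b (σ z)) e k := by
  induction e with
  | _ v w =>
    simp only [lab, Sym2.map_mk, Sym2.lift_mk]
    rw [rk_map, rk_map]

/-! ### The factor map -/

/-- a measurable map producing from one uniform label a sequence of IID uniform labels. -/
noncomputable def g0 : unitInterval → ℕ → unitInterval :=
  (Measure.exists_measurable_map_eq (Measure.infinitePi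
    (fun _ : ℕ => (volume : Measure unitInterval)))).choose

theorem measurable_g0 : Measurable g0 :=
  (Measure.exists_measurable_map_eq (Measure.infinitePi
    (fun _ : ℕ => (volume : Measure unitInterval)))).choose_spec.1

theorem map_g0 : (volume : Measure unitInterval).map g0 =
    Measure.infinitePi (fun _ : ℕ => (volume : Measure unitInterval)) :=
  (Measure.exists_measurable_map_eq (Measure.infinitePi
    (fun _ : ℕ => (volume : Measure unitInterval)))).choose_spec.2

/-- the forest as a function of the graph and of the vertex labels. -/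
noncomputable def Phi (G : SimpleGraph V) (U : V → unitInterval) : Set (Sym2 V) :=
  TT G.edgeSet (tm fun v => g0 (U v) 0) (lab G fun v => g0 (U v))

theorem edgeSet_map' (σ : V ≃ W) (G : SimpleGraph V) :
    (G.map σ.toEmbedding).edgeSet = Sym2.map σ '' G.edgeSet := by
  rw [SimpleGraph.edgeSet_map]
  rfl

theorem Phi_map (σ : V ≃ W) (G : SimpleGraph V) (U : W → unitInterval) :
    Phi (G.map σ.toEmbedding) U = Sym2.map σ '' Phi G (fun v => U (σ v)) := by
  unfold Phi
  rw [edgeSet_map', TT_map σ (loopless_edgeSet G)]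
  have h : ∀ f, lab (G.map σ.toEmbedding) (fun v => g0 (U v)) (Sym2.map σ f) =
      lab G (fun v => g0 (U (σ v))) f := fun f => funext fun k => lab_map σ G _ f k
  simp_rw [tm_map, h]

theorem measurable_tm : Measurable (fun a : V → unitInterval => tm a) := by
  apply measurable_pi_lambda
  intro e
  induction e with
  | _ v w =>
    simp only [tm, Sym2.lift_mk]
    fun_prop

theorem measurable_Phi [Countable V] :
    Measurable (fun p : SimpleGraph V × (V → unitInterval) => Phi p.1 p.2) := by
  have hg : Measurable (fun p : SimpleGraph V × (V → unitInterval) => fun v => g0 (p.2 v)) := by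
    apply measurable_pi_lambda
    intro v
    exact measurable_g0.comp (by fun_prop)
  have h1 : Measurable (fun p : SimpleGraph V × (V → unitInterval) =>
      (p.1, tm (fun v => g0 (p.2 v) 0), lab p.1 (fun v => g0 (p.2 v)))) := by
    refine measurable_fst.prodMk (Measurable.prodMk ?_ ?_)
    · apply measurable_tm.comp
      apply measurable_pi_lambda
      intro v
      exact ((measurable_pi_apply 0).comp ((measurable_pi_apply v).comp hg))
    · exact measurable_lab.comp (measurable_fst.prodMk hg)
  exact measurable_TT.comp h1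

/-! ### The law of the forest -/

theorem measurableSet_cyl [Countable V] (F A : Finset (Sym2 V)) :
    MeasurableSet {T : Set (Sym2 V) | T ∩ (F : Set (Sym2 V)) = A} := by
  have : {T : Set (Sym2 V) | T ∩ (F : Set (Sym2 V)) = A} =
      ⋂ e : Sym2 V, {T : Set (Sym2 V) | (e ∈ T ∧ e ∈ F) ↔ e ∈ A} := by
    ext T
    simp only [Set.mem_ofPred_eq, Set.mem_iInter, Set.ext_iff, Set.mem_inter_iff, Finset.mem_coe]
  rw [this]
  apply MeasurableSet.iInter
  intro e
  have he : Measurable (fun T : Set (Sym2 V) => e ∈ T) := measurable_set_mem e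
  by_cases h1 : e ∈ F <;> by_cases h2 : e ∈ A
  · simpa [h1, h2] using he
  · simpa [h1, h2] using he.not
  · simp [h1, h2]
  · simp [h1, h2]

theorem TT_subset (E' : Set (Sym2 V)) (t : Sym2 V → ℝ) (u : Sym2 V → ℕ → unitInterval) :
    TT E' t u ⊆ E' := fun _ he => he.1

theorem TT_congr {E' : Set (Sym2 V)} (t : Sym2 V → ℝ) {u u' : Sym2 V → ℕ → unitInterval}
    (h : ∀ e ∈ E', u e = u' e) : TT E' t u = TT E' t u' := by
  have hXI : ∀ K e, XI E' t u K e = XI E' t u' K e := by
    intro K e
    unfold XI
    congr 1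
    funext Q
    rw [XX_congr (fun _ _ => rfl) (fun e he => h e (cut_subset E' Q he)) K]
  unfold TT
  simp_rw [hXI]

theorem law_aux [Countable V] (G : SimpleGraph V) (hG : ∀ v, (G.neighborSet v).Finite)
    {F A : Finset (Sym2 V)} (hF : (F : Set (Sym2 V)) ⊆ G.edgeSet) (hA : A ⊆ F) :
    Tendsto (fun Q => ustP (cut G.edgeSet Q) F A) atTop
      (𝓝 ((iidLabels V).real {U | Phi G U ∩ F = A})) := by
  have hU1 : U1 V = iidLabels V := rfl
  have : IsProbabilityMeasure (U1 V) := by unfold U1; infer_instance
  have : IsProbabilityMeasure (UU V) := by unfold UU; infer_instance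
  have hloop := loopless_edgeSet G
  have hinj : ∀ᵐ a ∂(U1 V), Set.InjOn (tm a) G.edgeSet := by
    filter_upwards [ae_injOn_tm (V := V)] with a ha
    exact ha.mono fun e he => hloop e he
  obtain ⟨a₀, ha₀⟩ := hinj.exists
  set L : ℝ := (UU V).real {u | TT G.edgeSet (tm a₀) u ∩ F = A} with hL
  have hlim := tendsto_ustP G ha₀ hF hA
  set H : Set ((V → unitInterval) × (Sym2 V → ℕ → unitInterval)) :=
    {p | TT G.edgeSet (tm p.1) p.2 ∩ F = A} with hH
  have hHm : MeasurableSet H := by
    have h1 : Measurable (fun p : (V → unitInterval) × (Sym2 V → ℕ → unitInterval) =>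
        TT G.edgeSet (tm p.1) p.2) := by
      have h2 : Measurable (fun p : (V → unitInterval) × (Sym2 V → ℕ → unitInterval) =>
          (G, tm p.1, p.2)) :=
        measurable_const.prodMk ((measurable_tm.comp measurable_fst).prodMk measurable_snd)
      exact measurable_TT.comp h2
    exact h1 (measurableSet_cyl F A)
  have hsat : ∀ (a : V → unitInterval) (u u' : Sym2 V → ℕ → unitInterval),
      (∀ e ∈ G.edgeSet, u e = u' e) → ((a, u) ∈ H ↔ (a, u') ∈ H) := by
    intro a u u' h
    simp only [hH, Set.mem_ofPred_eq]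
    rw [TT_congr (tm a) h]
  have hval : (iidLabels V).real {U | Phi G U ∩ F = A} = L := by
    have e1 : (iidLabels V) {U | Phi G U ∩ F = A} =
        (U2 V) {b | ((fun v => b v 0), lab G b) ∈ H} := by
      have hmap : (iidLabels V).map (fun U v => g0 (U v)) = U2 V := by
        unfold iidLabels U2
        rw [Measure.infinitePi_map_pi (μ := fun _ : V => (volume : Measure unitInterval))
          (f := fun _ => g0) (fun _ => measurable_g0)]
        simp_rw [map_g0]
      have hmeas : Measurable (fun U : V → unitInterval => fun v => g0 (U v)) := by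
        apply measurable_pi_lambda
        intro v
        exact measurable_g0.comp (measurable_pi_apply v)
      have hset : MeasurableSet {b : V → ℕ → unitInterval | ((fun v => b v 0), lab G b) ∈ H} := by
        have h3 : Measurable (fun b : V → ℕ → unitInterval =>
            ((fun v => b v 0 : V → unitInterval), lab G b)) := by
          apply Measurable.prodMk
          · fun_prop
          · exact measurable_lab.comp (measurable_const.prodMk measurable_id)
        exact h3 hHm
      rw [← hmap, Measure.map_apply hmeas hset]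
      rfl
    have e2 := lab_law G hG hHm hsat
    have e3 : ((U1 V).prod (UU V)) H = ENNReal.ofReal L := by
      rw [Measure.prod_apply hHm]
      have h4 : ∀ᵐ a ∂(U1 V), (UU V) (Prod.mk a ⁻¹' H) = ENNReal.ofReal L := by
        filter_upwards [hinj] with a ha
        have h5 := tendsto_nhds_unique (tendsto_ustP G ha hF hA) hlim
        rw [hL, ← h5]
        rw [Measure.real, ENNReal.ofReal_toReal (measure_ne_top _ _)]
        rfl
      rw [lintegral_congr_ae h4]
      simp
    rw [Measure.real, e1, e2, e3, ENNReal.toReal_ofReal]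
    exact measureReal_nonneg
  rw [hval]
  exact hlim

theorem law_Phi [Countable V] (G : SimpleGraph V) (hG : ∀ v, (G.neighborSet v).Finite)
    (F A : Finset (Sym2 V)) :
    Tendsto (fun Q => ustP (cut G.edgeSet Q) F A) atTop
      (𝓝 ((iidLabels V).real {U | Phi G U ∩ F = A})) := by
  classical
  have hPhi : ∀ U, Phi G U ⊆ G.edgeSet := fun U => TT_subset _ _ _
  have h1 : ∀ T : Set (Sym2 V), T ⊆ G.edgeSet →
      T ∩ F = T ∩ (cut G.edgeSet F : Finset (Sym2 V)) := by
    intro T hT
    ext e
    simp only [Set.mem_inter_iff, Finset.mem_coe, mem_cut]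
    constructor
    · rintro ⟨h1, h2⟩
      exact ⟨h1, h2, hT h1⟩
    · rintro ⟨h1, h2, _⟩
      exact ⟨h1, h2⟩
  have h2 : {U | Phi G U ∩ F = A} = {U | Phi G U ∩ (cut G.edgeSet F : Finset (Sym2 V)) = A} := by
    ext U
    simp only [Set.mem_ofPred_eq]
    rw [h1 _ (hPhi U)]
  have h3 : ∀ Q, ustP (cut G.edgeSet Q) F A = ustP (cut G.edgeSet Q) (cut G.edgeSet F) A := by
    intro Q
    unfold ustP
    congr 3
    apply Finset.filter_congr
    intro B hB
    have hBE : (B : Set (Sym2 V)) ⊆ G.edgeSet := fun e he =>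
      cut_subset _ Q ((mem_bases.mp hB).1 he)
    rw [← Finset.coe_inj, ← Finset.coe_inj (s₁ := B ∩ cut G.edgeSet F), Finset.coe_inter,
      Finset.coe_inter, h1 _ hBE]
  rw [h2]
  simp_rw [h3]
  by_cases hA : A ⊆ cut G.edgeSet F
  · exact law_aux G hG (cut_subset _ _) hA
  · have h4 : {U | Phi G U ∩ (cut G.edgeSet F : Finset (Sym2 V)) = A} = ∅ := by
      ext U
      simp only [Set.mem_ofPred_eq, Set.mem_empty_iff_false, iff_false]
      intro h
      apply hA
      rw [← Finset.coe_subset, ← h]
      exact Set.inter_subset_right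
    have h5 : ∀ Q, ustP (cut G.edgeSet Q) (cut G.edgeSet F) A = 0 := by
      intro Q
      unfold ustP
      have : (bases (cut G.edgeSet Q)).filter (fun B => B ∩ cut G.edgeSet F = A) = ∅ := by
        apply Finset.filter_eq_empty_iff.mpr
        intro B _ h
        apply hA
        rw [← h]
        exact Finset.inter_subset_right
      rw [this]
      simp
    rw [h4]
    simp_rw [h5]
    simp

end P143
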