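import Vale.Agent.P143.Defs

/-!
Skeleton of the proof (statements with `sorry`).  Each module proves its statements in the
namespace `P143` (not `P143.Skel`), importing `Defs` and earlier modules (or `Skel` meanwhile).
-/

open MeasureTheory Filter Topology Real

namespace P143.Skel

variable {V W : Type*}

/-! ### Base.lean -/

theorem isBase_iff {S : Finset (Sym2 V)} (hS : Loopless (S : Set (Sym2 V)))
    (B : Finset (Sym2 V)) :
    IsBase S B ↔ B ⊆ S ∧ LinearIndependent ℝ (fun f : B => inc (f : Sym2 V)) ∧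
      ∀ f ∈ S, inc f ∈ Submodule.span ℝ (inc '' (B : Set (Sym2 V))) := sorry

theorem bases_nonempty {S : Finset (Sym2 V)} (hS : Loopless (S : Set (Sym2 V))) :
    (bases S).Nonempty := sorry

theorem exists_potential {F : Finset (Sym2 V)} (hF : Loopless (F : Set (Sym2 V))) {e : Sym2 V}
    (he : ¬ e.IsDiag) (hne : inc e ∉ Submodule.span ℝ (inc '' (F : Set (Sym2 V)))) :
    ∃ φ : V → ℝ, (∀ v, φ v = 0 ∨ φ v = 1) ∧ (∀ f ∈ F, φ (tgt f) = φ (src f)) ∧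
      φ (tgt e) = 1 ∧ φ (src e) = 0 := sorry

/-! ### Current.lean -/

theorem exists_current {S : Finset (Sym2 V)} (hS : Loopless (S : Set (Sym2 V)))
    (x : Sym2 V → ℝ) {e : Sym2 V} (he : e ∈ S) : ∃ i, IsCurrent S x e i := sorry

/-! ### Energy.lean (uses only `exists_current` and `bases_nonempty`) -/

theorem mm_nonneg (S : Finset (Sym2 V)) (x : Sym2 V → ℝ) (e : Sym2 V) : 0 ≤ mm S x e := sorry

theorem mm_le_one (S : Finset (Sym2 V)) (x : Sym2 V → ℝ) (e : Sym2 V) : mm S x e ≤ 1 := sorry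

theorem mm_anti {S S' : Finset (Sym2 V)} (hSS : S ⊆ S') (hS' : Loopless (S' : Set (Sym2 V)))
    (x : Sym2 V → ℝ) {e : Sym2 V} (he : e ∈ S) : mm S' x e ≤ mm S x e := sorry

/-- sup-norm Lipschitz bound -/
theorem mm_lip {S : Finset (Sym2 V)} (hS : Loopless (S : Set (Sym2 V)))
    {x x' : Sym2 V → ℝ} {e : Sym2 V} (he : e ∈ S) {d d' : ℝ} (hd : d + d' ≤ 2)
    (hx : ∀ f ∈ S, |x f - x' f| ≤ d) (hxe : |x e - x' e| ≤ d') :
    |mm S x e - mm S x' e| ≤ (d + d') / 2 := sorry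

/-- uniform convergence of `mm S x e`, `S → E'`, on bounded fields -/
theorem mm_unif {E' : Set (Sym2 V)} (hE : Loopless E') {e : Sym2 V} (he : e ∈ E') (C : ℝ)
    {η : ℝ} (hη : 0 < η) :
    ∃ S₀ : Finset (Sym2 V), (S₀ : Set (Sym2 V)) ⊆ E' ∧ e ∈ S₀ ∧
      ∀ S : Finset (Sym2 V), S₀ ⊆ S → (S : Set (Sym2 V)) ⊆ E' →
        ∀ x : Sym2 V → ℝ, (∀ f, |x f| ≤ C) → |mm S x e - mm S₀ x e| ≤ η := sorry

/-! ### Zfun.lean -/

theorem zf_mem {m u : ℝ} (hm : m ∈ Set.Icc (0:ℝ) 1) (hu : u ∈ Set.Icc (0:ℝ) 1) :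
    zf m u ∈ Set.Icc (0:ℝ) 1 := sorry

theorem measurable_yf : Measurable (fun p : ℝ × ℝ => yf p.1 p.2) := sorry

theorem abs_yf_sub_le {m m' u : ℝ} (hm : m ∈ Set.Icc (0:ℝ) 1) (hm' : m' ∈ Set.Icc (0:ℝ) 1)
    (hu : u ∈ Set.Icc (0:ℝ) 1) : |yf m u - yf m' u| ≤ |m - m'| / 2 := sorry

theorem abs_yf_le {m u : ℝ} (hm : m ∈ Set.Icc (0:ℝ) 1) (hu : u ∈ Set.Icc (0:ℝ) 1) :
    |yf m u| ≤ log 2 := sorry

theorem abs_yf_sub_yf_le {m m' u u' : ℝ} (hm : m ∈ Set.Icc (0:ℝ) 1)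
    (hm' : m' ∈ Set.Icc (0:ℝ) 1) (hu : u ∈ Set.Icc (0:ℝ) 1) (hu' : u' ∈ Set.Icc (0:ℝ) 1) :
    |yf m u - yf m' u'| ≤ log 3 := sorry

/-- law of the update -/
theorem integral_yf {m : ℝ} (hm : m ∈ Set.Icc (0:ℝ) 1) {g : ℝ → ℝ} (hg : Measurable g)
    {M : ℝ} (hM : ∀ y, |g y| ≤ M) :
    ∫ u : unitInterval, g (yf m u) =
      ∫ u : unitInterval, g (log (1 / 2 + (u : ℝ))) * (1 - m + m * (1 / 2 + (u : ℝ))) := sorry

theorem rho_nonneg : 0 ≤ rho := sorry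

theorem rho_lt_one : rho < 1 := sorry

/-! ### Sampler.lean -/

theorem stage_off {S : Finset (Sym2 V)} {x t : Sym2 V → ℝ} {u : Sym2 V → unitInterval}
    {e : Sym2 V} (he : e ∉ S) : stage S x t u e = 0 := sorry

open Classical in
theorem stage_eq {S : Finset (Sym2 V)} (x t : Sym2 V → ℝ) (u : Sym2 V → unitInterval)
    {e : Sym2 V} (he : e ∈ S) :
    stage S x t u e =
      yf (mm S (fun f => x f + if t f < t e then stage S x t u f else 0) e) (u e) := sorry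

theorem XX_off {S : Finset (Sym2 V)} {t : Sym2 V → ℝ} {u : Sym2 V → ℕ → unitInterval}
    {e : Sym2 V} (he : e ∉ S) (K : ℕ) : XX S t u K e = 0 := sorry

theorem abs_XX_le (S : Finset (Sym2 V)) (t : Sym2 V → ℝ) (u : Sym2 V → ℕ → unitInterval)
    (K : ℕ) (e : Sym2 V) : |XX S t u K e| ≤ K * log 2 := sorry

theorem measurable_stage (S : Finset (Sym2 V)) (e : Sym2 V) :
    Measurable (fun p : (Sym2 V → ℝ) × (Sym2 V → ℝ) × (Sym2 V → unitInterval) =>
      stage S p.1 p.2.1 p.2.2 e) := sorry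

theorem measurable_XX (S : Finset (Sym2 V)) (K : ℕ) (e : Sym2 V) :
    Measurable (fun p : (Sym2 V → ℝ) × (Sym2 V → ℕ → unitInterval) =>
      XX S p.1 p.2 K e) := sorry

theorem XX_congr {S : Finset (Sym2 V)} {t t' : Sym2 V → ℝ}
    {u u' : Sym2 V → ℕ → unitInterval} (ht : ∀ e ∈ S, t e = t' e) (hu : ∀ e ∈ S, u e = u' e)
    (K : ℕ) : XX S t u K = XX S t' u' K := sorry

/-! ### Natural.lean (naturality under a bijection of the vertex sets) -/

theorem mm_map (σ : V ≃ W) (S : Finset (Sym2 V)) (x : Sym2 W → ℝ) (e : Sym2 V) :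
    mm (S.map ⟨Sym2.map σ, Sym2.map.injective σ.injective⟩) x (Sym2.map σ e) =
      mm S (fun f => x (Sym2.map σ f)) e := sorry

theorem XX_map (σ : V ≃ W) (S : Finset (Sym2 V)) (t : Sym2 W → ℝ)
    (u : Sym2 W → ℕ → unitInterval) (K : ℕ) (e : Sym2 V) :
    XX (S.map ⟨Sym2.map σ, Sym2.map.injective σ.injective⟩) t u K (Sym2.map σ e) =
      XX S (fun f => t (Sym2.map σ f)) (fun f => u (Sym2.map σ f)) K e := sorry

/-! ### Path.lean: pathwise convergence -/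

theorem tendsto_XI {E' : Set (Sym2 V)} (hE : Loopless E') (t : Sym2 V → ℝ)
    (u : Sym2 V → ℕ → unitInterval) (K : ℕ) (e : Sym2 V) :
    Tendsto (fun Q => XX (cut E' Q) t u K e) atTop (𝓝 (XI E' t u K e)) := sorry

/-! ### Law.lean: exact law in finite volume -/

theorem law_XX [Countable V] {S : Finset (Sym2 V)} (hS : Loopless (S : Set (Sym2 V)))
    {t : Sym2 V → ℝ} (ht : Set.InjOn t S) (K : ℕ) {φ : (Sym2 V → ℝ) → ℝ} (hφ : Measurable φ)
    {M : ℝ} (hM : ∀ x, |φ x| ≤ M) :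
    ∫ u, φ (XX S t u K) ∂UU V =
      ∫ ζ, φ (NN S ζ K) * (ZZ S (NN S ζ K) / ZZ S 0) ∂UU V := sorry

/-! ### Approx.lean (uses `law_XX`) -/

theorem approx_gg [Countable V] {S : Finset (Sym2 V)} (hS : Loopless (S : Set (Sym2 V)))
    {t : Sym2 V → ℝ} (ht : Set.InjOn t S) (K : ℕ) {F A : Finset (Sym2 V)} (hF : F ⊆ S)
    (hA : A ⊆ F) :
    |∫ u, gg F A (XX S t u K) ∂UU V - ustP S F A| ≤ F.card * rho ^ K := sorry

theorem var_small [Countable V] {S : Finset (Sym2 V)} (hS : Loopless (S : Set (Sym2 V)))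
    {t : Sym2 V → ℝ} (ht : Set.InjOn t S) (K : ℕ) {e : Sym2 V} (he : e ∈ S) :
    ∫ u, psi (XX S t u K e) * (1 - psi (XX S t u K e)) ∂UU V ≤ rho ^ K := sorry

/-! ### Limit.lean -/

theorem measurable_XI [Countable V] (K : ℕ) (e : Sym2 V) :
    Measurable (fun p : SimpleGraph V × (Sym2 V → ℝ) × (Sym2 V → ℕ → unitInterval) =>
      XI p.1.edgeSet p.2.1 p.2.2 K e) := sorry

theorem measurable_TT [Countable V] :
    Measurable (fun p : SimpleGraph V × (Sym2 V → ℝ) × (Sym2 V → ℕ → unitInterval) =>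
      TT p.1.edgeSet p.2.1 p.2.2) := sorry

theorem tendsto_ustP [Countable V] (G : SimpleGraph V) {t : Sym2 V → ℝ}
    (ht : Set.InjOn t G.edgeSet) {F A : Finset (Sym2 V)} (hF : (F : Set (Sym2 V)) ⊆ G.edgeSet)
    (hA : A ⊆ F) :
    Tendsto (fun Q => ustP (cut G.edgeSet Q) F A) atTop
      (𝓝 ((UU V).real {u | TT G.edgeSet t u ∩ F = A})) := sorry

/-! ### Labels.lean -/

theorem lab_law [Countable V] (G : SimpleGraph V) (hG : ∀ v, (G.neighborSet v).Finite)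
    {H : Set ((V → unitInterval) × (Sym2 V → ℕ → unitInterval))} (hH : MeasurableSet H)
    (hsat : ∀ a u u', (∀ e ∈ G.edgeSet, u e = u' e) → ((a, u) ∈ H ↔ (a, u') ∈ H)) :
    U2 V {b | ((fun v => b v 0), lab G b) ∈ H} = ((U1 V).prod (UU V)) H := sorry

theorem ae_injOn_tm [Countable V] :
    ∀ᵐ a ∂(U1 V), Set.InjOn (tm a) {e : Sym2 V | ¬ e.IsDiag} := sorry

theorem measurable_lab [Countable V] :
    Measurable (fun p : SimpleGraph V × (V → ℕ → unitInterval) => lab p.1 p.2) := sorry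

end P143.Skel
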